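import Vale.Agent.P170.Basic

namespace Vale.Agent.P170

open Finset

variable {k : ℕ} {U V : Finset ℕ} {A B : St}

lemma mem_lit {l : Lit} {σ : Asg} : σ ∈ lit l ↔ σ l.1 = l.2 := Iff.rfl

lemma mem_sol {c : Cls} {σ : Asg} : σ ∈ sol c ↔ ∃ l ∈ c, σ l.1 = l.2 := Iff.rfl

lemma inter_sol_eq (A : St) (c : Cls) : A ∩ sol c = ⋃ l ∈ c, A ∩ lit l := by
  ext σ
  simp only [Set.mem_inter_iff, mem_sol, Set.mem_iUnion, mem_lit]
  constructor
  · rintro ⟨h, l, hl, h2⟩
    exact ⟨l, hl, h, h2⟩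
  · rintro ⟨l, hl, h, h2⟩
    exact ⟨h, l, hl, h2⟩

lemma phi_of_nonempty (h : A.Nonempty) : phi A = 1 := by
  unfold phi; rw [if_pos h]

lemma phi_empty : phi ∅ = 0 := by
  unfold phi; rw [if_neg Set.not_nonempty_empty]

lemma phi_nonneg (A : St) : 0 ≤ phi A := by
  unfold phi; split_ifs <;> norm_num

lemma phi_le_one (A : St) : phi A ≤ 1 := by
  unfold phi; split_ifs <;> norm_num

lemma phi_mono (h : A ⊆ B) : phi A ≤ phi B := by
  rcases A.eq_empty_or_nonempty with rfl | hA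
  · rw [phi_empty]; exact phi_nonneg _
  · rw [phi_of_nonempty hA, phi_of_nonempty (hA.mono h)]

lemma phi_union_le (A B : St) : phi (A ∪ B) ≤ phi A + phi B := by
  rcases A.eq_empty_or_nonempty with rfl | hA
  · simp [phi_empty]
  · rw [phi_of_nonempty hA]
    have := phi_le_one (A ∪ B)
    have := phi_nonneg B
    linarith

lemma Op_apply (S : Finset Cls) (f : St → ℝ) (A : St) :
    Op S f A = (∑ c ∈ S, f (A ∩ sol c)) / (S.card : ℝ) := rfl

def IsPos {X : Type*} (T : Module.End ℝ (X → ℝ)) : Prop := ∀ f g : X → ℝ, f ≤ g → T f ≤ T g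

lemma IsPos.one {X : Type*} : IsPos (1 : Module.End ℝ (X → ℝ)) := by
  intro f g h; simpa using h

lemma IsPos.add {X : Type*} {S T : Module.End ℝ (X → ℝ)} (hS : IsPos S) (hT : IsPos T) :
    IsPos (S + T) := by
  intro f g h
  simp only [LinearMap.add_apply]
  exact add_le_add (hS f g h) (hT f g h)

lemma IsPos.mul {X : Type*} {S T : Module.End ℝ (X → ℝ)} (hS : IsPos S) (hT : IsPos T) :
    IsPos (S * T) := by
  intro f g h
  simp only [Module.End.mul_apply]
  exact hS _ _ (hT f g h)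

lemma IsPos.smul {X : Type*} {T : Module.End ℝ (X → ℝ)} {r : ℝ} (hr : 0 ≤ r) (hT : IsPos T) :
    IsPos (r • T) := by
  intro f g h x
  simp only [LinearMap.smul_apply, Pi.smul_apply, smul_eq_mul]
  exact mul_le_mul_of_nonneg_left (hT f g h x) hr

lemma IsPos.pow {X : Type*} {T : Module.End ℝ (X → ℝ)} (hT : IsPos T) (t : ℕ) :
    IsPos (T ^ t) := by
  induction t with
  | zero => simpa using IsPos.one
  | succ n ih => rw [pow_succ]; exact ih.mul hT

lemma Op_isPos (S : Finset Cls) : IsPos (Op S) := by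
  intro f g h A
  rw [Op_apply, Op_apply]
  exact div_le_div_of_nonneg_right (Finset.sum_le_sum fun c _ => h _) (Nat.cast_nonneg _)

lemma PP_isPos (k : ℕ) (U : Finset ℕ) : IsPos (PP k U) := Op_isPos _

lemma Op_commute (S T : Finset Cls) : Commute (Op S) (Op T) := by
  unfold Commute SemiconjBy
  ext f A
  simp only [Module.End.mul_apply, Op_apply]
  rw [← Finset.sum_div, ← Finset.sum_div, Finset.sum_comm, div_div, div_div, mul_comm (S.card : ℝ)]
  congr 1
  refine Finset.sum_congr rfl fun c _ => Finset.sum_congr rfl fun d _ => ?_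
  rw [Set.inter_assoc, Set.inter_assoc, Set.inter_comm (sol c)]

lemma Op_const {S : Finset Cls} (hS : S.Nonempty) (r : ℝ) :
    Op S (fun _ => r) = fun _ => r := by
  funext A
  rw [Op_apply, Finset.sum_const, nsmul_eq_mul]
  have : (S.card : ℝ) ≠ 0 := by
    simpa using hS.ne_empty
  field_simp

lemma PP_apply (f : St → ℝ) (A : St) :
    PP k U f A = (∑ c ∈ Cl k U, f (A ∩ sol c)) / ((Cl k U).card : ℝ) := rfl

lemma pow_succ_apply {X : Type*} (T : Module.End ℝ (X → ℝ)) (t : ℕ) (f : X → ℝ) :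
    (T ^ (t + 1)) f = T ((T ^ t) f) := by
  rw [pow_succ']; rfl

lemma pow_succ_apply' {X : Type*} (T : Module.End ℝ (X → ℝ)) (t : ℕ) (f : X → ℝ) :
    (T ^ (t + 1)) f = (T ^ t) (T f) := by
  rw [pow_succ]; rfl

lemma Op_mono_state (S : Finset Cls) {f : St → ℝ} (hf : Monotone f) : Monotone (Op S f) := by
  intro A B h
  rw [Op_apply, Op_apply]
  exact div_le_div_of_nonneg_right
    (Finset.sum_le_sum fun c _ => hf (Set.inter_subset_inter_left _ h)) (Nat.cast_nonneg _)

lemma PP_pow_mono_state (t : ℕ) {f : St → ℝ} (hf : Monotone f) :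
    Monotone (((PP k U) ^ t) f) := by
  induction t with
  | zero => simpa using hf
  | succ n ih => rw [pow_succ_apply]; exact Op_mono_state _ ih

lemma Op_empty (S : Finset Cls) {f : St → ℝ} (hf : f ∅ = 0) : Op S f ∅ = 0 := by
  rw [Op_apply]
  simp [hf]

lemma mem_Cl {j : ℕ} {c : Cls} :
    c ∈ Cl j U ↔ c ⊆ Lits U ∧ c.card = j ∧ (c.image Prod.fst).card = j := by
  simp only [Cl, Finset.mem_filter, Finset.mem_powersetCard, and_assoc]

lemma mem_Lits {l : Lit} : l ∈ Lits U ↔ l.1 ∈ U := by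
  simp [Lits]

/-- the clause on the variable set `W` with positive variables `T` -/
def mkCl (W : Finset ℕ) (T : Finset ℕ) : Cls := W.image (fun v => (v, decide (v ∈ T)))

def posv (c : Cls) : Finset ℕ := (c.filter (fun l => l.2 = true)).image Prod.fst

lemma mem_posv {c : Cls} {v : ℕ} : v ∈ posv c ↔ (v, true) ∈ c := by
  simp only [posv, Finset.mem_image, Finset.mem_filter]
  constructor
  · rintro ⟨l, ⟨h1, h2⟩, rfl⟩
    rw [← h2]; exact h1
  · intro h
    exact ⟨(v, true), ⟨h, rfl⟩, rfl⟩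

lemma mem_mkCl {W T : Finset ℕ} {l : Lit} : l ∈ mkCl W T ↔ l.1 ∈ W ∧ l.2 = decide (l.1 ∈ T) := by
  simp only [mkCl, Finset.mem_image]
  constructor
  · rintro ⟨v, hv, rfl⟩
    exact ⟨hv, rfl⟩
  · rintro ⟨h1, h2⟩
    exact ⟨l.1, h1, by rw [← h2]⟩

lemma mkCl_image_fst (W T : Finset ℕ) : (mkCl W T).image Prod.fst = W := by
  ext v
  simp only [Finset.mem_image, mem_mkCl]
  constructor
  · rintro ⟨l, ⟨h1, _⟩, rfl⟩
    exact h1
  · intro h
    exact ⟨(v, decide (v ∈ T)), ⟨h, rfl⟩, rfl⟩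

lemma mkCl_card (W T : Finset ℕ) : (mkCl W T).card = W.card := by
  rw [mkCl, Finset.card_image_of_injective]
  intro a b hab
  exact (Prod.mk.inj hab).1

lemma mkCl_mem {j : ℕ} {W T : Finset ℕ} (hW : W ∈ U.powersetCard j) : mkCl W T ∈ Cl j U := by
  rw [Finset.mem_powersetCard] at hW
  rw [mem_Cl]
  refine ⟨?_, ?_, ?_⟩
  · intro l hl
    exact mem_Lits.2 (hW.1 (mem_mkCl.1 hl).1)
  · rw [mkCl_card, hW.2]
  · rw [mkCl_image_fst, hW.2]

lemma posv_mkCl {W T : Finset ℕ} (h : T ⊆ W) : posv (mkCl W T) = T := by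
  ext v
  rw [mem_posv, mem_mkCl]
  constructor
  · rintro ⟨_, h2⟩
    simpa using h2.symm
  · intro hv
    exact ⟨h hv, by simpa using hv⟩

lemma Cl_injOn {j : ℕ} {c : Cls} (hc : c ∈ Cl j U) : Set.InjOn Prod.fst (c : Set Lit) := by
  rw [mem_Cl] at hc
  rw [← Finset.card_image_iff, hc.2.1, hc.2.2]

lemma mkCl_posv {j : ℕ} {c : Cls} (hc : c ∈ Cl j U) : mkCl (c.image Prod.fst) (posv c) = c := by
  have hinj := Cl_injOn hc
  ext l
  rw [mem_mkCl]
  obtain ⟨v, b⟩ := l
  constructor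
  · rintro ⟨h1, h2⟩
    obtain ⟨l', hl', h1⟩ := Finset.mem_image.1 h1
    obtain ⟨v', b'⟩ := l'
    simp only at h1 h2
    subst h1
    cases b' with
    | true =>
      have : b = true := by rw [h2]; exact decide_eq_true (mem_posv.2 hl')
      rw [this]; exact hl'
    | false =>
      have : b = false := by
        rw [h2]
        apply decide_eq_false
        intro h3
        have := hinj hl' (mem_posv.1 h3) rfl
        simp at this
      rw [this]; exact hl'
  · intro hl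
    refine ⟨Finset.mem_image.2 ⟨(v, b), hl, rfl⟩, ?_⟩
    cases b with
    | true => exact (decide_eq_true (mem_posv.2 hl)).symm
    | false =>
      symm
      apply decide_eq_false
      intro h3
      have := hinj hl (mem_posv.1 h3) rfl
      simp at this

lemma Cl_card (j : ℕ) (U : Finset ℕ) : (Cl j U).card = 2 ^ j * U.card.choose j := by
  have h : (Cl j U).card =
      ((U.powersetCard j).sigma (fun W => W.powerset)).card := by
    refine Finset.card_nbij' (fun c => ⟨c.image Prod.fst, posv c⟩) (fun x => mkCl x.1 x.2)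
      ?_ ?_ ?_ ?_
    · intro c hc
      have hc' := mem_Cl.1 hc
      simp only [Finset.coe_sigma, Set.mem_sigma_iff, Finset.mem_coe, Finset.mem_powersetCard,
        Finset.mem_powerset]
      refine ⟨⟨?_, hc'.2.2⟩, ?_⟩
      · intro v hv
        obtain ⟨l, hl, rfl⟩ := Finset.mem_image.1 hv
        exact mem_Lits.1 (hc'.1 hl)
      · intro v hv
        exact Finset.mem_image.2 ⟨(v, true), mem_posv.1 hv, rfl⟩
    · rintro ⟨W, T⟩ hx
      simp only [Finset.coe_sigma, Set.mem_sigma_iff, Finset.mem_coe] at hx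
      exact mkCl_mem hx.1
    · intro c hc
      exact mkCl_posv hc
    · rintro ⟨W, T⟩ hx
      simp only [Finset.coe_sigma, Set.mem_sigma_iff, Finset.mem_coe, Finset.mem_powerset] at hx
      simp only [mkCl_image_fst, posv_mkCl hx.2]
  rw [h, Finset.card_sigma]
  rw [Finset.sum_congr rfl (g := fun _ => 2 ^ j)]
  · rw [Finset.sum_const, Finset.card_powersetCard, smul_eq_mul, mul_comm]
  · intro W hW
    rw [Finset.card_powerset, (Finset.mem_powersetCard.1 hW).2]

lemma Cl_card_pos' {j : ℕ} (h : j ≤ U.card) : 0 < (Cl j U).card := by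
  rw [Cl_card]
  exact Nat.mul_pos (by positivity) (Nat.choose_pos h)

lemma Cl_nonempty {j : ℕ} (h : j ≤ U.card) : (Cl j U).Nonempty :=
  Finset.card_pos.1 (Cl_card_pos' h)

lemma Cl_card_pos {j : ℕ} (h : j ≤ U.card) : (0 : ℝ) < (Cl j U).card := by
  exact_mod_cast Cl_card_pos' h

/-! ### the survival function `s` -/

lemma s_zero (A : St) : s k U 0 A = phi A := by
  simp [s]

lemma s_succ (t : ℕ) (A : St) : s k U (t + 1) A = PP k U (s k U t) A := by
  unfold s
  rw [pow_succ_apply]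

lemma s_eq (t : ℕ) : s k U t = ((PP k U) ^ t) phi := rfl

lemma phi_monotone : Monotone phi := fun _ _ h => phi_mono h

lemma s_mono (t : ℕ) (h : A ⊆ B) : s k U t A ≤ s k U t B :=
  PP_pow_mono_state t phi_monotone h

lemma s_empty (t : ℕ) : s k U t ∅ = 0 := by
  induction t with
  | zero => rw [s_zero, phi_empty]
  | succ n ih => rw [s_succ]; exact Op_empty _ ih

lemma s_nonneg (t : ℕ) (A : St) : 0 ≤ s k U t A := by
  rw [← s_empty (k := k) (U := U) t]
  exact s_mono t (Set.empty_subset _)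

lemma avg_le_of_le {S : Finset Cls} {f : Cls → ℝ} {r : ℝ} (hr : 0 ≤ r) (h : ∀ c ∈ S, f c ≤ r) :
    (∑ c ∈ S, f c) / (S.card : ℝ) ≤ r := by
  rcases Nat.eq_zero_or_pos S.card with h0 | h0
  · rw [h0]; simpa using hr
  · rw [div_le_iff₀ (by exact_mod_cast h0)]
    calc ∑ c ∈ S, f c ≤ ∑ c ∈ S, r := Finset.sum_le_sum h
      _ = r * S.card := by rw [Finset.sum_const, nsmul_eq_mul, mul_comm]

lemma s_le_one (t : ℕ) (A : St) : s k U t A ≤ 1 := by
  induction t generalizing A with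
  | zero => rw [s_zero]; exact phi_le_one A
  | succ n ih =>
    rw [s_succ, PP_apply]
    exact avg_le_of_le zero_le_one fun c _ => ih _

lemma s_succ_le (t : ℕ) (A : St) : s k U (t + 1) A ≤ s k U t A := by
  rw [s_succ, PP_apply]
  exact avg_le_of_le (s_nonneg _ _) fun c _ => s_mono t Set.inter_subset_left

lemma s_antitone (A : St) : Antitone (fun t => s k U t A) :=
  antitone_nat_of_succ_le fun t => s_succ_le t A

lemma s_union_le (t : ℕ) (A B : St) : s k U t (A ∪ B) ≤ s k U t A + s k U t B := by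
  induction t generalizing A B with
  | zero => simp only [s_zero]; exact phi_union_le A B
  | succ n ih =>
    rw [s_succ, s_succ, s_succ, PP_apply, PP_apply, PP_apply, ← add_div, ← Finset.sum_add_distrib]
    refine div_le_div_of_nonneg_right (Finset.sum_le_sum fun c _ => ?_) (Nat.cast_nonneg _)
    rw [Set.union_inter_distrib_right]
    exact ih _ _

lemma s_biUnion_le {ι : Type*} (t : ℕ) (T : Finset ι) (f : ι → St) :
    s k U t (⋃ i ∈ T, f i) ≤ ∑ i ∈ T, s k U t (f i) := by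
  classical
  induction T using Finset.induction_on with
  | empty => simp [s_empty]
  | insert a T ha ih =>
    rw [Finset.set_biUnion_insert, Finset.sum_insert ha]
    exact (s_union_le _ _ _).trans (by linarith)

/-- assignments agreeing on `U` with the indicator of `T` -/
def cyl (U T : Finset ℕ) : St := {σ | ∀ v ∈ U, σ v = decide (v ∈ T)}

lemma univ_eq_cyl (U : Finset ℕ) : (Set.univ : St) = ⋃ T ∈ U.powerset, cyl U T := by
  ext σ
  simp only [Set.mem_univ, true_iff, Set.mem_iUnion, cyl]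
  refine ⟨U.filter (fun v => σ v = true), Finset.mem_powerset.2 (Finset.filter_subset _ _), ?_⟩
  intro v hv
  simp [hv]

lemma cyl_inter_sol {T : Finset ℕ} {c : Cls} (hc : c ∈ Cl k U)
    (h : ∃ l ∈ c, l.2 = decide (l.1 ∈ T)) : cyl U T ∩ sol c = cyl U T := by
  rw [Set.inter_eq_left]
  intro σ hσ
  obtain ⟨l, hl, h2⟩ := h
  refine ⟨l, hl, ?_⟩
  rw [h2]
  exact hσ _ (mem_Lits.1 ((mem_Cl.1 hc).1 hl))

lemma cyl_inter_sol_empty {T : Finset ℕ} {c : Cls} (hc : c ∈ Cl k U)
    (h : ¬ ∃ l ∈ c, l.2 = decide (l.1 ∈ T)) : cyl U T ∩ sol c = ∅ := by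
  rw [Set.eq_empty_iff_forall_notMem]
  rintro σ ⟨hσ, l, hl, h2⟩
  refine h ⟨l, hl, ?_⟩
  rw [← h2]
  exact hσ _ (mem_Lits.1 ((mem_Cl.1 hc).1 hl))

/-- the `k`-clauses on `U` violated by the assignment `T` -/
lemma card_violated (k : ℕ) (U T : Finset ℕ) :
    ((Cl k U).filter (fun c => ¬ ∃ l ∈ c, l.2 = decide (l.1 ∈ T))).card = U.card.choose k := by
  rw [← Finset.card_powersetCard k U]
  refine Finset.card_nbij' (fun c => c.image Prod.fst) (fun W => mkCl W (W \ T)) ?_ ?_ ?_ ?_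
  · intro c hc
    rw [Finset.mem_coe, Finset.mem_filter] at hc
    have hc' := mem_Cl.1 hc.1
    rw [Finset.mem_coe, Finset.mem_powersetCard]
    refine ⟨?_, hc'.2.2⟩
    intro v hv
    obtain ⟨l, hl, rfl⟩ := Finset.mem_image.1 hv
    exact mem_Lits.1 (hc'.1 hl)
  · intro W hW
    rw [Finset.mem_coe, Finset.mem_filter]
    refine ⟨mkCl_mem hW, ?_⟩
    rintro ⟨l, hl, h2⟩
    rw [mem_mkCl] at hl
    rw [hl.2] at h2
    have h3 := hl.1
    by_cases h : l.1 ∈ T <;> simp [h, h3] at h2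
  · intro c hc
    rw [Finset.mem_coe, Finset.mem_filter] at hc
    have h1 := mkCl_posv hc.1
    have key : c.image Prod.fst \ T = posv c := by
      ext v
      rw [Finset.mem_sdiff, mem_posv, Finset.mem_image]
      constructor
      · rintro ⟨⟨l', hl', h4⟩, h6⟩
        have h5 : ¬ l'.2 = decide (l'.1 ∈ T) := fun h => hc.2 ⟨l', hl', h⟩
        obtain ⟨w, b⟩ := l'
        simp only at h4 h5
        subst h4
        cases b with
        | true => exact hl'
        | false => exact absurd (decide_eq_false h6).symm h5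
      · intro hl'
        refine ⟨⟨_, hl', rfl⟩, fun h => hc.2 ⟨_, hl', ?_⟩⟩
        exact (decide_eq_true h).symm
    simp only [key, h1]
  · intro W hW
    exact mkCl_image_fst _ _

lemma s_cyl_le (hU : k ≤ U.card) (t : ℕ) (T : Finset ℕ) :
    s k U t (cyl U T) ≤ (1 - 1 / 2 ^ k) ^ t := by
  induction t with
  | zero => rw [s_zero, pow_zero]; exact phi_le_one _
  | succ n ih =>
    rw [s_succ, PP_apply, div_le_iff₀ (Cl_card_pos hU)]
    have h1 : ∑ c ∈ Cl k U, s k U n (cyl U T ∩ sol c) =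
        ∑ c ∈ (Cl k U).filter (fun c => ∃ l ∈ c, l.2 = decide (l.1 ∈ T)), s k U n (cyl U T) := by
      rw [Finset.sum_filter]
      refine Finset.sum_congr rfl fun c hc => ?_
      split_ifs with h
      · rw [cyl_inter_sol hc h]
      · rw [cyl_inter_sol_empty hc h, s_empty]
    rw [h1, Finset.sum_const, nsmul_eq_mul]
    have h2 := card_violated k U T
    have h3 := Finset.card_filter_add_card_filter_not (s := Cl k U)
      (fun c : Cls => ∃ l ∈ c, l.2 = decide (l.1 ∈ T))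
    rw [h2, Cl_card] at h3
    have h4 : (((Cl k U).filter (fun c => ∃ l ∈ c, l.2 = decide (l.1 ∈ T))).card : ℝ)
        = (1 - 1 / 2 ^ k) * ((Cl k U).card : ℝ) := by
      rw [Cl_card]
      have h5 : (((Cl k U).filter (fun c => ∃ l ∈ c, l.2 = decide (l.1 ∈ T))).card : ℝ)
        + (U.card.choose k : ℝ) = ((2 ^ k * U.card.choose k : ℕ) : ℝ) := by exact_mod_cast h3
      have h6 : (0 : ℝ) < 2 ^ k := by positivity
      rw [eq_sub_of_add_eq h5]
      push_cast
      field_simp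
    rw [h4, pow_succ]
    have h7 : (0 : ℝ) ≤ 1 - 1 / 2 ^ k := by
      have : (1 : ℝ) / 2 ^ k ≤ 1 := by
        rw [div_le_one (by positivity)]
        exact one_le_pow₀ (by norm_num)
      linarith
    have h8 : (0 : ℝ) ≤ (Cl k U).card := Nat.cast_nonneg _
    calc (1 - 1 / 2 ^ k) * ((Cl k U).card : ℝ) * s k U n (cyl U T)
        ≤ (1 - 1 / 2 ^ k) * ((Cl k U).card : ℝ) * (1 - 1 / 2 ^ k) ^ n :=
          mul_le_mul_of_nonneg_left ih (mul_nonneg h7 h8)
      _ = (1 - 1 / 2 ^ k) ^ n * (1 - 1 / 2 ^ k) * ((Cl k U).card : ℝ) := by ring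

lemma s_first_moment (hU : k ≤ U.card) (t : ℕ) (A : St) :
    s k U t A ≤ 2 ^ U.card * (1 - 1 / 2 ^ k) ^ t := by
  calc s k U t A ≤ s k U t Set.univ := s_mono t (Set.subset_univ _)
    _ = s k U t (⋃ T ∈ U.powerset, cyl U T) := by rw [← univ_eq_cyl]
    _ ≤ ∑ T ∈ U.powerset, s k U t (cyl U T) := s_biUnion_le _ _ _
    _ ≤ ∑ T ∈ U.powerset, (1 - 1 / 2 ^ k : ℝ) ^ t :=
        Finset.sum_le_sum fun T _ => s_cyl_le hU t T
    _ = 2 ^ U.card * (1 - 1 / 2 ^ k) ^ t := by
        rw [Finset.sum_const, Finset.card_powerset, nsmul_eq_mul]; push_cast; ring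

lemma q_lt_one (k : ℕ) : (1 - 1 / 2 ^ k : ℝ) < 1 := by
  have : (0 : ℝ) < 1 / 2 ^ k := by positivity
  linarith

lemma q_nonneg (k : ℕ) : (0 : ℝ) ≤ 1 - 1 / 2 ^ k := by
  have : (1 : ℝ) / 2 ^ k ≤ 1 := by
    rw [div_le_one (by positivity)]
    exact one_le_pow₀ (by norm_num)
  linarith

lemma s_summable (_hk : 1 ≤ k) (hU : k ≤ U.card) (A : St) : Summable (fun t => s k U t A) := by
  refine Summable.of_nonneg_of_le (fun t => s_nonneg t A) (fun t => s_first_moment hU t A) ?_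
  exact (summable_geometric_of_lt_one (q_nonneg k) (q_lt_one k)).mul_left _

/-! ### the expected lifetime `J` -/

lemma J_empty : J k U ∅ = 0 := by
  simp [J, s_empty]

lemma J_nonneg (A : St) : 0 ≤ J k U A := tsum_nonneg fun t => s_nonneg t A

lemma J_eq' (hk : 1 ≤ k) (hU : k ≤ U.card) (A : St) : J k U A = phi A + PP k U (J k U) A := by
  have h1 : J k U A = s k U 0 A + ∑' t, s k U (t + 1) A := (s_summable hk hU A).tsum_eq_zero_add
  rw [h1, s_zero]
  congr 1
  rw [PP_apply]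
  simp only [s_succ, PP_apply, J]
  rw [tsum_div_const]
  congr 1
  exact Summable.tsum_finsetSum fun c _ => s_summable hk hU _

lemma J_eq (hk : 1 ≤ k) (hU : k ≤ U.card) (hA : A.Nonempty) :
    J k U A = 1 + PP k U (J k U) A := by
  rw [← phi_of_nonempty hA]; exact J_eq' hk hU A

lemma J_mono (hk : 1 ≤ k) (hU : k ≤ U.card) (h : A ⊆ B) : J k U A ≤ J k U B :=
  (s_summable hk hU A).tsum_le_tsum (fun t => s_mono t h) (s_summable hk hU B)

lemma one_le_J (hk : 1 ≤ k) (hU : k ≤ U.card) (hA : A.Nonempty) : 1 ≤ J k U A := by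
  have h := (s_summable hk hU A).le_tsum 0 (fun t _ => s_nonneg t A)
  rw [s_zero, phi_of_nonempty hA] at h
  exact h

lemma J_union_le (hk : 1 ≤ k) (hU : k ≤ U.card) (A B : St) :
    J k U (A ∪ B) ≤ J k U A + J k U B := by
  unfold J
  rw [← (s_summable hk hU A).tsum_add (s_summable hk hU B)]
  exact (s_summable hk hU _).tsum_le_tsum (fun t => s_union_le t A B)
    ((s_summable hk hU A).add (s_summable hk hU B))

lemma J_biUnion_le {ι : Type*} (hk : 1 ≤ k) (hU : k ≤ U.card) (T : Finset ι) (f : ι → St) :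
    J k U (⋃ i ∈ T, f i) ≤ ∑ i ∈ T, J k U (f i) := by
  classical
  induction T using Finset.induction_on with
  | empty => simp [J_empty]
  | insert a T ha ih =>
    rw [Finset.set_biUnion_insert, Finset.sum_insert ha]
    exact (J_union_le hk hU _ _).trans (by linarith)

lemma J_inter_sol_le (hk : 1 ≤ k) (hU : k ≤ U.card) (A : St) (c : Cls) :
    J k U (A ∩ sol c) ≤ ∑ l ∈ c, J k U (A ∩ lit l) := by
  rw [inter_sol_eq]
  exact J_biUnion_le hk hU c _

lemma J_inter_lit_le (hk : 1 ≤ k) (hU : k ≤ U.card) (A : St) {c : Cls} {l : Lit} (hl : l ∈ c) :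
    J k U (A ∩ lit l) ≤ J k U (A ∩ sol c) := by
  refine J_mono hk hU ?_
  rintro σ ⟨h1, h2⟩
  exact ⟨h1, l, hl, h2⟩

lemma sum_s_le_J (hk : 1 ≤ k) (hU : k ≤ U.card) (m : ℕ) (A : St) :
    ∑ t ∈ range m, s k U t A ≤ J k U A :=
  (s_summable hk hU A).sum_le_tsum _ fun t _ => s_nonneg t A

lemma mul_s_le_J (hk : 1 ≤ k) (hU : k ≤ U.card) (m : ℕ) (A : St) :
    ((m : ℝ) + 1) * s k U m A ≤ J k U A := by
  refine le_trans ?_ (sum_s_le_J hk hU (m + 1) A)
  calc ((m : ℝ) + 1) * s k U m A = ∑ t ∈ range (m + 1), s k U m A := by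
        rw [Finset.sum_const, Finset.card_range, nsmul_eq_mul]; push_cast; ring
    _ ≤ ∑ t ∈ range (m + 1), s k U t A := by
        refine Finset.sum_le_sum fun t ht => ?_
        exact s_antitone A (Nat.lt_succ_iff.1 (Finset.mem_range.1 ht))

/-- tail bound of the lifetime -/
lemma J_le_add (hk : 1 ≤ k) (hU : k ≤ U.card) (m : ℕ) (A : St) :
    J k U A ≤ ∑ t ∈ range m, s k U t A + 2 ^ U.card * 2 ^ k * (1 - 1 / 2 ^ k) ^ m := by
  have h1 := (s_summable hk hU A).sum_add_tsum_nat_add m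
  have h2 : J k U A = ∑ t ∈ range m, s k U t A + ∑' t, s k U (t + m) A := h1.symm
  rw [h2]
  have h3 : ∑' t, s k U (t + m) A ≤ ∑' t : ℕ, 2 ^ U.card * (1 - 1 / 2 ^ k : ℝ) ^ m *
      (1 - 1 / 2 ^ k : ℝ) ^ t := by
    refine Summable.tsum_le_tsum (fun t => ?_) ?_ ?_
    · refine (s_first_moment hU (t + m) A).trans (le_of_eq ?_)
      rw [pow_add]; ring
    · exact (summable_nat_add_iff m).2 (s_summable hk hU A)
    · exact (summable_geometric_of_lt_one (q_nonneg k) (q_lt_one k)).mul_left _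
  rw [tsum_mul_left, tsum_geometric_of_lt_one (q_nonneg k) (q_lt_one k)] at h3
  have h4 : ((1 : ℝ) - (1 - 1 / 2 ^ k))⁻¹ = 2 ^ k := by
    rw [sub_sub_cancel, one_div, inv_inv]
  rw [h4] at h3
  linarith

lemma q_pow_le (k n : ℕ) : (1 - 1 / 2 ^ k : ℝ) ^ (2 ^ k * n) ≤ Real.exp (-(n : ℝ)) := by
  have h1 : (1 - 1 / 2 ^ k : ℝ) ≤ Real.exp (-(1 / 2 ^ k)) := by
    have := Real.add_one_le_exp (-(1 / 2 ^ k : ℝ))
    linarith
  calc (1 - 1 / 2 ^ k : ℝ) ^ (2 ^ k * n) ≤ (Real.exp (-(1 / 2 ^ k))) ^ (2 ^ k * n) :=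
        pow_le_pow_left₀ (q_nonneg k) h1 _
    _ = Real.exp (-(n : ℝ)) := by
        rw [← Real.exp_nat_mul]
        congr 1
        push_cast
        have : (2 : ℝ) ^ k ≠ 0 := by positivity
        field_simp

lemma J_le (hk : 1 ≤ k) (hU : k ≤ U.card) (A : St) : J k U A ≤ 2 ^ (k + 1) * U.card := by
  have h1 := J_le_add hk hU (2 ^ k * U.card) A
  have h2 : ∑ t ∈ range (2 ^ k * U.card), s k U t A ≤ 2 ^ k * U.card := by
    calc ∑ t ∈ range (2 ^ k * U.card), s k U t A ≤ ∑ t ∈ range (2 ^ k * U.card), (1 : ℝ) :=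
          Finset.sum_le_sum fun t _ => s_le_one t A
      _ = 2 ^ k * U.card := by simp
  have hn : (1 : ℝ) ≤ U.card := by exact_mod_cast hk.trans hU
  have h3 : (2 : ℝ) ^ U.card * 2 ^ k * (1 - 1 / 2 ^ k) ^ (2 ^ k * U.card) ≤ 2 ^ k := by
    have h4 := q_pow_le k U.card
    have h5 : (2 : ℝ) ^ U.card ≤ Real.exp U.card := by
      have h6 : (2 : ℝ) ≤ Real.exp 1 := by
        have := Real.add_one_le_exp (1 : ℝ); linarith
      calc (2 : ℝ) ^ U.card ≤ (Real.exp 1) ^ U.card := pow_le_pow_left₀ (by norm_num) h6 _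
        _ = Real.exp U.card := by rw [← Real.exp_nat_mul, mul_one]
    calc (2 : ℝ) ^ U.card * 2 ^ k * (1 - 1 / 2 ^ k) ^ (2 ^ k * U.card)
        ≤ Real.exp U.card * 2 ^ k * Real.exp (-(U.card : ℝ)) := by
          refine mul_le_mul (mul_le_mul_of_nonneg_right h5 (by positivity)) h4
            (pow_nonneg (q_nonneg k) _) (by positivity)
      _ = 2 ^ k * (Real.exp U.card * Real.exp (-(U.card : ℝ))) := by ring
      _ = 2 ^ k := by rw [← Real.exp_add, add_neg_cancel, Real.exp_zero, mul_one]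
  have h7 : (0 : ℝ) < 2 ^ k := by positivity
  rw [pow_succ]
  nlinarith

end Vale.Agent.P170
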