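import Mathlib

namespace Vale.Agent.P170

open Finset

abbrev Lit := ℕ × Bool
abbrev Cls := Finset Lit
abbrev Asg := ℕ → Bool
abbrev St := Set Asg

def lit (l : Lit) : St := {σ | σ l.1 = l.2}

def sol (c : Cls) : St := {σ | ∃ l ∈ c, σ l.1 = l.2}

def Lits (U : Finset ℕ) : Finset Lit := U ×ˢ (Finset.univ : Finset Bool)

def Cl (j : ℕ) (U : Finset ℕ) : Finset Cls :=
  ((Lits U).powersetCard j).filter (fun c => (c.image Prod.fst).card = j)

noncomputable def Op (S : Finset Cls) : Module.End ℝ (St → ℝ) where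
  toFun f A := (∑ c ∈ S, f (A ∩ sol c)) / (S.card : ℝ)
  map_add' := by
    intro f g; funext A; simp [Finset.sum_add_distrib, add_div]
  map_smul' := by
    intro r f; funext A; simp [Finset.mul_sum, mul_div_assoc, Finset.sum_div]

open Classical in
noncomputable def phi : St → ℝ := fun A => if A.Nonempty then 1 else 0

noncomputable def PP (k : ℕ) (U : Finset ℕ) : Module.End ℝ (St → ℝ) := Op (Cl k U)

noncomputable def s (k : ℕ) (U : Finset ℕ) (t : ℕ) (A : St) : ℝ := ((PP k U) ^ t) phi A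

noncomputable def J (k : ℕ) (U : Finset ℕ) (A : St) : ℝ := ∑' t, s k U t A

noncomputable def M (k : ℕ) (U : Finset ℕ) : ℝ := J k U Set.univ

noncomputable def pr (j : ℕ) (U : Finset ℕ) (N : Finset Lit) : ℝ :=
  (((Cl j U).filter (fun c => c ⊆ N)).card : ℝ) / ((Cl j U).card : ℝ)

noncomputable def bad (k : ℕ) (U : Finset ℕ) (A : St) : Finset Lit :=
  (Lits U).filter (fun l => J k U (A ∩ lit l) ≤ J k U A / (2 * k))

noncomputable def kap (k : ℕ) (U : Finset ℕ) (A : St) : ℝ := phi A - PP k U phi A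

noncomputable def frz (U : Finset ℕ) (A : St) : ℝ :=
  (∑ l ∈ Lits U, (1 - phi (A ∩ lit l))) / (2 * (U.card : ℝ))

noncomputable def psi (k : ℕ) (V : Finset ℕ) (A : St) : ℝ :=
  phi A * (J k V A) ^ (-(1 / 3 : ℝ))

noncomputable def Tt (k : ℕ) (V : Finset ℕ) : Module.End ℝ (St → ℝ) :=
  (1 - (k : ℝ) / ((V.card : ℝ) + 1)) • PP k V
    + ((k : ℝ) * ((k : ℝ) + 1) / ((V.card : ℝ) + 1)) • (1 : Module.End ℝ (St → ℝ))

noncomputable def DD (k : ℕ) (U : Finset ℕ) (A : St) : ℝ :=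
  (∑ c ∈ Cl k U, (J k U A - J k U (A ∩ sol c)) ^ 2) / ((Cl k U).card : ℝ)

end Vale.Agent.P170
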