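import Vale.Agent.P170.Chain

namespace Vale.Agent.P170

open Finset

variable {k : ℕ} {U V : Finset ℕ} {A B : St}

noncomputable def branch_CQ (k : ℕ) (V : Finset ℕ) (l : Lit) : Finset Cls :=
  (Cl (k - 1) V).image (insert l)

noncomputable def branch_Q (k : ℕ) (V : Finset ℕ) (l : Lit) : Module.End ℝ (St → ℝ) :=
  Op (branch_CQ k V l)

lemma branch_notMem {j : ℕ} {v : ℕ} (hv : v ∉ V) {b : Bool} {D : Cls} (hD : D ∈ Cl j V) :
    (v, b) ∉ D := by
  intro h
  have h1 := (mem_Cl.mp hD).1 h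
  unfold Lits at h1
  rw [Finset.mem_product] at h1
  exact hv h1.1

lemma branch_injOn {v : ℕ} (hv : v ∉ V) (b : Bool) :
    Set.InjOn (insert ((v, b) : Lit)) ((Cl (k - 1) V : Finset Cls) : Set Cls) := by
  intro D hD D' hD' h
  have h1 := branch_notMem (b := b) hv hD
  have h2 := branch_notMem (b := b) hv hD'
  have : (insert ((v, b) : Lit) D).erase (v, b) = (insert ((v, b) : Lit) D').erase (v, b) := by
    rw [h]
  rwa [Finset.erase_insert h1, Finset.erase_insert h2] at this

lemma branch_Q_apply {v : ℕ} (hv : v ∉ V) (b : Bool) (f : St → ℝ) (A : St) :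
    branch_Q k V (v, b) f A =
      (∑ D ∈ Cl (k - 1) V, f (A ∩ sol (insert (v, b) D))) / ((Cl (k - 1) V).card : ℝ) := by
  unfold branch_Q
  rw [Op_apply]
  unfold branch_CQ
  rw [Finset.sum_image (branch_injOn hv b), Finset.card_image_of_injOn (branch_injOn hv b)]

lemma branch_card {v : ℕ} (hv : v ∉ V) (b : Bool) :
    (branch_CQ k V (v, b)).card = (Cl (k - 1) V).card := by
  unfold branch_CQ
  exact Finset.card_image_of_injOn (branch_injOn hv b)

lemma branch_Cl_insert (hk : 1 ≤ k) {v : ℕ} (hv : v ∉ V) :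
    Cl k (insert v V) = Cl k V ∪ (branch_CQ k V (v, true) ∪ branch_CQ k V (v, false)) := by
  ext c
  simp only [Finset.mem_union]
  constructor
  · intro hc
    obtain ⟨h1, h2, h3⟩ := mem_Cl.mp hc
    have hinj : Set.InjOn Prod.fst (c : Set Lit) := by
      apply Finset.card_image_iff.mp
      rw [h3, h2]
    by_cases hex : ∃ b, ((v, b) : Lit) ∈ c
    · obtain ⟨b, hb⟩ := hex
      have hD : c.erase (v, b) ∈ Cl (k - 1) V := by
        rw [mem_Cl]
        refine ⟨?_, ?_, ?_⟩
        · intro l hl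
          have hl1 := Finset.mem_of_mem_erase hl
          have hl2 := Finset.ne_of_mem_erase hl
          have hl3 := h1 hl1
          unfold Lits at hl3 ⊢
          rw [Finset.mem_product] at hl3 ⊢
          refine ⟨?_, hl3.2⟩
          rcases Finset.mem_insert.mp hl3.1 with h | h
          · exfalso
            apply hl2
            exact hinj hl1 hb h
          · exact h
        · rw [Finset.card_erase_of_mem hb, h2]
        · have : ((c.erase (v, b)).image Prod.fst).card = (c.erase (v, b)).card := by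
            apply Finset.card_image_of_injOn
            exact hinj.mono (by
              intro x hx
              exact Finset.mem_of_mem_erase hx)
          rw [this, Finset.card_erase_of_mem hb, h2]
      have hins : insert ((v, b) : Lit) (c.erase (v, b)) = c := Finset.insert_erase hb
      right
      cases b
      · right
        unfold branch_CQ
        rw [Finset.mem_image]
        exact ⟨_, hD, hins⟩
      · left
        unfold branch_CQ
        rw [Finset.mem_image]
        exact ⟨_, hD, hins⟩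
    · left
      rw [mem_Cl]
      refine ⟨?_, h2, h3⟩
      intro l hl
      have hl3 := h1 hl
      unfold Lits at hl3 ⊢
      rw [Finset.mem_product] at hl3 ⊢
      refine ⟨?_, hl3.2⟩
      rcases Finset.mem_insert.mp hl3.1 with h | h
      · exfalso
        apply hex
        refine ⟨l.2, ?_⟩
        have : ((v, l.2) : Lit) = l := by rw [← h]
        rw [this]; exact hl
      · exact h
  · intro hc
    have key : ∀ b, c ∈ branch_CQ k V (v, b) → c ∈ Cl k (insert v V) := by
      intro b hb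
      unfold branch_CQ at hb
      rw [Finset.mem_image] at hb
      obtain ⟨D, hD, rfl⟩ := hb
      have hn := branch_notMem (b := b) hv hD
      obtain ⟨g1, g2, g3⟩ := mem_Cl.mp hD
      rw [mem_Cl]
      refine ⟨?_, ?_, ?_⟩
      · intro l hl
        unfold Lits
        rw [Finset.mem_product]
        rcases Finset.mem_insert.mp hl with h | h
        · subst h
          exact ⟨Finset.mem_insert_self _ _, Finset.mem_univ _⟩
        · have := g1 h
          unfold Lits at this
          rw [Finset.mem_product] at this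
          exact ⟨Finset.mem_insert_of_mem this.1, Finset.mem_univ _⟩
      · rw [Finset.card_insert_of_notMem hn, g2]
        omega
      · rw [Finset.image_insert, Finset.card_insert_of_notMem, g3]
        · omega
        · intro h
          rw [Finset.mem_image] at h
          obtain ⟨l, hl, hlv⟩ := h
          have := g1 hl
          unfold Lits at this
          rw [Finset.mem_product] at this
          have hlv' : l.1 = v := hlv
          apply hv
          rw [← hlv']; exact this.1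
    rcases hc with hc | hc | hc
    · obtain ⟨g1, g2, g3⟩ := mem_Cl.mp hc
      rw [mem_Cl]
      refine ⟨?_, g2, g3⟩
      intro l hl
      have := g1 hl
      unfold Lits at this ⊢
      rw [Finset.mem_product] at this ⊢
      exact ⟨Finset.mem_insert_of_mem this.1, this.2⟩
    · exact key true hc
    · exact key false hc

lemma branch_disj1 {v : ℕ} (hv : v ∉ V) (b : Bool) :
    Disjoint (Cl k V) (branch_CQ k V (v, b)) := by
  rw [Finset.disjoint_left]
  intro c hc hc'
  unfold branch_CQ at hc'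
  rw [Finset.mem_image] at hc'
  obtain ⟨D, hD, rfl⟩ := hc'
  exact branch_notMem (b := b) hv hc (Finset.mem_insert_self _ _)

lemma branch_disj2 {v : ℕ} (hv : v ∉ V) :
    Disjoint (branch_CQ k V (v, true)) (branch_CQ k V (v, false)) := by
  rw [Finset.disjoint_left]
  intro c hc hc'
  unfold branch_CQ at hc hc'
  rw [Finset.mem_image] at hc hc'
  obtain ⟨D, hD, rfl⟩ := hc
  obtain ⟨D', hD', h⟩ := hc'
  have h1 : ((v, true) : Lit) ∈ insert ((v, true) : Lit) D := Finset.mem_insert_self _ _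
  rw [← h, Finset.mem_insert] at h1
  rcases h1 with h1 | h1
  · simp at h1
  · exact branch_notMem (b := true) hv hD' h1

lemma branch_decomp (hk : 1 ≤ k) (hV : k ≤ V.card) {v : ℕ} (hv : v ∉ V) :
    PP k (insert v V) = (1 - (k : ℝ) / ((V.card : ℝ) + 1)) • PP k V +
      (((k : ℝ) / ((V.card : ℝ) + 1)) / 2) •
        (branch_Q k V (v, true) + branch_Q k V (v, false)) := by
  apply LinearMap.ext
  intro f
  funext A
  simp only [LinearMap.add_apply, LinearMap.smul_apply, Pi.add_apply, Pi.smul_apply, smul_eq_mul]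
  rw [PP_apply, PP_apply]
  have hd : Disjoint (Cl k V) (branch_CQ k V (v, true) ∪ branch_CQ k V (v, false)) := by
    rw [Finset.disjoint_union_right]
    exact ⟨branch_disj1 hv true, branch_disj1 hv false⟩
  have hQ : ∀ b, branch_Q k V (v, b) f A =
      (∑ c ∈ branch_CQ k V (v, b), f (A ∩ sol c)) / ((Cl (k - 1) V).card : ℝ) := by
    intro b
    unfold branch_Q
    rw [Op_apply, branch_card hv b]
  rw [hQ, hQ, branch_Cl_insert hk hv, Finset.sum_union hd, Finset.sum_union (branch_disj2 hv)]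
  have hcard : ((Cl k V ∪ (branch_CQ k V (v, true) ∪ branch_CQ k V (v, false))).card : ℝ)
      = 2 ^ k * ((V.card + 1).choose k : ℝ) := by
    rw [← branch_Cl_insert hk hv, Cl_card, Finset.card_insert_of_notMem hv]
    push_cast
    ring
  rw [hcard]
  have hc1 : ((Cl k V).card : ℝ) = 2 ^ k * (V.card.choose k : ℝ) := by
    rw [Cl_card]; push_cast; ring
  have hc2 : ((Cl (k - 1) V).card : ℝ) = 2 ^ (k - 1) * (V.card.choose (k - 1) : ℝ) := by
    rw [Cl_card]; push_cast; ring
  rw [hc1, hc2]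
  obtain ⟨j, rfl⟩ : ∃ j, k = j + 1 := ⟨k - 1, by omega⟩
  simp only [Nat.add_sub_cancel]
  have hn : (0 : ℝ) < (V.card : ℝ) + 1 := by positivity
  have p1 : (0 : ℝ) < (V.card.choose (j + 1) : ℝ) := by
    exact_mod_cast Nat.choose_pos hV
  have p2 : (0 : ℝ) < (V.card.choose j : ℝ) := by
    exact_mod_cast Nat.choose_pos (by omega)
  have p3 : (0 : ℝ) < ((V.card + 1).choose (j + 1) : ℝ) := by
    exact_mod_cast Nat.choose_pos (by omega)
  have e1 : ((V.card : ℝ) + 1) * (V.card.choose j : ℝ) =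
      ((V.card + 1).choose (j + 1) : ℝ) * ((j : ℝ) + 1) := by
    exact_mod_cast Nat.add_one_mul_choose_eq V.card j
  have e2 : ((V.card + 1).choose (j + 1) : ℝ) = (V.card.choose j : ℝ) +
      (V.card.choose (j + 1) : ℝ) := by
    exact_mod_cast Nat.choose_succ_succ V.card j
  have f1 : (1 - ((j + 1 : ℕ) : ℝ) / ((V.card : ℝ) + 1)) / (2 ^ (j + 1) *
      (V.card.choose (j + 1) : ℝ)) = 1 / (2 ^ (j + 1) * ((V.card + 1).choose (j + 1) : ℝ)) := by
    push_cast
    rw [div_eq_div_iff (by positivity) (by positivity)]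
    have : (1 - ((j : ℝ) + 1) / ((V.card : ℝ) + 1)) * ((V.card + 1).choose (j + 1) : ℝ) =
        (V.card.choose (j + 1) : ℝ) := by
      field_simp
      nlinarith
    linear_combination (2 : ℝ) ^ (j + 1) * this
  have f2 : (((j + 1 : ℕ) : ℝ) / ((V.card : ℝ) + 1)) / 2 / (2 ^ j *
      (V.card.choose j : ℝ)) = 1 / (2 ^ (j + 1) * ((V.card + 1).choose (j + 1) : ℝ)) := by
    push_cast
    rw [div_div, div_div, div_eq_div_iff (by positivity) (by positivity)]
    rw [pow_succ]
    linear_combination -(2 * 2 ^ j : ℝ) * e1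
  calc _ = (1 / (2 ^ (j + 1) * ((V.card + 1).choose (j + 1) : ℝ))) *
        (∑ c ∈ Cl (j + 1) V, f (A ∩ sol c)) +
        (1 / (2 ^ (j + 1) * ((V.card + 1).choose (j + 1) : ℝ))) *
        (∑ c ∈ branch_CQ (j + 1) V (v, true), f (A ∩ sol c) +
          ∑ c ∈ branch_CQ (j + 1) V (v, false), f (A ∩ sol c)) := by ring
    _ = _ := by
      nth_rewrite 1 [← f1]
      nth_rewrite 1 [← f2]
      ring

/-! ### literals and independence of the new variable -/

def branch_Inv (v : ℕ) (A : St) : Prop := ∀ σ ∈ A, ∀ b : Bool, Function.update σ v b ∈ A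

lemma branch_inv_univ (v : ℕ) : branch_Inv v (Set.univ : St) := fun _ _ _ => Set.mem_univ _

lemma branch_inv_sol {v : ℕ} (hv : v ∉ V) {j : ℕ} {D : Cls} (hD : D ∈ Cl j V) {A : St}
    (hA : branch_Inv v A) : branch_Inv v (A ∩ sol D) := by
  rintro σ ⟨h1, l, hl, hlσ⟩ b
  refine ⟨hA σ h1 b, l, hl, ?_⟩
  have hne : l.1 ≠ v := by
    intro h
    apply branch_notMem (b := l.2) hv hD
    rw [← h]
    exact hl
  rw [Function.update_of_ne hne]
  exact hlσ

lemma branch_phi_lit {v : ℕ} {A : St} (hA : branch_Inv v A) (b : Bool) :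
    phi (A ∩ lit (v, b)) = phi A := by
  by_cases h : A.Nonempty
  · obtain ⟨σ, hσ⟩ := h
    have h1 : (A ∩ lit (v, b)).Nonempty := by
      refine ⟨Function.update σ v b, hA σ hσ b, ?_⟩
      rw [mem_lit]
      simp
    rw [phi_of_nonempty h1, phi_of_nonempty ⟨σ, hσ⟩]
  · rw [Set.not_nonempty_iff_eq_empty] at h
    subst h
    rw [Set.empty_inter]

noncomputable def branch_H (l : Lit) : St → ℝ := fun X => 1 - phi (X ∩ lit l)

lemma branch_sol_insert_same {v : ℕ} {b : Bool} (D : Cls) (X : St) :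
    X ∩ sol (insert (v, b) D) ∩ lit (v, b) = X ∩ lit (v, b) := by
  ext σ
  constructor
  · rintro ⟨⟨h1, _⟩, h2⟩
    exact ⟨h1, h2⟩
  · rintro ⟨h1, h2⟩
    exact ⟨⟨h1, (v, b), Finset.mem_insert_self _ _, h2⟩, h2⟩

lemma branch_sol_insert_opp {v : ℕ} {b : Bool} (D : Cls) (X : St) :
    X ∩ sol (insert (v, !b) D) ∩ lit (v, b) = (X ∩ lit (v, b)) ∩ sol D := by
  ext σ
  constructor
  · rintro ⟨⟨h1, l, hl, hlσ⟩, h2⟩
    refine ⟨⟨h1, h2⟩, l, ?_, hlσ⟩
    rcases Finset.mem_insert.mp hl with h | h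
    · exfalso
      subst h
      rw [mem_lit] at h2
      simp only at h2 hlσ
      rw [h2] at hlσ
      cases b <;> simp at hlσ
    · exact h
  · rintro ⟨⟨h1, h2⟩, l, hl, hlσ⟩
    exact ⟨⟨h1, l, Finset.mem_insert_of_mem hl, hlσ⟩, h2⟩

lemma branch_Q_same (hV : k ≤ V.card) {v : ℕ} (hv : v ∉ V) (b : Bool) :
    branch_Q k V (v, b) (branch_H (v, b)) = branch_H (v, b) := by
  funext X
  rw [branch_Q_apply hv]
  unfold branch_H
  simp only [branch_sol_insert_same]
  rw [Finset.sum_const, nsmul_eq_mul]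
  have : (0 : ℝ) < (Cl (k - 1) V).card := Cl_card_pos (by omega)
  field_simp

lemma branch_Q_opp {v : ℕ} (hv : v ∉ V) (b : Bool) (f : St → ℝ) :
    branch_Q k V (v, !b) (fun X => f (X ∩ lit (v, b))) =
      fun X => PP (k - 1) V f (X ∩ lit (v, b)) := by
  funext X
  rw [branch_Q_apply hv, PP_apply]
  simp only [branch_sol_insert_opp]

lemma branch_Q_opp_pow {v : ℕ} (hv : v ∉ V) (b : Bool) (l : ℕ) (f : St → ℝ) :
    ((branch_Q k V (v, !b)) ^ l) (fun X => f (X ∩ lit (v, b))) =
      fun X => ((PP (k - 1) V) ^ l) f (X ∩ lit (v, b)) := by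
  induction l generalizing f with
  | zero => simp
  | succ l ih =>
    rw [pow_succ_apply', branch_Q_opp hv, ih (PP (k - 1) V f)]
    funext X
    rw [pow_succ_apply']

lemma branch_Q_same_pow (hV : k ≤ V.card) {v : ℕ} (hv : v ∉ V) (b : Bool) (j : ℕ) :
    ((branch_Q k V (v, b)) ^ j) (branch_H (v, b)) = branch_H (v, b) := by
  induction j with
  | zero => simp
  | succ j ih => rw [pow_succ_apply', branch_Q_same hV hv, ih]


/-! ### local comparison -/

def branch_Loc (T : Module.End ℝ (St → ℝ)) : Prop :=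
  ∀ f g : St → ℝ, ∀ A : St, (∀ X, X ⊆ A → f X ≤ g X) → T f A ≤ T g A

lemma branch_Loc_one : branch_Loc (1 : Module.End ℝ (St → ℝ)) := by
  intro f g A h
  exact h A subset_rfl

lemma branch_Loc_mul {S T : Module.End ℝ (St → ℝ)} (hS : branch_Loc S) (hT : branch_Loc T) :
    branch_Loc (S * T) := by
  intro f g A h
  exact hS _ _ A (fun X hX => hT f g X (fun Y hY => h Y (hY.trans hX)))

lemma branch_Loc_add {S T : Module.End ℝ (St → ℝ)} (hS : branch_Loc S) (hT : branch_Loc T) :
    branch_Loc (S + T) := by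
  intro f g A h
  exact add_le_add (hS f g A h) (hT f g A h)

lemma branch_Loc_smul {T : Module.End ℝ (St → ℝ)} {r : ℝ} (hr : 0 ≤ r) (hT : branch_Loc T) :
    branch_Loc (r • T) := by
  intro f g A h
  exact mul_le_mul_of_nonneg_left (hT f g A h) hr

lemma branch_Loc_pow {T : Module.End ℝ (St → ℝ)} (hT : branch_Loc T) (t : ℕ) :
    branch_Loc (T ^ t) := by
  induction t with
  | zero => rw [pow_zero]; exact branch_Loc_one
  | succ t ih => rw [pow_succ]; exact branch_Loc_mul ih hT

lemma branch_Loc_Op (S : Finset Cls) : branch_Loc (Op S) := by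
  intro f g A h
  rw [Op_apply, Op_apply]
  apply div_le_div_of_nonneg_right _ (by positivity)
  apply Finset.sum_le_sum
  intro c _
  exact h _ Set.inter_subset_left

lemma branch_inv_PP {v : ℕ} (hv : v ∉ V) {j : ℕ} {f g : St → ℝ}
    (h : ∀ X, branch_Inv v X → f X ≤ g X) {A : St} (hA : branch_Inv v A) :
    PP j V f A ≤ PP j V g A := by
  rw [PP_apply, PP_apply]
  apply div_le_div_of_nonneg_right _ (by positivity)
  apply Finset.sum_le_sum
  intro c hc
  exact h _ (branch_inv_sol hv hc hA)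

/-! ### lifetime comparison -/

lemma branch_q_bd (hV : 4 * k ≤ V.card) :
    0 ≤ (k : ℝ) / ((V.card : ℝ) + 1) ∧ (k : ℝ) / ((V.card : ℝ) + 1) ≤ 1 / 4 := by
  have h : (4 : ℝ) * k ≤ V.card := by exact_mod_cast hV
  constructor
  · positivity
  · rw [div_le_iff₀ (by positivity)]
    linarith

noncomputable def branch_W (k : ℕ) (V : Finset ℕ) (v : ℕ) : Module.End ℝ (St → ℝ) :=
  (((k : ℝ) / ((V.card : ℝ) + 1)) / 2) • (branch_Q k V (v, true) + branch_Q k V (v, false))

lemma branch_decomp' (hk : 1 ≤ k) (hV : k ≤ V.card) {v : ℕ} (hv : v ∉ V) :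
    PP k (insert v V) = (1 - (k : ℝ) / ((V.card : ℝ) + 1)) • PP k V + branch_W k V v :=
  branch_decomp hk hV hv

lemma branch_W_loc (k : ℕ) (V : Finset ℕ) (v : ℕ) : branch_Loc (branch_W k V v) := by
  unfold branch_W
  apply branch_Loc_smul (by positivity)
  exact branch_Loc_add (branch_Loc_Op _) (branch_Loc_Op _)

lemma branch_W_const (hV : k ≤ V.card) {v : ℕ} (_hv : v ∉ V) (r : ℝ) :
    branch_W k V v (fun _ => r) = fun _ => (k : ℝ) / ((V.card : ℝ) + 1) * r := by
  have hne : ∀ b, (branch_CQ k V (v, b)).Nonempty := by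
    intro b
    unfold branch_CQ
    exact (Cl_nonempty (by omega)).image _
  funext A
  have h1 : ∀ b, branch_Q k V (v, b) (fun _ => r) A = r := by
    intro b
    unfold branch_Q
    rw [Op_const (hne b)]
  unfold branch_W
  simp only [LinearMap.smul_apply, LinearMap.add_apply, Pi.smul_apply, Pi.add_apply, smul_eq_mul,
    h1]
  ring

lemma branch_W_commute (k : ℕ) (V : Finset ℕ) (v : ℕ) :
    Commute (PP k V) (branch_W k V v) := by
  unfold branch_W PP branch_Q
  exact ((Op_commute _ _).add_right (Op_commute _ _)).smul_right _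

theorem J_insert_le (hk : 1 ≤ k) (hV : k ≤ V.card) {v : ℕ} (hv : v ∉ V) (A : St) :
    (1 - (k : ℝ) / ((V.card : ℝ) + 1)) * J k (insert v V) A ≤ J k V A := by
  have hcard : (insert v V).card = V.card + 1 := Finset.card_insert_of_notMem hv
  have hI : k ≤ (insert v V).card := by omega
  set q : ℝ := (k : ℝ) / ((V.card : ℝ) + 1) with hq
  have hkV : (k : ℝ) ≤ V.card := by exact_mod_cast hV
  have hq0 : 0 ≤ q := by positivity
  have hq1 : q ≤ 1 := by
    rw [hq, div_le_one (by positivity)]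
    linarith
  set G : St → ℝ := fun X => (1 - q) * J k (insert v V) X with hG
  have hG1 : ∀ X, G X ≤ phi X + PP k V G X := by
    intro X
    have h1 := J_eq' hk hI X
    rw [branch_decomp' hk hV hv] at h1
    simp only [LinearMap.add_apply, LinearMap.smul_apply, Pi.add_apply, Pi.smul_apply,
      smul_eq_mul] at h1
    have h2 : branch_W k V v (J k (insert v V)) X ≤ q * J k (insert v V) X := by
      have := branch_W_loc k V v (J k (insert v V)) (fun _ => J k (insert v V) X) X
        (fun Y hY => J_mono hk hI hY)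
      rw [branch_W_const hV hv] at this
      exact this
    have h3 : PP k V G X = (1 - q) * PP k V (J k (insert v V)) X := by
      have : G = (1 - q) • J k (insert v V) := by
        funext Y; simp [hG]
      rw [this, map_smul]
      simp
    rw [h3]
    simp only [hG]
    linarith
  have hiter : ∀ T : ℕ, ∀ X, G X ≤ ∑ t ∈ range T, s k V t X + ((PP k V) ^ T) G X := by
    intro T
    induction T with
    | zero => intro X; simp
    | succ T ih =>
      intro X
      have h1 := ih X
      have h2 : ((PP k V) ^ T) G X ≤ ((PP k V) ^ T) (fun Y => phi Y + PP k V G Y) X :=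
        (PP_isPos k V).pow T _ _ (fun Y => hG1 Y) X
      have h3 : ((PP k V) ^ T) (fun Y => phi Y + PP k V G Y) X =
          s k V T X + ((PP k V) ^ (T + 1)) G X := by
        have : (fun Y => phi Y + PP k V G Y) = phi + PP k V G := rfl
        rw [this, map_add, pow_succ_apply']
        rfl
      rw [Finset.sum_range_succ]
      linarith
  set c : ℝ := 2 ^ (k + 1) * (insert v V).card with hc
  have hc0 : 0 ≤ c := by positivity
  have hGle : ∀ X, G X ≤ c * phi X := by
    intro X
    by_cases hX : X.Nonempty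
    · rw [phi_of_nonempty hX, mul_one]
      have h1 := J_le hk hI X
      have h2 := J_nonneg (k := k) (U := insert v V) X
      simp only [hG]
      calc (1 - q) * J k (insert v V) X ≤ 1 * J k (insert v V) X := by
            apply mul_le_mul_of_nonneg_right _ h2
            linarith
        _ ≤ c := by rw [one_mul]; exact h1
    · rw [Set.not_nonempty_iff_eq_empty] at hX
      subst hX
      simp only [hG]
      rw [phi_empty, J_empty]
      simp
  have htail : ∀ T : ℕ, ((PP k V) ^ T) G A ≤ c * s k V T A := by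
    intro T
    have h1 := (PP_isPos k V).pow T G (c • phi) (fun X => hGle X) A
    rw [map_smul] at h1
    exact h1
  have hsum := s_summable (k := k) (U := V) hk hV A
  have hbound : ∀ T : ℕ, G A ≤ J k V A + c * s k V T A := by
    intro T
    have h1 := hiter T A
    have h2 := htail T
    have h3 := sum_s_le_J hk hV T A
    linarith
  have hlim : Filter.Tendsto (fun T => J k V A + c * s k V T A) Filter.atTop
      (nhds (J k V A + c * 0)) :=
    tendsto_const_nhds.add (hsum.tendsto_atTop_zero.const_mul c)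
  rw [mul_zero, add_zero] at hlim
  exact ge_of_tendsto' hlim hbound


/-! ### action of the new-variable clauses on the death function -/

noncomputable def branch_g : St → ℝ := fun X => 1 - phi X

noncomputable def branch_Hj (k : ℕ) (V : Finset ℕ) (l : Lit) (j : ℕ) : St → ℝ :=
  fun X => ((PP (k - 1) V) ^ j) branch_g (X ∩ lit l)

lemma branch_Hj_opp {v : ℕ} (hv : v ∉ V) (b : Bool) (j : ℕ) :
    branch_Q k V (v, !b) (branch_Hj k V (v, b) j) = branch_Hj k V (v, b) (j + 1) := by
  unfold branch_Hj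
  rw [branch_Q_opp hv]
  funext X
  rw [pow_succ_apply]

lemma branch_Hj_same (hV : k ≤ V.card) {v : ℕ} (hv : v ∉ V) (b : Bool) (j : ℕ) :
    branch_Q k V (v, b) (branch_Hj k V (v, b) j) = branch_Hj k V (v, b) j := by
  funext X
  rw [branch_Q_apply hv]
  unfold branch_Hj
  simp only [branch_sol_insert_same]
  rw [Finset.sum_const, nsmul_eq_mul]
  have : (0 : ℝ) < (Cl (k - 1) V).card := Cl_card_pos (by omega)
  field_simp

lemma branch_W_Hj (hV : k ≤ V.card) {v : ℕ} (hv : v ∉ V) (b : Bool) (j : ℕ) :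
    branch_W k V v (branch_Hj k V (v, b) j) =
      (((k : ℝ) / ((V.card : ℝ) + 1)) / 2) •
        (branch_Hj k V (v, b) j + branch_Hj k V (v, b) (j + 1)) := by
  unfold branch_W
  simp only [LinearMap.smul_apply, LinearMap.add_apply]
  cases b
  · have h1 := branch_Hj_opp (k := k) hv false j
    have h2 := branch_Hj_same hV hv false j
    simp only [Bool.not_false] at h1
    rw [h1, h2, add_comm (branch_Hj k V (v, false) (j + 1))]
  · have h1 := branch_Hj_opp (k := k) hv true j
    have h2 := branch_Hj_same hV hv true j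
    simp only [Bool.not_true] at h1
    rw [h1, h2]

lemma branch_Hj_cyl {v : ℕ} (hv : v ∉ V) (b : Bool) (j : ℕ) {A : St} (hA : branch_Inv v A) :
    branch_Hj k V (v, b) j A = ((PP (k - 1) V) ^ j) branch_g A := by
  induction j generalizing A with
  | zero =>
    unfold branch_Hj branch_g
    simp only [pow_zero, Module.End.one_apply]
    rw [branch_phi_lit hA]
  | succ j ih =>
    unfold branch_Hj at ih ⊢
    rw [pow_succ_apply, PP_apply, PP_apply]
    congr 1
    apply Finset.sum_congr rfl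
    intro D hD
    have h1 := ih (branch_inv_sol hv hD hA)
    have hset : A ∩ lit (v, b) ∩ sol D = A ∩ sol D ∩ lit (v, b) := by
      ext σ
      constructor
      · rintro ⟨⟨h1, h2⟩, h3⟩; exact ⟨⟨h1, h3⟩, h2⟩
      · rintro ⟨⟨h1, h3⟩, h2⟩; exact ⟨⟨h1, h2⟩, h3⟩
    rw [← h1, hset]

/-- the constant of `chain`, packaged for one set of variables -/
def branch_ChainC (k : ℕ) (V : Finset ℕ) (C : ℝ) : Prop :=
  ∀ A : St, A.Nonempty → ∀ a : ℕ, ((PP (k - 1) V) ^ a) branch_g A ≤
    C * (2 * (k : ℝ) + 1) ^ a * (J k V A) ^ (-(2 / 3 : ℝ))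

lemma branch_W_pow_Hj (hV : k ≤ V.card) {v : ℕ} (hv : v ∉ V) (b : Bool)
    {C : ℝ} (hC : branch_ChainC k V C) {A : St} (hA : branch_Inv v A)
    (hne : A.Nonempty) (r j : ℕ) :
    ((branch_W k V v) ^ r) (branch_Hj k V (v, b) j) A ≤
      ((k : ℝ) / ((V.card : ℝ) + 1) * ((k : ℝ) + 1)) ^ r *
        (C * (2 * (k : ℝ) + 1) ^ j * (J k V A) ^ (-(2 / 3 : ℝ))) := by
  induction r generalizing j with
  | zero =>
    simp only [pow_zero, Module.End.one_apply, one_mul]
    rw [branch_Hj_cyl hv b j hA]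
    exact hC A hne j
  | succ r ih =>
    rw [pow_succ_apply', branch_W_Hj hV hv b j, map_smul, map_add]
    simp only [Pi.smul_apply, Pi.add_apply, smul_eq_mul]
    have h1 := ih j
    have h2 := ih (j + 1)
    have hq : 0 ≤ (k : ℝ) / ((V.card : ℝ) + 1) / 2 := by positivity
    calc (k : ℝ) / ((V.card : ℝ) + 1) / 2 *
          (((branch_W k V v) ^ r) (branch_Hj k V (v, b) j) A +
            ((branch_W k V v) ^ r) (branch_Hj k V (v, b) (j + 1)) A)
        ≤ (k : ℝ) / ((V.card : ℝ) + 1) / 2 *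
          (((k : ℝ) / ((V.card : ℝ) + 1) * ((k : ℝ) + 1)) ^ r *
            (C * (2 * (k : ℝ) + 1) ^ j * (J k V A) ^ (-(2 / 3 : ℝ))) +
          ((k : ℝ) / ((V.card : ℝ) + 1) * ((k : ℝ) + 1)) ^ r *
            (C * (2 * (k : ℝ) + 1) ^ (j + 1) * (J k V A) ^ (-(2 / 3 : ℝ)))) :=
          mul_le_mul_of_nonneg_left (add_le_add h1 h2) hq
      _ = _ := by ring

lemma branch_H_eq (l : Lit) : branch_H l = branch_Hj k V l 0 := by
  funext X
  unfold branch_H branch_Hj branch_g
  simp

lemma branch_Loc_empty {T : Module.End ℝ (St → ℝ)} (hT : branch_Loc T) {f : St → ℝ}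
    (hf : f ∅ ≤ 0) : T f ∅ ≤ 0 := by
  have h := hT f 0 ∅ (by
    intro X hX
    rw [Set.subset_empty_iff] at hX
    subst hX
    exact hf)
  rw [map_zero] at h
  exact h

noncomputable def branch_G (k : ℕ) (V : Finset ℕ) (v : ℕ) (b : Bool) : St → ℝ :=
  fun X => (1 - phi (X ∩ lit (v, b))) * (J k (insert v V) X) ^ (1 / 3 : ℝ)

lemma branch_J13 (hk : 1 ≤ k) (hV : 4 * k ≤ V.card) {v : ℕ} (hv : v ∉ V) (A : St) :
    (J k (insert v V) A) ^ (1 / 3 : ℝ) ≤ 2 * (J k V A) ^ (1 / 3 : ℝ) := by
  have h1 := J_insert_le hk (by omega : k ≤ V.card) hv A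
  obtain ⟨q0, q1⟩ := branch_q_bd (k := k) hV
  have h2 := J_nonneg (k := k) (U := insert v V) A
  have h3 := J_nonneg (k := k) (U := V) A
  have h4 : J k (insert v V) A ≤ 2 ^ 3 * J k V A := by nlinarith
  have h5 : (J k (insert v V) A) ^ (1 / 3 : ℝ) ≤ (2 ^ 3 * J k V A) ^ (1 / 3 : ℝ) :=
    Real.rpow_le_rpow h2 h4 (by norm_num)
  have h6 : ((2 : ℝ) ^ 3 * J k V A) ^ (1 / 3 : ℝ) = 2 * (J k V A) ^ (1 / 3 : ℝ) := by
    rw [Real.mul_rpow (by norm_num) h3]
    congr 1
    rw [← Real.rpow_natCast, ← Real.rpow_mul (by norm_num)]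
    norm_num
  rw [h6] at h5
  exact h5

lemma branch_W_pow_G (hk : 1 ≤ k) (hV : 4 * k ≤ V.card) {v : ℕ} (hv : v ∉ V) (b : Bool)
    {C : ℝ} (hC : branch_ChainC k V C) {A : St} (hA : branch_Inv v A) (r : ℕ) :
    ((branch_W k V v) ^ r) (branch_G k V v b) A ≤
      ((k : ℝ) / ((V.card : ℝ) + 1) * ((k : ℝ) + 1)) ^ r * (2 * C * psi k V A) := by
  have hV' : k ≤ V.card := by omega
  by_cases hne : A.Nonempty
  · have hI : k ≤ (insert v V).card := by
      rw [Finset.card_insert_of_notMem hv]; omega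
    have h1 : ((branch_W k V v) ^ r) (branch_G k V v b) A ≤
        ((branch_W k V v) ^ r) ((2 * (J k V A) ^ (1 / 3 : ℝ)) • branch_Hj k V (v, b) 0) A := by
      apply branch_Loc_pow (branch_W_loc k V v) r
      intro X hX
      rw [← branch_H_eq]
      unfold branch_G branch_H
      simp only [Pi.smul_apply, smul_eq_mul]
      have h2 : 0 ≤ 1 - phi (X ∩ lit (v, b)) := by linarith [phi_le_one (X ∩ lit (v, b))]
      have h3 : (J k (insert v V) X) ^ (1 / 3 : ℝ) ≤ 2 * (J k V A) ^ (1 / 3 : ℝ) := by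
        calc (J k (insert v V) X) ^ (1 / 3 : ℝ) ≤ (J k (insert v V) A) ^ (1 / 3 : ℝ) :=
              Real.rpow_le_rpow (J_nonneg X) (J_mono hk hI hX) (by norm_num)
          _ ≤ _ := branch_J13 hk hV hv A
      rw [mul_comm]
      exact mul_le_mul_of_nonneg_right h3 h2
    rw [map_smul] at h1
    simp only [Pi.smul_apply, smul_eq_mul] at h1
    have h4 := branch_W_pow_Hj hV' hv b hC hA hne r 0
    have hJ := one_le_J hk hV' hne
    have hJ0 : 0 < J k V A := by linarith
    have h5 : (J k V A) ^ (1 / 3 : ℝ) * (J k V A) ^ (-(2 / 3 : ℝ)) =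
        (J k V A) ^ (-(1 / 3 : ℝ)) := by
      rw [← Real.rpow_add hJ0]
      norm_num
    have h6 : psi k V A = (J k V A) ^ (-(1 / 3 : ℝ)) := by
      unfold psi
      rw [phi_of_nonempty hne, one_mul]
    have h7 : 0 ≤ 2 * (J k V A) ^ (1 / 3 : ℝ) := by positivity
    calc _ ≤ 2 * (J k V A) ^ (1 / 3 : ℝ) *
          ((branch_W k V v) ^ r) (branch_Hj k V (v, b) 0) A := h1
      _ ≤ 2 * (J k V A) ^ (1 / 3 : ℝ) *
          (((k : ℝ) / ((V.card : ℝ) + 1) * ((k : ℝ) + 1)) ^ r *
            (C * (2 * (k : ℝ) + 1) ^ 0 * (J k V A) ^ (-(2 / 3 : ℝ)))) :=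
          mul_le_mul_of_nonneg_left h4 h7
      _ = ((k : ℝ) / ((V.card : ℝ) + 1) * ((k : ℝ) + 1)) ^ r *
            (2 * C * ((J k V A) ^ (1 / 3 : ℝ) * (J k V A) ^ (-(2 / 3 : ℝ)))) := by
          rw [pow_zero]; ring
      _ = _ := by rw [h5, h6]
  · rw [Set.not_nonempty_iff_eq_empty] at hne
    subst hne
    have h1 : ((branch_W k V v) ^ r) (branch_G k V v b) ∅ ≤ 0 := by
      apply branch_Loc_empty (branch_Loc_pow (branch_W_loc k V v) r)
      unfold branch_G
      rw [J_empty, Real.zero_rpow (by norm_num), mul_zero]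
    have h2 : psi k V ∅ = 0 := by
      unfold psi
      rw [phi_empty, zero_mul]
    rw [h2]
    simpa using h1

lemma branch_psi_nonneg (A : St) : 0 ≤ psi k V A := by
  unfold psi
  exact mul_nonneg (phi_nonneg A) (Real.rpow_nonneg (J_nonneg A) _)

lemma branch_Tt_apply (f : St → ℝ) (A : St) :
    Tt k V f A = (1 - (k : ℝ) / ((V.card : ℝ) + 1)) * PP k V f A +
      ((k : ℝ) * ((k : ℝ) + 1) / ((V.card : ℝ) + 1)) * f A := by
  unfold Tt
  simp

lemma branch_step (hk : 1 ≤ k) (hV : k ≤ V.card) {v : ℕ} (hv : v ∉ V) (t : ℕ) (f : St → ℝ)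
    (A : St) :
    ((PP k (insert v V)) ^ (t + 1)) f A =
      (1 - (k : ℝ) / ((V.card : ℝ) + 1)) * PP k V (((PP k (insert v V)) ^ t) f) A +
        ((PP k (insert v V)) ^ t) (branch_W k V v f) A := by
  have hcomm : Commute ((PP k (insert v V)) ^ t) (PP k V) := by
    apply Commute.pow_left
    unfold PP
    exact Op_commute _ _
  have hd : PP k (insert v V) f = (1 - (k : ℝ) / ((V.card : ℝ) + 1)) • PP k V f +
      branch_W k V v f := by
    rw [branch_decomp' hk hV hv]
    rfl
  have hc : ((PP k (insert v V)) ^ t) (PP k V f) = PP k V (((PP k (insert v V)) ^ t) f) :=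
    congrArg (fun T : Module.End ℝ (St → ℝ) => T f) hcomm.eq
  rw [pow_succ_apply', hd, map_add, map_smul, hc]
  rfl

lemma branch_main (hk : 1 ≤ k) (hV : 4 * k ≤ V.card) {v : ℕ} (hv : v ∉ V) (b : Bool)
    {C : ℝ} (hC : branch_ChainC k V C) (t r : ℕ) {A : St} (hA : branch_Inv v A) :
    ((PP k (insert v V)) ^ t) (((branch_W k V v) ^ r) (branch_G k V v b)) A ≤
      ((k : ℝ) / ((V.card : ℝ) + 1) * ((k : ℝ) + 1)) ^ r *
        (2 * C * ((Tt k V) ^ t) (psi k V) A) := by
  have hV' : k ≤ V.card := by omega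
  obtain ⟨q0, q1⟩ := branch_q_bd (k := k) hV
  induction t generalizing r A with
  | zero => simpa using branch_W_pow_G hk hV hv b hC hA r
  | succ t ih =>
    have h1 : ((PP k (insert v V)) ^ (t + 1)) (((branch_W k V v) ^ r) (branch_G k V v b)) A =
        (1 - (k : ℝ) / ((V.card : ℝ) + 1)) *
          PP k V (((PP k (insert v V)) ^ t) (((branch_W k V v) ^ r) (branch_G k V v b))) A +
        ((PP k (insert v V)) ^ t) (((branch_W k V v) ^ (r + 1)) (branch_G k V v b)) A := by
      rw [branch_step hk hV' hv, pow_succ_apply (branch_W k V v)]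
    rw [h1]
    have h2 : PP k V (((PP k (insert v V)) ^ t) (((branch_W k V v) ^ r) (branch_G k V v b))) A ≤
        PP k V ((((k : ℝ) / ((V.card : ℝ) + 1) * ((k : ℝ) + 1)) ^ r * (2 * C)) •
          ((Tt k V) ^ t) (psi k V)) A := by
      apply branch_inv_PP hv _ hA
      intro X hX
      have := ih r hX
      simp only [Pi.smul_apply, smul_eq_mul]
      linarith
    rw [map_smul] at h2
    simp only [Pi.smul_apply, smul_eq_mul] at h2
    have h3 := ih (r + 1) hA
    have h4 : 0 ≤ 1 - (k : ℝ) / ((V.card : ℝ) + 1) := by linarith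
    have h5 := mul_le_mul_of_nonneg_left h2 h4
    rw [pow_succ_apply (Tt k V), branch_Tt_apply]
    have h6 : ((k : ℝ) / ((V.card : ℝ) + 1) * ((k : ℝ) + 1)) ^ r *
        (2 * C * ((1 - (k : ℝ) / ((V.card : ℝ) + 1)) * PP k V (((Tt k V) ^ t) (psi k V)) A +
          (k : ℝ) * ((k : ℝ) + 1) / ((V.card : ℝ) + 1) * ((Tt k V) ^ t) (psi k V) A)) =
        (1 - (k : ℝ) / ((V.card : ℝ) + 1)) *
          (((k : ℝ) / ((V.card : ℝ) + 1) * ((k : ℝ) + 1)) ^ r * (2 * C) *
            PP k V (((Tt k V) ^ t) (psi k V)) A) +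
        ((k : ℝ) / ((V.card : ℝ) + 1) * ((k : ℝ) + 1)) ^ (r + 1) *
          (2 * C * ((Tt k V) ^ t) (psi k V) A) := by
      rw [pow_succ]
      ring
    rw [h6]
    linarith

theorem branch (hk : 3 ≤ k) : ∃ C : ℝ, 0 ≤ C ∧ ∀ V : Finset ℕ, 4 * k ≤ V.card →
    ∀ v : ℕ, v ∉ V → ∀ b : Bool, ∀ t : ℕ,
      ((PP k (insert v V)) ^ t)
        (fun X => (1 - phi (X ∩ lit (v, b))) * (J k (insert v V) X) ^ (1 / 3 : ℝ)) Set.univ
      ≤ C * ((Tt k V) ^ t) (psi k V) Set.univ := by
  obtain ⟨C, hC0, hC⟩ := chain hk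
  refine ⟨2 * C, by positivity, ?_⟩
  intro V hV v hv b t
  have hCC : branch_ChainC k V C := fun A hA a => (hC V hV A hA).2 a
  have := branch_main (by omega : 1 ≤ k) hV hv b hCC t 0 (branch_inv_univ v)
  simp only [pow_zero, Module.End.one_apply, one_mul] at this
  exact this

lemma branch_W_pow_phi (hk : 1 ≤ k) (hV : 4 * k ≤ V.card) {v : ℕ} (hv : v ∉ V)
    {C : ℝ} (hC0 : 0 ≤ C) (hC : branch_ChainC k V C) {A : St} (hA : branch_Inv v A) (r : ℕ) :
    ((k : ℝ) / ((V.card : ℝ) + 1)) ^ r * phi A -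
      ((k : ℝ) / ((V.card : ℝ) + 1) * ((k : ℝ) + 1)) ^ r * (C * psi k V A) ≤
    ((branch_W k V v) ^ r) phi A := by
  have hV' : k ≤ V.card := by omega
  by_cases hne : A.Nonempty
  · have hconst : ((branch_W k V v) ^ r) (fun _ => (1 : ℝ)) =
        fun _ => ((k : ℝ) / ((V.card : ℝ) + 1)) ^ r := by
      induction r with
      | zero => simp
      | succ r ih =>
        rw [pow_succ_apply, ih, branch_W_const hV' hv]
        funext X
        rw [pow_succ]
        ring
    have h1 : ((branch_W k V v) ^ r) ((fun _ => (1 : ℝ)) - branch_Hj k V (v, true) 0) A ≤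
        ((branch_W k V v) ^ r) phi A := by
      apply branch_Loc_pow (branch_W_loc k V v) r
      intro X _
      rw [← branch_H_eq]
      unfold branch_H
      simp only [Pi.sub_apply]
      have := phi_mono (Set.inter_subset_left : X ∩ lit (v, true) ⊆ X)
      linarith
    rw [map_sub, hconst] at h1
    simp only [Pi.sub_apply] at h1
    have h2 := branch_W_pow_Hj hV' hv true hC hA hne r 0
    have hJ := one_le_J hk hV' hne
    have h3 : (J k V A) ^ (-(2 / 3 : ℝ)) ≤ (J k V A) ^ (-(1 / 3 : ℝ)) :=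
      Real.rpow_le_rpow_of_exponent_le hJ (by norm_num)
    have h6 : psi k V A = (J k V A) ^ (-(1 / 3 : ℝ)) := by
      unfold psi
      rw [phi_of_nonempty hne, one_mul]
    rw [phi_of_nonempty hne, mul_one, h6]
    have h7 : ((k : ℝ) / ((V.card : ℝ) + 1) * ((k : ℝ) + 1)) ^ r *
            (C * (2 * (k : ℝ) + 1) ^ 0 * (J k V A) ^ (-(2 / 3 : ℝ))) ≤
        ((k : ℝ) / ((V.card : ℝ) + 1) * ((k : ℝ) + 1)) ^ r *
            (C * (J k V A) ^ (-(1 / 3 : ℝ))) := by
      rw [pow_zero, mul_one]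
      gcongr
    linarith
  · rw [Set.not_nonempty_iff_eq_empty] at hne
    subst hne
    have h2 : psi k V ∅ = 0 := by
      unfold psi
      rw [phi_empty, zero_mul]
    have h1 : (0 : ℝ) ≤ ((branch_W k V v) ^ r) phi ∅ := by
      have := branch_Loc_pow (branch_W_loc k V v) r 0 phi ∅ (fun X _ => phi_nonneg X)
      rw [map_zero] at this
      exact this
    rw [h2, phi_empty]
    simpa using h1

lemma branch_sat_main (hk : 1 ≤ k) (hV : 4 * k ≤ V.card) {v : ℕ} (hv : v ∉ V)
    {C : ℝ} (hC0 : 0 ≤ C) (hC : branch_ChainC k V C) (t r : ℕ) {A : St} (hA : branch_Inv v A) :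
    ((k : ℝ) / ((V.card : ℝ) + 1)) ^ r * s k V t A -
      ((k : ℝ) / ((V.card : ℝ) + 1) * ((k : ℝ) + 1)) ^ r *
        (C * ((Tt k V) ^ t) (psi k V) A) ≤
    ((PP k (insert v V)) ^ t) (((branch_W k V v) ^ r) phi) A := by
  have hV' : k ≤ V.card := by omega
  obtain ⟨q0, q1⟩ := branch_q_bd (k := k) hV
  induction t generalizing r A with
  | zero =>
    rw [s_zero]
    simpa using branch_W_pow_phi hk hV hv hC0 hC hA r
  | succ t ih =>
    have h1 : ((PP k (insert v V)) ^ (t + 1)) (((branch_W k V v) ^ r) phi) A =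
        (1 - (k : ℝ) / ((V.card : ℝ) + 1)) *
          PP k V (((PP k (insert v V)) ^ t) (((branch_W k V v) ^ r) phi)) A +
        ((PP k (insert v V)) ^ t) (((branch_W k V v) ^ (r + 1)) phi) A := by
      rw [branch_step hk hV' hv, pow_succ_apply (branch_W k V v)]
    rw [h1]
    have h2 : PP k V ((((k : ℝ) / ((V.card : ℝ) + 1)) ^ r) • s k V t -
        (((k : ℝ) / ((V.card : ℝ) + 1) * ((k : ℝ) + 1)) ^ r * C) •
          ((Tt k V) ^ t) (psi k V)) A ≤
        PP k V (((PP k (insert v V)) ^ t) (((branch_W k V v) ^ r) phi)) A := by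
      apply branch_inv_PP hv _ hA
      intro X hX
      have := ih r hX
      simp only [Pi.smul_apply, Pi.sub_apply, smul_eq_mul]
      linarith
    rw [map_sub, map_smul, map_smul] at h2
    simp only [Pi.smul_apply, Pi.sub_apply, smul_eq_mul] at h2
    rw [← s_succ] at h2
    have h3 := ih (r + 1) hA
    have h4 : 0 ≤ 1 - (k : ℝ) / ((V.card : ℝ) + 1) := by linarith
    have h5 := mul_le_mul_of_nonneg_left h2 h4
    have h7 := s_succ_le (k := k) (U := V) t A
    have h8 : ((k : ℝ) / ((V.card : ℝ) + 1)) ^ (r + 1) * s k V (t + 1) A ≤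
        ((k : ℝ) / ((V.card : ℝ) + 1)) ^ (r + 1) * s k V t A :=
      mul_le_mul_of_nonneg_left h7 (by positivity)
    rw [pow_succ_apply (Tt k V), branch_Tt_apply]
    have h6 : ((k : ℝ) / ((V.card : ℝ) + 1)) ^ r * s k V (t + 1) A -
        ((k : ℝ) / ((V.card : ℝ) + 1) * ((k : ℝ) + 1)) ^ r *
        (C * ((1 - (k : ℝ) / ((V.card : ℝ) + 1)) * PP k V (((Tt k V) ^ t) (psi k V)) A +
          (k : ℝ) * ((k : ℝ) + 1) / ((V.card : ℝ) + 1) * ((Tt k V) ^ t) (psi k V) A)) =
        (1 - (k : ℝ) / ((V.card : ℝ) + 1)) *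
          (((k : ℝ) / ((V.card : ℝ) + 1)) ^ r * s k V (t + 1) A -
            ((k : ℝ) / ((V.card : ℝ) + 1) * ((k : ℝ) + 1)) ^ r * C *
            PP k V (((Tt k V) ^ t) (psi k V)) A) +
        (((k : ℝ) / ((V.card : ℝ) + 1)) ^ (r + 1) * s k V (t + 1) A -
        ((k : ℝ) / ((V.card : ℝ) + 1) * ((k : ℝ) + 1)) ^ (r + 1) *
          (C * ((Tt k V) ^ t) (psi k V) A)) := by
      rw [pow_succ, pow_succ]
      ring
    rw [h6]
    linarith

theorem branch_sat (hk : 3 ≤ k) : ∃ C : ℝ, 0 ≤ C ∧ ∀ V : Finset ℕ, 4 * k ≤ V.card →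
    ∀ v : ℕ, v ∉ V → ∀ t : ℕ,
      s k V t Set.univ - C * ((Tt k V) ^ t) (psi k V) Set.univ ≤ s k (insert v V) t Set.univ := by
  obtain ⟨C, hC0, hC⟩ := chain hk
  refine ⟨C, hC0, ?_⟩
  intro V hV v hv t
  have hCC : branch_ChainC k V C := fun A hA a => (hC V hV A hA).2 a
  have := branch_sat_main (by omega : 1 ≤ k) hV hv hC0 hCC t 0 (branch_inv_univ v)
  simpa [s] using this

end Vale.Agent.P170
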