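import Vale.Agent.P170.Api

namespace Vale.Agent.P170

open Finset

variable {k : ℕ} {U V : Finset ℕ} {A B : St}

/-- clauses inside a set of literals -/
def chain_in (j : ℕ) (U : Finset ℕ) (N : Finset Lit) : Finset Cls :=
  (Cl j U).filter (fun c => c ⊆ N)

lemma chain_mem_in {j : ℕ} {N : Finset Lit} {c : Cls} :
    c ∈ chain_in j U N ↔ c ∈ Cl j U ∧ c ⊆ N := by
  simp [chain_in]

lemma chain_double_count (j : ℕ) {N : Finset Lit} (hN : N ⊆ Lits U) :
    ∑ c ∈ chain_in j U N, (N.filter (fun l => l.1 ∉ c.image Prod.fst)).card =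
      (j + 1) * (chain_in (j + 1) U N).card := by
  have h1 : ∑ d ∈ chain_in (j + 1) U N, d.card = (j + 1) * (chain_in (j + 1) U N).card := by
    rw [Finset.sum_congr rfl (g := fun _ => j + 1)]
    · rw [Finset.sum_const, smul_eq_mul, mul_comm]
    · intro d hd
      exact (mem_Cl.1 (chain_mem_in.1 hd).1).2.1
  rw [← h1, ← Finset.card_sigma, ← Finset.card_sigma]
  refine Finset.card_nbij' (fun x => ⟨insert x.2 x.1, x.2⟩) (fun x => ⟨x.1.erase x.2, x.2⟩)
    ?_ ?_ ?_ ?_
  · rintro ⟨c, l⟩ hx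
    simp only [Finset.coe_sigma, Set.mem_sigma_iff, Finset.mem_coe, Finset.mem_filter,
      chain_mem_in] at hx ⊢
    obtain ⟨⟨hc, hcN⟩, hlN, hl⟩ := hx
    rw [mem_Cl] at hc ⊢
    have hlc : l ∉ c := fun h => hl (Finset.mem_image_of_mem _ h)
    refine ⟨⟨⟨?_, ?_, ?_⟩, ?_⟩, Finset.mem_insert_self _ _⟩
    · exact Finset.insert_subset (hN hlN) hc.1
    · rw [Finset.card_insert_of_notMem hlc, hc.2.1]
    · rw [Finset.image_insert, Finset.card_insert_of_notMem hl, hc.2.2]
    · exact Finset.insert_subset hlN hcN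
  · rintro ⟨d, l⟩ hx
    simp only [Finset.coe_sigma, Set.mem_sigma_iff, Finset.mem_coe, Finset.mem_filter,
      chain_mem_in] at hx ⊢
    obtain ⟨⟨hd, hdN⟩, hl⟩ := hx
    have hinj := Cl_injOn hd
    rw [mem_Cl] at hd ⊢
    have hcard : (d.erase l).card = j := by
      rw [Finset.card_erase_of_mem hl, hd.2.1]; rfl
    refine ⟨⟨⟨(Finset.erase_subset _ _).trans hd.1, hcard, ?_⟩,
      (Finset.erase_subset _ _).trans hdN⟩, hdN hl, ?_⟩
    · rw [Finset.card_image_of_injOn (hinj.mono (by simp)), hcard]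
    · intro h
      obtain ⟨l', hl', h2⟩ := Finset.mem_image.1 h
      have h3 := Finset.mem_erase.1 hl'
      exact h3.1 (hinj h3.2 hl h2)
  · rintro ⟨c, l⟩ hx
    simp only [Finset.coe_sigma, Set.mem_sigma_iff, Finset.mem_coe, Finset.mem_filter,
      chain_mem_in] at hx
    obtain ⟨⟨hc, hcN⟩, hlN, hl⟩ := hx
    have hlc : l ∉ c := fun h => hl (Finset.mem_image_of_mem _ h)
    simp [Finset.erase_insert hlc]
  · rintro ⟨d, l⟩ hx
    simp only [Finset.coe_sigma, Set.mem_sigma_iff, Finset.mem_coe] at hx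
    simp [Finset.insert_erase hx.2]

lemma chain_upper_count (j : ℕ) {N : Finset Lit} (hN : N ⊆ Lits U) :
    (j + 1) * (chain_in (j + 1) U N).card ≤ N.card * (chain_in j U N).card := by
  rw [← chain_double_count j hN]
  calc _ ≤ ∑ c ∈ chain_in j U N, N.card :=
        Finset.sum_le_sum fun c _ => Finset.card_le_card (Finset.filter_subset _ _)
    _ = _ := by rw [Finset.sum_const, smul_eq_mul, mul_comm]

lemma chain_filter_card {j : ℕ} {N : Finset Lit} {c : Cls} (hc : c ∈ Cl j U) :
    N.card ≤ (N.filter (fun l => l.1 ∉ c.image Prod.fst)).card + 2 * j := by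
  have h1 := Finset.card_filter_add_card_filter_not (s := N)
    (fun l : Lit => l.1 ∈ c.image Prod.fst)
  have h2 : (N.filter (fun l => l.1 ∈ c.image Prod.fst)).card ≤ 2 * j := by
    calc _ ≤ (Lits (c.image Prod.fst)).card := by
          refine Finset.card_le_card fun l hl => ?_
          exact mem_Lits.2 (Finset.mem_filter.1 hl).2
      _ = 2 * j := by
          unfold Lits
          rw [Finset.card_product, (mem_Cl.1 hc).2.2]
          simp [mul_comm]
  omega

lemma chain_lower_count (j : ℕ) {N : Finset Lit} (hN : N ⊆ Lits U) :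
    N.card * (chain_in j U N).card ≤
      (j + 1) * (chain_in (j + 1) U N).card + 2 * j * (chain_in j U N).card := by
  rw [← chain_double_count j hN]
  calc N.card * (chain_in j U N).card = ∑ c ∈ chain_in j U N, N.card := by
        rw [Finset.sum_const, smul_eq_mul, mul_comm]
    _ ≤ ∑ c ∈ chain_in j U N, ((N.filter (fun l => l.1 ∉ c.image Prod.fst)).card + 2 * j) :=
        Finset.sum_le_sum fun c hc => chain_filter_card (chain_mem_in.1 hc).1
    _ = _ := by
        rw [Finset.sum_add_distrib, Finset.sum_const, smul_eq_mul]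
        ring

lemma chain_Cl_card_succ (j : ℕ) (U : Finset ℕ) :
    (j + 1) * (Cl (j + 1) U).card = 2 * (U.card - j) * (Cl j U).card := by
  rw [Cl_card, Cl_card]
  have := Nat.choose_succ_right_eq U.card j
  calc (j + 1) * (2 ^ (j + 1) * U.card.choose (j + 1))
      = 2 ^ (j + 1) * (U.card.choose (j + 1) * (j + 1)) := by ring
    _ = 2 ^ (j + 1) * (U.card.choose j * (U.card - j)) := by rw [this]
    _ = _ := by ring

lemma chain_pr_eq (j : ℕ) (U : Finset ℕ) (N : Finset Lit) :
    pr j U N = ((chain_in j U N).card : ℝ) / ((Cl j U).card : ℝ) := rfl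

lemma chain_pr_nonneg (j : ℕ) (U : Finset ℕ) (N : Finset Lit) : 0 ≤ pr j U N := by
  rw [chain_pr_eq]; positivity

lemma chain_pr_zero (U : Finset ℕ) (N : Finset Lit) : pr 0 U N = 1 := by
  have h1 : Cl 0 U = {∅} := by
    ext c
    rw [mem_Cl, Finset.mem_singleton]
    constructor
    · rintro ⟨_, h, _⟩
      exact Finset.card_eq_zero.1 h
    · rintro rfl
      simp
  have h2 : chain_in 0 U N = {∅} := by
    unfold chain_in
    rw [h1]
    ext c
    simp only [Finset.mem_filter, Finset.mem_singleton]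
    constructor
    · exact fun h => h.1
    · rintro rfl
      exact ⟨rfl, Finset.empty_subset _⟩
  rw [chain_pr_eq, h2, h1]
  simp

lemma chain_field (m Q P a : ℝ) (hQ : Q ≠ 0) (hP : P ≠ 0) :
    m * Q / P * (a / Q) = m * a / P := by
  field_simp

lemma chain_pr_succ_upper (j : ℕ) {N : Finset Lit} (hN : N ⊆ Lits U) (hj : j < U.card) :
    2 * ((U.card : ℝ) - j) * pr (j + 1) U N ≤ N.card * pr j U N := by
  have h1 := chain_upper_count j hN
  have h2 := chain_Cl_card_succ j U
  have hpos : (0 : ℝ) < (Cl j U).card := Cl_card_pos hj.le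
  have hpos' : (0 : ℝ) < (Cl (j + 1) U).card := Cl_card_pos hj
  have h1' : ((j : ℝ) + 1) * (chain_in (j + 1) U N).card ≤ N.card * (chain_in j U N).card := by
    exact_mod_cast h1
  have h2' : ((j : ℝ) + 1) * (Cl (j + 1) U).card = 2 * ((U.card : ℝ) - j) * (Cl j U).card := by
    rw [← Nat.cast_sub hj.le]
    exact_mod_cast h2
  rw [chain_pr_eq, chain_pr_eq]
  have h3 : 2 * ((U.card : ℝ) - j) = ((j : ℝ) + 1) * (Cl (j + 1) U).card / (Cl j U).card := by
    rw [h2']; field_simp
  rw [h3]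
  have h4 : ((j : ℝ) + 1) * (Cl (j + 1) U).card / (Cl j U).card *
      ((chain_in (j + 1) U N).card / (Cl (j + 1) U).card) =
      ((j : ℝ) + 1) * (chain_in (j + 1) U N).card / (Cl j U).card :=
    chain_field _ _ _ _ hpos'.ne' hpos.ne'
  rw [h4, ← mul_div_assoc]
  exact div_le_div_of_nonneg_right h1' hpos.le

lemma chain_pr_succ_lower (j : ℕ) {N : Finset Lit} (hN : N ⊆ Lits U) (hj : j < U.card) :
    ((N.card : ℝ) - 2 * j) * pr j U N ≤ 2 * ((U.card : ℝ) - j) * pr (j + 1) U N := by
  have h1 := chain_lower_count j hN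
  have h2 := chain_Cl_card_succ j U
  have hpos : (0 : ℝ) < (Cl j U).card := Cl_card_pos hj.le
  have hpos' : (0 : ℝ) < (Cl (j + 1) U).card := Cl_card_pos hj
  have h1' : (N.card : ℝ) * (chain_in j U N).card ≤
      ((j : ℝ) + 1) * (chain_in (j + 1) U N).card + 2 * j * (chain_in j U N).card := by
    exact_mod_cast h1
  have h2' : ((j : ℝ) + 1) * (Cl (j + 1) U).card = 2 * ((U.card : ℝ) - j) * (Cl j U).card := by
    rw [← Nat.cast_sub hj.le]
    exact_mod_cast h2
  rw [chain_pr_eq, chain_pr_eq]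
  have h3 : 2 * ((U.card : ℝ) - j) = ((j : ℝ) + 1) * (Cl (j + 1) U).card / (Cl j U).card := by
    rw [h2']; field_simp
  rw [h3]
  have h4 : ((j : ℝ) + 1) * (Cl (j + 1) U).card / (Cl j U).card *
      ((chain_in (j + 1) U N).card / (Cl (j + 1) U).card) =
      ((j : ℝ) + 1) * (chain_in (j + 1) U N).card / (Cl j U).card :=
    chain_field _ _ _ _ hpos'.ne' hpos.ne'
  rw [h4, ← mul_div_assoc]
  refine div_le_div_of_nonneg_right ?_ hpos.le
  linarith

lemma chain_card_Lits (U : Finset ℕ) : (Lits U).card = 2 * U.card := by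
  unfold Lits
  rw [Finset.card_product]
  simp [mul_comm]

/-- Density comparison for proper clauses. -/
theorem pr_compare (hk : 3 ≤ k) (hU : 4 * k ≤ U.card) {N : Finset Lit} (hN : N ⊆ Lits U) :
    pr (k - 1) U N ≤ 4 ^ (k - 1) * (pr k U N) ^ (2 / 3 : ℝ) + (4 * k / (U.card : ℝ)) ^ 2 := by
  have hn : (0 : ℝ) < U.card := by
    have : 0 < U.card := by omega
    exact_mod_cast this
  have hn4 : 4 * (k : ℝ) ≤ U.card := by exact_mod_cast hU
  have hx0 : (0 : ℝ) ≤ N.card := Nat.cast_nonneg _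
  have hx2 : (N.card : ℝ) ≤ 2 * U.card := by
    have := Finset.card_le_card hN
    rw [chain_card_Lits] at this
    exact_mod_cast this
  have hupper : ∀ j ≤ k, pr j U N ≤ ((N.card : ℝ) / U.card) ^ j := by
    intro j
    induction j with
    | zero => intro _; rw [chain_pr_zero]; simp
    | succ j ih =>
      intro hj
      have ih' := ih (by omega)
      have h1 := chain_pr_succ_upper j hN (by omega)
      have hjk : (j : ℝ) ≤ k := by exact_mod_cast (by omega : j ≤ k)
      have h2 : (U.card : ℝ) ≤ 2 * ((U.card : ℝ) - j) := by nlinarith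
      have h3 : (U.card : ℝ) * pr (j + 1) U N ≤ N.card * pr j U N :=
        (mul_le_mul_of_nonneg_right h2 (chain_pr_nonneg _ _ _)).trans h1
      have h4 : pr (j + 1) U N ≤ (N.card : ℝ) / U.card * pr j U N := by
        rw [div_mul_eq_mul_div, le_div_iff₀ hn]
        linarith
      rw [pow_succ']
      exact h4.trans (mul_le_mul_of_nonneg_left ih' (by positivity))
  have hk1 := hupper (k - 1) (by omega)
  have hpk := chain_pr_nonneg k U N
  rcases le_or_gt (4 * (k : ℝ)) N.card with hx | hx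
  · have hlower : ∀ j ≤ k, ((N.card : ℝ) / (4 * U.card)) ^ j ≤ pr j U N := by
      intro j
      induction j with
      | zero => intro _; rw [chain_pr_zero]; simp
      | succ j ih =>
        intro hj
        have ih' := ih (by omega)
        have h1 := chain_pr_succ_lower j hN (by omega)
        have hjk : (j : ℝ) ≤ k := by exact_mod_cast (by omega : j ≤ k)
        have hj0 : (0 : ℝ) ≤ j := Nat.cast_nonneg _
        have h2 : (N.card : ℝ) / 2 ≤ (N.card : ℝ) - 2 * j := by linarith
        have h3 : (N.card : ℝ) / 2 * pr j U N ≤ 2 * (U.card : ℝ) * pr (j + 1) U N := by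
          refine (mul_le_mul_of_nonneg_right h2 (chain_pr_nonneg _ _ _)).trans (h1.trans ?_)
          refine mul_le_mul_of_nonneg_right ?_ (chain_pr_nonneg _ _ _)
          linarith
        have h4 : (N.card : ℝ) / (4 * U.card) * pr j U N ≤ pr (j + 1) U N := by
          rw [div_mul_eq_mul_div, div_le_iff₀ (by positivity)]
          linarith
        rw [pow_succ']
        exact (mul_le_mul_of_nonneg_left ih' (by positivity)).trans h4
    have hkk := hlower k le_rfl
    set y : ℝ := (N.card : ℝ) / (4 * U.card) with hy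
    have hy0 : 0 ≤ y := by positivity
    have hy1 : y ≤ 1 := by
      rw [hy, div_le_one (by positivity)]
      linarith
    have h5 : ((N.card : ℝ) / U.card) ^ (k - 1) = 4 ^ (k - 1) * y ^ (k - 1) := by
      rw [← mul_pow]
      congr 1
      rw [hy]
      field_simp
    have h6 : y ^ (k - 1) ≤ (pr k U N) ^ (2 / 3 : ℝ) := by
      have h7 : (y ^ k) ^ (2 / 3 : ℝ) ≤ (pr k U N) ^ (2 / 3 : ℝ) :=
        Real.rpow_le_rpow (by positivity) hkk (by norm_num)
      refine le_trans ?_ h7
      rw [← Real.rpow_natCast, ← Real.rpow_natCast, ← Real.rpow_mul hy0]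
      rcases hy0.eq_or_lt with h0 | h0
      · rw [← h0, Real.zero_rpow, Real.zero_rpow]
        · have : (0 : ℝ) < k := by exact_mod_cast (by omega : 0 < k)
          positivity
        · have : (0 : ℝ) < ((k - 1 : ℕ) : ℝ) := by exact_mod_cast (by omega : 0 < k - 1)
          exact this.ne'
      · refine Real.rpow_le_rpow_of_exponent_ge h0 hy1 ?_
        rw [Nat.cast_sub (by omega)]
        have : (3 : ℝ) ≤ k := by exact_mod_cast hk
        push_cast
        linarith
    have h8 : (0 : ℝ) ≤ (4 * k / (U.card : ℝ)) ^ 2 := by positivity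
    calc pr (k - 1) U N ≤ 4 ^ (k - 1) * y ^ (k - 1) := by rw [← h5]; exact hk1
      _ ≤ 4 ^ (k - 1) * (pr k U N) ^ (2 / 3 : ℝ) :=
          mul_le_mul_of_nonneg_left h6 (by positivity)
      _ ≤ _ := by linarith
  · have h1 : ((N.card : ℝ) / U.card) ≤ 4 * k / (U.card : ℝ) :=
      div_le_div_of_nonneg_right hx.le hn.le
    have h2 : 4 * (k : ℝ) / (U.card : ℝ) ≤ 1 := by
      rw [div_le_one hn]; exact hn4
    have h3 : pr (k - 1) U N ≤ (4 * k / (U.card : ℝ)) ^ 2 := by
      calc pr (k - 1) U N ≤ ((N.card : ℝ) / U.card) ^ (k - 1) := hk1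
        _ ≤ (4 * k / (U.card : ℝ)) ^ (k - 1) :=
            pow_le_pow_left₀ (by positivity) h1 _
        _ ≤ (4 * k / (U.card : ℝ)) ^ 2 :=
            pow_le_pow_of_le_one (by positivity) h2 (by omega)
    have h4 : (0 : ℝ) ≤ 4 ^ (k - 1) * (pr k U N) ^ (2 / 3 : ℝ) := by positivity
    linarith

/-- Lemma 1: a random `k`-clause is inside the bad literals with probability at most `2/J`. -/
theorem pr_bad_mul_J_le (hk : 1 ≤ k) (hU : k ≤ U.card) (A : St) :
    pr k U (bad k U A) * J k U A ≤ 2 := by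
  rcases A.eq_empty_or_nonempty with rfl | hA
  · rw [J_empty]; norm_num
  have hJ0 := J_nonneg (k := k) (U := U) A
  have hkpos : (0 : ℝ) < k := by exact_mod_cast hk
  have h1 := J_eq hk hU hA
  rw [PP_apply] at h1
  have hpos := Cl_card_pos (U := U) hU
  set N := bad k U A with hN
  have hsplit : ∑ c ∈ Cl k U, J k U (A ∩ sol c) ≤
      ((chain_in k U N).card : ℝ) * (J k U A / 2) +
        ((Cl k U).card - (chain_in k U N).card : ℝ) * J k U A := by
    have h2 := Finset.sum_filter_add_sum_filter_not (Cl k U) (fun c => c ⊆ N)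
      (fun c => J k U (A ∩ sol c))
    rw [← h2]
    have h3 : ∑ c ∈ (Cl k U).filter (fun c => c ⊆ N), J k U (A ∩ sol c) ≤
        ((chain_in k U N).card : ℝ) * (J k U A / 2) := by
      calc _ ≤ ∑ c ∈ (Cl k U).filter (fun c => c ⊆ N), (J k U A / 2) := by
            refine Finset.sum_le_sum fun c hc => ?_
            rw [Finset.mem_filter] at hc
            refine (J_inter_sol_le hk hU A c).trans ?_
            calc _ ≤ ∑ l ∈ c, J k U A / (2 * k) := by
                  refine Finset.sum_le_sum fun l hl => ?_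
                  exact (Finset.mem_filter.1 (hc.2 hl)).2
              _ = J k U A / 2 := by
                  rw [Finset.sum_const, (mem_Cl.1 hc.1).2.1, nsmul_eq_mul]
                  field_simp
        _ = _ := by
            rw [Finset.sum_const, nsmul_eq_mul]; rfl
    have h4 : ∑ c ∈ (Cl k U).filter (fun c => ¬ c ⊆ N), J k U (A ∩ sol c) ≤
        ((Cl k U).card - (chain_in k U N).card : ℝ) * J k U A := by
      have h5 := Finset.card_filter_add_card_filter_not (s := Cl k U) (fun c : Cls => c ⊆ N)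
      have h6 : (((Cl k U).filter (fun c => ¬ c ⊆ N)).card : ℝ) =
          (Cl k U).card - (chain_in k U N).card := by
        rw [eq_sub_iff_add_eq, add_comm]
        exact_mod_cast h5
      calc _ ≤ ∑ c ∈ (Cl k U).filter (fun c => ¬ c ⊆ N), J k U A :=
            Finset.sum_le_sum fun c _ => J_mono hk hU Set.inter_subset_left
        _ = _ := by rw [Finset.sum_const, nsmul_eq_mul, h6]
    linarith
  rw [chain_pr_eq]
  have h7 : J k U A * (Cl k U).card = (Cl k U).card + ∑ c ∈ Cl k U, J k U (A ∩ sol c) := by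
    rw [h1]
    field_simp
  have h8 : ((chain_in k U N).card : ℝ) * J k U A ≤ 2 * (Cl k U).card := by
    nlinarith
  rw [div_mul_eq_mul_div, div_le_iff₀ hpos]
  exact h8

lemma chain_const_pow (j : ℕ) (hj : j ≤ U.card) (a : ℕ) (r : ℝ) :
    ((PP j U) ^ a) (fun _ => r) = fun _ => r := by
  induction a with
  | zero => simp
  | succ n ih => rw [pow_succ_apply, ih]; exact Op_const (Cl_nonempty hj) r

lemma chain_q_le_one (j : ℕ) (hj : j ≤ U.card) (a : ℕ) (A : St) :
    ((PP j U) ^ a) (fun X => 1 - phi X) A ≤ 1 := by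
  have h := (PP_isPos j U).pow a (fun X => 1 - phi X) (fun _ => 1)
    (fun X => by have := phi_nonneg X; simp only; linarith) A
  rw [chain_const_pow j hj] at h
  exact h

theorem chain (hk : 3 ≤ k) : ∃ C : ℝ, 0 ≤ C ∧ ∀ U : Finset ℕ, 4 * k ≤ U.card →
    ∀ A : St, A.Nonempty →
      pr (k - 1) U (bad k U A) ≤ C * (J k U A) ^ (-(2 / 3 : ℝ)) ∧
      ∀ a : ℕ, ((PP (k - 1) U) ^ a) (fun X => 1 - phi X) A ≤
        C * (2 * (k : ℝ) + 1) ^ a * (J k U A) ^ (-(2 / 3 : ℝ)) := by
  have hkR : (3 : ℝ) ≤ k := by exact_mod_cast hk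
  set C : ℝ := 4 ^ (k - 1) * 2 + 16 * (k : ℝ) ^ 2 * 2 ^ (k + 1) with hC
  have hC0 : 0 ≤ C := by positivity
  refine ⟨C, hC0, fun U hU => ?_⟩
  have hkU : k ≤ U.card := by omega
  have hk1 : 1 ≤ k := by omega
  have hfirst : ∀ A : St, A.Nonempty →
      pr (k - 1) U (bad k U A) ≤ C * (J k U A) ^ (-(2 / 3 : ℝ)) := by
    intro A hA
    have hJ1 := one_le_J hk1 hkU hA
    have hJ0 : 0 < J k U A := by linarith
    have hn1 : (1 : ℝ) ≤ U.card := by exact_mod_cast (by omega : 1 ≤ U.card)
    have hn0 : (0 : ℝ) < U.card := by linarith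
    have h1 := pr_compare hk hU (N := bad k U A) (Finset.filter_subset _ _)
    have h2 := pr_bad_mul_J_le hk1 hkU A
    have h3 : pr k U (bad k U A) ≤ 2 * (J k U A)⁻¹ := by
      rw [← div_eq_mul_inv, le_div_iff₀ hJ0]; exact h2
    have h4 : (pr k U (bad k U A)) ^ (2 / 3 : ℝ) ≤ 2 * (J k U A) ^ (-(2 / 3 : ℝ)) := by
      calc _ ≤ (2 * (J k U A)⁻¹) ^ (2 / 3 : ℝ) :=
            Real.rpow_le_rpow (chain_pr_nonneg _ _ _) h3 (by norm_num)
        _ = 2 ^ (2 / 3 : ℝ) * (J k U A) ^ (-(2 / 3 : ℝ)) := by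
            rw [Real.mul_rpow (by norm_num) (by positivity), Real.inv_rpow hJ0.le,
              Real.rpow_neg hJ0.le]
        _ ≤ 2 * (J k U A) ^ (-(2 / 3 : ℝ)) := by
            refine mul_le_mul_of_nonneg_right ?_ (by positivity)
            calc (2 : ℝ) ^ (2 / 3 : ℝ) ≤ 2 ^ (1 : ℝ) :=
                  Real.rpow_le_rpow_of_exponent_le (by norm_num) (by norm_num)
              _ = 2 := Real.rpow_one 2
    have hJle := J_le hk1 hkU A
    have h5 : (4 * k / (U.card : ℝ)) ^ 2 ≤
        16 * (k : ℝ) ^ 2 * 2 ^ (k + 1) * (J k U A) ^ (-(2 / 3 : ℝ)) := by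
      rw [Real.rpow_neg hJ0.le, ← div_eq_mul_inv, le_div_iff₀ (by positivity)]
      have h6 : (J k U A) ^ (2 / 3 : ℝ) ≤ 2 ^ (k + 1) * U.card := by
        calc (J k U A) ^ (2 / 3 : ℝ) ≤ (J k U A) ^ (1 : ℝ) :=
              Real.rpow_le_rpow_of_exponent_le hJ1 (by norm_num)
          _ = J k U A := Real.rpow_one _
          _ ≤ _ := hJle
      calc (4 * k / (U.card : ℝ)) ^ 2 * (J k U A) ^ (2 / 3 : ℝ)
          ≤ (4 * k / (U.card : ℝ)) ^ 2 * (2 ^ (k + 1) * U.card) :=
            mul_le_mul_of_nonneg_left h6 (by positivity)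
        _ = 16 * (k : ℝ) ^ 2 * 2 ^ (k + 1) * (1 / U.card) := by field_simp; ring
        _ ≤ 16 * (k : ℝ) ^ 2 * 2 ^ (k + 1) * 1 := by
            refine mul_le_mul_of_nonneg_left ?_ (by positivity)
            rw [div_le_one hn0]; exact hn1
        _ = _ := by ring
    calc _ ≤ 4 ^ (k - 1) * (pr k U (bad k U A)) ^ (2 / 3 : ℝ) + (4 * k / (U.card : ℝ)) ^ 2 := h1
      _ ≤ 4 ^ (k - 1) * (2 * (J k U A) ^ (-(2 / 3 : ℝ))) +
          16 * (k : ℝ) ^ 2 * 2 ^ (k + 1) * (J k U A) ^ (-(2 / 3 : ℝ)) := by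
          refine add_le_add (mul_le_mul_of_nonneg_left h4 (by positivity)) h5
      _ = _ := by rw [hC]; ring
  intro A hA
  refine ⟨hfirst A hA, fun a => ?_⟩
  induction a generalizing A with
  | zero =>
    have hJ1 := one_le_J hk1 hkU hA
    simp only [pow_zero, Module.End.one_apply, phi_of_nonempty hA]
    rw [sub_self]
    positivity
  | succ a ih =>
    have hJ1 := one_le_J hk1 hkU hA
    have hJ0 : 0 < J k U A := by linarith
    have hk1U : k - 1 ≤ U.card := by omega
    have hpos := Cl_card_pos (U := U) hk1U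
    set N := bad k U A with hN
    set R : ℝ := (J k U A) ^ (-(2 / 3 : ℝ)) with hR
    have hR0 : 0 ≤ R := by positivity
    have hgood : ∀ D ∈ Cl (k - 1) U, ¬ D ⊆ N →
        ((PP (k - 1) U) ^ a) (fun X => 1 - phi X) (A ∩ sol D) ≤
          C * (2 * (k : ℝ) + 1) ^ a * (2 * k * R) := by
      intro D hD hDN
      obtain ⟨l, hl, hlN⟩ := Finset.not_subset.1 hDN
      have hlU : l ∈ Lits U := (mem_Cl.1 hD).1 hl
      have h1 : J k U A / (2 * k) < J k U (A ∩ lit l) := by
        by_contra hcon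
        exact hlN (Finset.mem_filter.2 ⟨hlU, not_lt.1 hcon⟩)
      have h2 : J k U A / (2 * k) < J k U (A ∩ sol D) :=
        h1.trans_le (J_inter_lit_le hk1 hkU A hl)
      have h3 : 0 < J k U A / (2 * k) := by positivity
      have hne : (A ∩ sol D).Nonempty := by
        rw [Set.nonempty_iff_ne_empty]
        intro h0
        rw [h0, J_empty] at h2
        linarith
      refine (ih (A ∩ sol D) hne).trans ?_
      refine mul_le_mul_of_nonneg_left ?_ (by positivity)
      calc (J k U (A ∩ sol D)) ^ (-(2 / 3 : ℝ)) ≤ (J k U A / (2 * k)) ^ (-(2 / 3 : ℝ)) :=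
            Real.rpow_le_rpow_of_nonpos h3 h2.le (by norm_num)
        _ = (2 * k) ^ (2 / 3 : ℝ) * R := by
            rw [Real.div_rpow hJ0.le (by positivity), Real.rpow_neg (by positivity : (0 : ℝ) ≤ 2 * k),
              div_inv_eq_mul, mul_comm]
        _ ≤ 2 * k * R := by
            refine mul_le_mul_of_nonneg_right ?_ hR0
            calc (2 * (k : ℝ)) ^ (2 / 3 : ℝ) ≤ (2 * (k : ℝ)) ^ (1 : ℝ) :=
                  Real.rpow_le_rpow_of_exponent_le (by linarith) (by norm_num)
              _ = 2 * k := Real.rpow_one _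
    rw [pow_succ_apply, PP_apply, div_le_iff₀ hpos]
    have hsplit := Finset.sum_filter_add_sum_filter_not (Cl (k - 1) U) (fun c => c ⊆ N)
      (fun c => ((PP (k - 1) U) ^ a) (fun X => 1 - phi X) (A ∩ sol c))
    rw [← hsplit]
    have h3 : ∑ c ∈ (Cl (k - 1) U).filter (fun c => c ⊆ N),
        ((PP (k - 1) U) ^ a) (fun X => 1 - phi X) (A ∩ sol c) ≤ C * R * (Cl (k - 1) U).card := by
      calc _ ≤ ∑ c ∈ (Cl (k - 1) U).filter (fun c => c ⊆ N), (1 : ℝ) :=
            Finset.sum_le_sum fun c _ => chain_q_le_one _ hk1U _ _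
        _ = pr (k - 1) U N * (Cl (k - 1) U).card := by
            rw [chain_pr_eq, Finset.sum_const, nsmul_eq_mul, mul_one]
            unfold chain_in
            field_simp
        _ ≤ _ := mul_le_mul_of_nonneg_right (hfirst A hA) hpos.le
    have h4 : ∑ c ∈ (Cl (k - 1) U).filter (fun c => ¬ c ⊆ N),
        ((PP (k - 1) U) ^ a) (fun X => 1 - phi X) (A ∩ sol c) ≤
          C * (2 * (k : ℝ) + 1) ^ a * (2 * k * R) * (Cl (k - 1) U).card := by
      calc _ ≤ ∑ c ∈ (Cl (k - 1) U).filter (fun c => ¬ c ⊆ N),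
            C * (2 * (k : ℝ) + 1) ^ a * (2 * k * R) := by
            refine Finset.sum_le_sum fun c hc => ?_
            rw [Finset.mem_filter] at hc
            exact hgood c hc.1 hc.2
        _ = (((Cl (k - 1) U).filter (fun c => ¬ c ⊆ N)).card : ℝ) *
            (C * (2 * (k : ℝ) + 1) ^ a * (2 * k * R)) := by
            rw [Finset.sum_const, nsmul_eq_mul]
        _ ≤ ((Cl (k - 1) U).card : ℝ) * (C * (2 * (k : ℝ) + 1) ^ a * (2 * k * R)) := by
            refine mul_le_mul_of_nonneg_right ?_ (by positivity)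
            exact_mod_cast Finset.card_le_card (Finset.filter_subset _ _)
        _ = _ := by ring
    have h5 : (1 : ℝ) ≤ (2 * (k : ℝ) + 1) ^ a := one_le_pow₀ (by linarith)
    have h6 : C * R + C * (2 * (k : ℝ) + 1) ^ a * (2 * k * R) ≤
        C * (2 * (k : ℝ) + 1) ^ (a + 1) * R := by
      rw [pow_succ]
      have h7 : 0 ≤ C * R := mul_nonneg hC0 hR0
      nlinarith [mul_le_mul_of_nonneg_left h5 h7]
    calc _ ≤ C * R * (Cl (k - 1) U).card +
          C * (2 * (k : ℝ) + 1) ^ a * (2 * k * R) * (Cl (k - 1) U).card := add_le_add h3 h4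
      _ = (C * R + C * (2 * (k : ℝ) + 1) ^ a * (2 * k * R)) * (Cl (k - 1) U).card := by ring
      _ ≤ _ := mul_le_mul_of_nonneg_right h6 hpos.le

end Vale.Agent.P170
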