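import Vale.Agent.P170.Api

namespace Vale.Agent.P170

open Finset

variable {k : ℕ} {U V : Finset ℕ} {A B : St}

lemma conc_av_mono {S : Finset Cls} {f g : Cls → ℝ} (h : ∀ c ∈ S, f c ≤ g c) :
    (∑ c ∈ S, f c) / (S.card : ℝ) ≤ (∑ c ∈ S, g c) / (S.card : ℝ) :=
  div_le_div_of_nonneg_right (Finset.sum_le_sum h) (Nat.cast_nonneg _)

lemma conc_av_const {S : Finset Cls} (hS : (0 : ℝ) < S.card) (r : ℝ) :
    (∑ _c ∈ S, r) / (S.card : ℝ) = r := by
  rw [Finset.sum_const, nsmul_eq_mul]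
  field_simp

lemma conc_av_sq_le {S : Finset Cls} (hS : (0 : ℝ) < S.card) (f : Cls → ℝ) :
    ((∑ c ∈ S, f c) / (S.card : ℝ)) ^ 2 ≤ (∑ c ∈ S, f c ^ 2) / (S.card : ℝ) := by
  have h := sq_sum_le_card_mul_sum_sq (s := S) (f := f)
  rw [div_pow, div_le_div_iff₀ (by positivity) hS]
  nlinarith

lemma conc_av_add {S : Finset Cls} (f g : Cls → ℝ) :
    (∑ c ∈ S, (f c + g c)) / (S.card : ℝ)
      = (∑ c ∈ S, f c) / (S.card : ℝ) + (∑ c ∈ S, g c) / (S.card : ℝ) := by
  rw [Finset.sum_add_distrib, add_div]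

lemma conc_av_sub {S : Finset Cls} (f g : Cls → ℝ) :
    (∑ c ∈ S, (f c - g c)) / (S.card : ℝ)
      = (∑ c ∈ S, f c) / (S.card : ℝ) - (∑ c ∈ S, g c) / (S.card : ℝ) := by
  rw [Finset.sum_sub_distrib, sub_div]

lemma conc_av_mul {S : Finset Cls} (r : ℝ) (f : Cls → ℝ) :
    (∑ c ∈ S, (r * f c)) / (S.card : ℝ) = r * ((∑ c ∈ S, f c) / (S.card : ℝ)) := by
  rw [← Finset.mul_sum, mul_div_assoc]

theorem DD_nonneg (A : St) : 0 ≤ DD k U A := by
  unfold DD
  positivity

lemma conc_DD_empty : DD k U ∅ = 0 := by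
  unfold DD
  simp [J_empty]

lemma conc_step (hk : 1 ≤ k) (hU : k ≤ U.card) (hA : A.Nonempty) (c : Cls) :
    (J k U A - J k U (A ∩ sol c)) ^ 2 ≤ 2 * J k U A * (1 - phi (A ∩ sol c)) +
      (∑ c' ∈ Cl k U, (J k U (A ∩ sol c') - J k U ((A ∩ sol c') ∩ sol c)) ^ 2)
        / ((Cl k U).card : ℝ) := by
  have hpos := Cl_card_pos (U := U) hU
  by_cases hc : (A ∩ sol c).Nonempty
  · rw [phi_of_nonempty hc, sub_self, mul_zero, zero_add]
    rw [J_eq hk hU hA, J_eq hk hU hc, PP_apply, PP_apply, add_sub_add_left_eq_sub,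
      ← conc_av_sub]
    refine (conc_av_sq_le hpos _).trans ?_
    apply le_of_eq
    congr 1
    apply Finset.sum_congr rfl
    intro c' _
    have : A ∩ sol c ∩ sol c' = A ∩ sol c' ∩ sol c := by
      rw [Set.inter_right_comm]
    rw [this]
  · rw [Set.not_nonempty_iff_eq_empty] at hc
    rw [hc, phi_empty, J_empty, sub_zero, sub_zero, mul_one]
    have h1 : ∀ c' ∈ Cl k U, (J k U (A ∩ sol c') - J k U ((A ∩ sol c') ∩ sol c)) ^ 2
        = (J k U (A ∩ sol c')) ^ 2 := by
      intro c' _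
      have : A ∩ sol c' ∩ sol c = ∅ := by
        rw [Set.inter_right_comm, hc, Set.empty_inter]
      rw [this, J_empty, sub_zero]
    rw [Finset.sum_congr rfl h1]
    have h2 := conc_av_sq_le hpos (fun c' => J k U (A ∩ sol c'))
    have h3 := J_eq hk hU hA
    rw [PP_apply] at h3
    set x := (∑ c' ∈ Cl k U, J k U (A ∩ sol c')) / ((Cl k U).card : ℝ) with hx
    rw [h3]
    nlinarith

theorem DD_le (hk : 1 ≤ k) (hU : k ≤ U.card) (A : St) :
    DD k U A ≤ 2 * (kap k U A * J k U A) + PP k U (DD k U) A := by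
  rcases Set.eq_empty_or_nonempty A with hA | hA
  · subst hA
    rw [conc_DD_empty, J_empty, mul_zero, mul_zero, zero_add]
    unfold PP
    rw [Op_empty _ conc_DD_empty]
  · have hpos := Cl_card_pos (U := U) hU
    have h1 : DD k U A ≤ (∑ c ∈ Cl k U, (2 * J k U A * (1 - phi (A ∩ sol c)) +
      (∑ c' ∈ Cl k U, (J k U (A ∩ sol c') - J k U ((A ∩ sol c') ∩ sol c)) ^ 2)
        / ((Cl k U).card : ℝ))) / ((Cl k U).card : ℝ) := by
      unfold DD
      exact conc_av_mono (fun c _ => conc_step hk hU hA c)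
    refine h1.trans (le_of_eq ?_)
    rw [conc_av_add, conc_av_mul, conc_av_sub, conc_av_const hpos]
    congr 1
    · unfold kap
      rw [phi_of_nonempty hA, PP_apply]
      ring
    · rw [PP_apply]
      unfold DD
      rw [← Finset.sum_div, ← Finset.sum_div, Finset.sum_comm]

open Classical in
noncomputable def conc_H (k : ℕ) (U : Finset ℕ) : ℕ → St → ℝ → ℝ
  | 0, A, y => (y + J k U A) ^ 2
  | t + 1, A, y => if A = ∅ then y ^ 2 else
      (∑ c ∈ Cl k U, conc_H k U t (A ∩ sol c) (y + 1)) / ((Cl k U).card : ℝ)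

lemma conc_pow_nonneg (i : ℕ) (A : St) : 0 ≤ ((PP k U) ^ i) (DD k U) A := by
  have h := (PP_isPos k U).pow i (0 : St → ℝ) (DD k U) (fun X => DD_nonneg X)
  have h2 := h A
  rw [map_zero] at h2
  exact h2

lemma conc_H_upper (hk : 1 ≤ k) (hU : k ≤ U.card) (t : ℕ) :
    ∀ (A : St) (y : ℝ), conc_H k U t A y ≤
      (y + J k U A) ^ 2 + ∑ i ∈ range t, ((PP k U) ^ i) (DD k U) A := by
  have hpos := Cl_card_pos (U := U) hU
  induction t with
  | zero =>
    intro A y
    simp [conc_H]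
  | succ t ih =>
    intro A y
    rw [conc_H]
    split_ifs with hA
    · subst hA
      rw [J_empty, add_zero]
      have : 0 ≤ ∑ i ∈ range (t + 1), ((PP k U) ^ i) (DD k U) ∅ :=
        Finset.sum_nonneg (fun i _ => conc_pow_nonneg i ∅)
      linarith
    · have hA' : A.Nonempty := Set.nonempty_iff_ne_empty.mpr hA
      refine (conc_av_mono (fun c _ => ih (A ∩ sol c) (y + 1))).trans ?_
      rw [conc_av_add]
      have h1 : (∑ c ∈ Cl k U, ∑ i ∈ range t, ((PP k U) ^ i) (DD k U) (A ∩ sol c))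
          / ((Cl k U).card : ℝ) = ∑ i ∈ range t, ((PP k U) ^ (i + 1)) (DD k U) A := by
        rw [Finset.sum_comm, Finset.sum_div]
        apply Finset.sum_congr rfl
        intro i _
        rw [pow_succ_apply, PP_apply]
      rw [h1, Finset.sum_range_succ']
      have h3 := J_eq hk hU hA'
      rw [PP_apply] at h3
      have h4 : (∑ c ∈ Cl k U, (y + 1 + J k U (A ∩ sol c)) ^ 2) / ((Cl k U).card : ℝ)
          ≤ (y + J k U A) ^ 2 + DD k U A := by
        unfold DD
        set m := (∑ c' ∈ Cl k U, J k U (A ∩ sol c')) / ((Cl k U).card : ℝ) with hm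
        have h5 : ∀ c ∈ Cl k U, (y + 1 + J k U (A ∩ sol c)) ^ 2
            = (2 * (y + 1 + J k U A)) * J k U (A ∩ sol c)
              + (((y + 1) ^ 2 - (J k U A) ^ 2)
                + (J k U A - J k U (A ∩ sol c)) ^ 2) := by
          intro c _
          ring
        rw [Finset.sum_congr rfl h5, conc_av_add, conc_av_mul, conc_av_add,
          conc_av_const hpos, ← hm]
        rw [h3]
        nlinarith
      have h6 : ((PP k U) ^ 0) (DD k U) A = DD k U A := by
        rw [pow_zero]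
        rfl
      rw [h6]
      linarith

lemma conc_H_lower1 (hU : k ≤ U.card) (t : ℕ) :
    ∀ (A : St) (y K : ℝ), 0 ≤ K → y + t ≤ -K →
      K ^ 2 * (1 - s k U t A) ≤ conc_H k U t A y := by
  have hpos := Cl_card_pos (U := U) hU
  induction t with
  | zero =>
    intro A y K hK hy
    rw [conc_H, s_zero]
    rcases Set.eq_empty_or_nonempty A with hA | hA
    · subst hA
      rw [phi_empty, J_empty]
      simp only [Nat.cast_zero, add_zero, sub_zero, mul_one] at *
      nlinarith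
    · rw [phi_of_nonempty hA, sub_self, mul_zero]
      positivity
  | succ t ih =>
    intro A y K hK hy
    rw [conc_H]
    push_cast at hy
    split_ifs with hA
    · subst hA
      rw [s_empty, sub_zero, mul_one]
      have ht : (0 : ℝ) ≤ t := Nat.cast_nonneg t
      nlinarith
    · rw [s_succ, PP_apply]
      have h1 : K ^ 2 * (1 - (∑ c ∈ Cl k U, s k U t (A ∩ sol c)) / ((Cl k U).card : ℝ))
          = (∑ c ∈ Cl k U, K ^ 2 * (1 - s k U t (A ∩ sol c))) / ((Cl k U).card : ℝ) := by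
        rw [conc_av_mul, conc_av_sub, conc_av_const hpos]
      rw [h1]
      exact conc_av_mono (fun c _ => ih (A ∩ sol c) (y + 1) K hK (by linarith))

lemma conc_H_lower2 (hk : 1 ≤ k) (hU : k ≤ U.card) (t : ℕ) :
    ∀ (A : St) (y K : ℝ), 0 ≤ K → K ≤ y + t + 1 →
      K ^ 2 * s k U t A ≤ conc_H k U t A y := by
  induction t with
  | zero =>
    intro A y K hK hy
    rw [conc_H, s_zero]
    rcases Set.eq_empty_or_nonempty A with hA | hA
    · subst hA
      rw [phi_empty, mul_zero]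
      positivity
    · rw [phi_of_nonempty hA, mul_one]
      have hJ := one_le_J hk hU hA
      simp only [Nat.cast_zero, add_zero] at hy
      nlinarith
  | succ t ih =>
    intro A y K hK hy
    rw [conc_H]
    push_cast at hy
    split_ifs with hA
    · subst hA
      rw [s_empty, mul_zero]
      positivity
    · rw [s_succ, PP_apply, ← conc_av_mul]
      exact conc_av_mono (fun c _ => ih (A ∩ sol c) (y + 1) K hK (by linarith))

lemma conc_H_univ (hk : 1 ≤ k) (hU : k ≤ U.card) (t : ℕ) :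
    conc_H k U t Set.univ (-(M k U)) ≤ ∑ i ∈ range t, ((PP k U) ^ i) (DD k U) Set.univ := by
  have h := conc_H_upper hk hU t Set.univ (-(M k U))
  have h2 : -(M k U) + J k U Set.univ = 0 := by
    unfold M; ring
  rw [h2] at h
  simpa using h

theorem conc_upper (hk : 1 ≤ k) (hU : k ≤ U.card) (t : ℕ) (ht : M k U ≤ (t : ℝ) + 1) :
    ((t : ℝ) + 1 - M k U) ^ 2 * s k U t Set.univ ≤
      ∑ i ∈ range t, ((PP k U) ^ i) (DD k U) Set.univ :=
  (conc_H_lower2 hk hU t Set.univ (-(M k U)) ((t : ℝ) + 1 - M k U) (by linarith)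
    (by linarith)).trans (conc_H_univ hk hU t)

theorem conc_lower (hk : 1 ≤ k) (hU : k ≤ U.card) (t : ℕ) (ht : (t : ℝ) ≤ M k U) :
    (M k U - t) ^ 2 * (1 - s k U t Set.univ) ≤
      ∑ i ∈ range t, ((PP k U) ^ i) (DD k U) Set.univ :=
  (conc_H_lower1 hU t Set.univ (-(M k U)) (M k U - t) (by linarith)
    (by linarith)).trans (conc_H_univ hk hU t)

end Vale.Agent.P170
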