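import Mathlib

namespace Vale.Agent.P170

open Filter Topology

def Clause (k n : ℕ) : Type :=
  {c : Finset (Fin n × Bool) // c.card = k ∧ (c.image Prod.fst).card = k}

instance (k n : ℕ) : Fintype (Clause k n) := by
  unfold Clause; infer_instance

def Satisfiable {k n m : ℕ} (F : Fin m → Clause k n) : Prop :=
  ∃ x : Fin n → Bool, ∀ i : Fin m, ∃ l ∈ (F i).1, x l.1 = l.2

noncomputable def probSat (k n m : ℕ) : ℝ :=
  (Nat.card {F : Fin m → Clause k n // Satisfiable F} : ℝ) / (Nat.card (Fin m → Clause k n) : ℝ)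

def IsLimitingThreshold (k : ℕ) (α : ℝ) : Prop :=
  0 < α ∧
  (∀ c : ℝ, 0 ≤ c → c < α → Tendsto (fun n : ℕ => probSat k n ⌊c * n⌋₊) atTop (𝓝 1)) ∧
  (∀ c : ℝ, α < c → Tendsto (fun n : ℕ => probSat k n ⌊c * n⌋₊) atTop (𝓝 0))

end Vale.Agent.P170
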