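import Mathlib

namespace Vale.Agent.P170

open Filter Topology

theorem fek_claim (b : ℕ → ℝ) (n0 x : ℕ) (hx0 : n0 ≤ x) (hx2 : 2 ≤ x)
    (h2 : ∀ m n, n0 ≤ m → n0 ≤ n → m ≤ 3 * n → n ≤ 3 * m → min (b m) (b n) ≤ b (m + n)) :
    ∀ q : ℕ, 1 ≤ q → ∀ r : ℕ, r ≤ q → min (b x) (b (x + 1)) ≤ b (q * x + r) := by
  intro q
  induction q using Nat.strong_induction_on with
  | _ q ih =>
    intro hq r hr
    rcases Nat.lt_or_ge q 2 with hq2 | hq2
    · have : q = 1 := by omega
      subst this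
      have hr' : r = 0 ∨ r = 1 := by omega
      rcases hr' with h | h
      · subst h; simp
      · subst h; simp
    · set q1 := q / 2 with hq1
      set q2 := q - q / 2 with hq2'
      have e1 : q1 + q2 = q := by omega
      have l1 : 1 ≤ q1 := by omega
      have l2 : 1 ≤ q2 := by omega
      have l3 : q1 < q := by omega
      have l4 : q2 < q := by omega
      have l5 : q2 ≤ 2 * q1 := by omega
      have l6 : q1 ≤ q2 := by omega
      obtain ⟨r1, r2, hr12, hr1, hr2⟩ : ∃ r1 r2 : ℕ, r1 + r2 = r ∧ r1 ≤ q1 ∧ r2 ≤ q2 := by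
        refine ⟨min r q1, r - min r q1, by omega, by omega, by omega⟩
      have i1 := ih q1 l3 l1 r1 hr1
      have i2 := ih q2 l4 l2 r2 hr2
      have hN : q * x + r = (q1 * x + r1) + (q2 * x + r2) := by
        rw [← e1, ← hr12]; ring
      rw [hN]
      have g1 : x ≤ q1 * x + r1 := by nlinarith
      have g2 : x ≤ q2 * x + r2 := by nlinarith
      have g3 : q1 * x + r1 ≤ 3 * (q2 * x + r2) := by nlinarith
      have g4 : q2 * x + r2 ≤ 3 * (q1 * x + r1) := by nlinarith
      have := h2 (q1 * x + r1) (q2 * x + r2) (by omega) (by omega) g3 g4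
      exact (le_min i1 i2).trans this

theorem fekete (a : ℕ → ℝ) (C η B : ℝ) (n0 : ℕ) (hη : 0 < η) (hC : 0 ≤ C)
    (hB : ∀ n, n0 ≤ n → a n ≤ B)
    (h1 : ∀ n, n0 ≤ n → a n - C * (n : ℝ) ^ (-η) ≤ a (n + 1))
    (h2 : ∀ m n, n0 ≤ m → n0 ≤ n → m ≤ 3 * n → n ≤ 3 * m →
      min (a m) (a n) - C * ((m : ℝ) + n) ^ (-η) ≤ a (m + n)) :
    ∃ l : ℝ, Tendsto a atTop (𝓝 l) := by
  have hgap : 0 < (4 / 3 : ℝ) ^ η - 1 := by
    have : (1 : ℝ) < (4 / 3 : ℝ) ^ η := Real.one_lt_rpow (by norm_num) hη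
    linarith
  set C' : ℝ := C / ((4 / 3 : ℝ) ^ η - 1) with hC'
  have hC'0 : 0 ≤ C' := div_nonneg hC hgap.le
  have hC'1 : C + C' = C' * (4 / 3 : ℝ) ^ η := by
    have : C' * ((4 / 3 : ℝ) ^ η - 1) = C := by
      rw [hC']; field_simp
    linarith
  set b : ℕ → ℝ := fun n => a n - C' * (n : ℝ) ^ (-η) with hb
  set n1 : ℕ := max n0 2 with hn1
  have hb2 : ∀ m n, n1 ≤ m → n1 ≤ n → m ≤ 3 * n → n ≤ 3 * m → min (b m) (b n) ≤ b (m + n) := by
    intro m n hm hn hmn hnm
    have hm0 : n0 ≤ m := by omega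
    have hn0 : n0 ≤ n := by omega
    have hm2 : 2 ≤ m := by omega
    have hn2 : 2 ≤ n := by omega
    have key := h2 m n hm0 hn0 hmn hnm
    have hNpos : (0 : ℝ) < (m : ℝ) + n := by positivity
    have aux : ∀ p : ℕ, 2 ≤ p → (p : ℝ) ≤ 3 / 4 * ((m : ℝ) + n) →
        (C + C') * ((m : ℝ) + n) ^ (-η) ≤ C' * (p : ℝ) ^ (-η) := by
      intro p hp hle
      have hp0 : (0 : ℝ) < p := by positivity
      rw [hC'1, mul_assoc]
      apply mul_le_mul_of_nonneg_left _ hC'0
      have e1 : (4 / 3 : ℝ) ^ η = (3 / 4 : ℝ) ^ (-η) := by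
        rw [Real.rpow_neg (by norm_num), ← Real.inv_rpow (by norm_num)]
        norm_num
      rw [e1, ← Real.mul_rpow (by norm_num) hNpos.le]
      exact Real.rpow_le_rpow_of_nonpos hp0 hle (by linarith)
    have hmr : (m : ℝ) ≤ 3 * n := by exact_mod_cast hmn
    have hnr : (n : ℝ) ≤ 3 * m := by exact_mod_cast hnm
    have x1 := aux m hm2 (by linarith)
    have x2 := aux n hn2 (by linarith)
    simp only [hb]
    push_cast
    rcases le_total (a m) (a n) with hle | hle
    · rw [min_eq_left hle] at key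
      refine (min_le_left _ _).trans ?_
      linarith
    · rw [min_eq_right hle] at key
      refine (min_le_right _ _).trans ?_
      linarith
  have hmain : ∀ x : ℕ, n1 ≤ x → ∀ N : ℕ, x * x ≤ N →
      a x - (C + C') * (x : ℝ) ^ (-η) ≤ a N := by
    intro x hx N hN
    have hx0 : n0 ≤ x := by omega
    have hx2 : 2 ≤ x := by omega
    have hxr : (0 : ℝ) < x := by positivity
    have hq : x ≤ N / x := by
      rw [Nat.le_div_iff_mul_le (by omega)]; exact hN
    have hcl := fek_claim b n1 x hx hx2 hb2 (N / x) (by omega) (N % x)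
      (by have := Nat.mod_lt N (by omega : x > 0); omega)
    have hNx : N / x * x + N % x = N := by
      have := Nat.div_add_mod N x
      rw [mul_comm] at this; exact this
    rw [hNx] at hcl
    have hbN : b N ≤ a N := by
      simp only [hb]
      have : 0 ≤ C' * (N : ℝ) ^ (-η) := by positivity
      linarith
    have hbx : a x - (C + C') * (x : ℝ) ^ (-η) ≤ b x := by
      simp only [hb]
      have : 0 ≤ C * (x : ℝ) ^ (-η) := by positivity
      linarith
    have hbx1 : a x - (C + C') * (x : ℝ) ^ (-η) ≤ b (x + 1) := by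
      simp only [hb]
      push_cast
      have y1 := h1 x hx0
      have y2 : ((x : ℝ) + 1) ^ (-η) ≤ (x : ℝ) ^ (-η) :=
        Real.rpow_le_rpow_of_nonpos hxr (by linarith) (by linarith)
      have y3 := mul_le_mul_of_nonneg_left y2 hC'0
      linarith
    exact ((le_min hbx hbx1).trans hcl).trans hbN
  have hbdd : IsBoundedUnder (· ≤ ·) atTop a := ⟨B, by
    rw [eventually_map, eventually_atTop]
    exact ⟨n0, hB⟩⟩
  have hbddb : IsBoundedUnder (· ≥ ·) atTop a := ⟨a n1 - (C + C') * (n1 : ℝ) ^ (-η), by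
    rw [eventually_map, eventually_atTop]
    exact ⟨n1 * n1, fun N hN => hmain n1 le_rfl N hN⟩⟩
  have hcob : IsCoboundedUnder (· ≤ ·) atTop a := hbddb.isCoboundedUnder_le
  refine ⟨limsup a atTop, ?_⟩
  apply tendsto_order.mpr
  constructor
  · intro l hl
    obtain ⟨l', hl1, hl2⟩ := exists_between hl
    have hfreq := frequently_lt_of_lt_limsup hcob hl2
    have hlim : Tendsto (fun x : ℕ => (C + C') * (x : ℝ) ^ (-η)) atTop (𝓝 ((C + C') * 0)) :=
      ((tendsto_rpow_neg_atTop hη).comp tendsto_natCast_atTop_atTop).const_mul (C + C')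
    rw [mul_zero] at hlim
    have hev : ∀ᶠ x : ℕ in atTop, (C + C') * (x : ℝ) ^ (-η) < l' - l :=
      hlim.eventually_lt_const (by linarith)
    have hev2 : ∀ᶠ x : ℕ in atTop, n1 ≤ x := eventually_ge_atTop n1
    obtain ⟨x, hx1, hx2, hx3⟩ := (hfreq.and_eventually (hev.and hev2)).exists
    rw [eventually_atTop]
    refine ⟨x * x, fun N hN => ?_⟩
    have := hmain x hx3 N hN
    linarith
  · intro l hl
    exact eventually_lt_of_limsup_lt hl hbdd

end Vale.Agent.P170
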