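import Vale.Agent.P170.Api

namespace Vale.Agent.P170

open Finset

variable {k : ℕ} {U V : Finset ℕ} {A B : St}

open Classical in
noncomputable def interpD (U : Finset ℕ) (A : St) : Finset Lit :=
  (Lits U).filter (fun l => ¬ (A ∩ lit l).Nonempty)

lemma interp_mem_D {l : Lit} : l ∈ interpD U A ↔ l ∈ Lits U ∧ ¬ (A ∩ lit l).Nonempty := by
  classical
  unfold interpD
  exact Finset.mem_filter

lemma interp_dead_iff {c : Cls} :
    ¬ (A ∩ sol c).Nonempty ↔ ∀ l ∈ c, ¬ (A ∩ lit l).Nonempty := by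
  constructor
  · rintro h l hl ⟨σ, h1, h2⟩
    exact h ⟨σ, h1, l, hl, h2⟩
  · rintro h ⟨σ, h1, l, hl, h2⟩
    exact h l hl ⟨σ, h1, h2⟩

lemma interp_filter_eq (hA : A.Nonempty) :
    (Cl k U).filter (fun c => c ⊆ interpD U A) = (interpD U A).powersetCard k := by
  ext c
  rw [Finset.mem_filter, mem_Cl, Finset.mem_powersetCard]
  constructor
  · rintro ⟨⟨_, h2, _⟩, h4⟩
    exact ⟨h4, h2⟩
  · rintro ⟨h1, h2⟩
    refine ⟨⟨fun l hl => (interp_mem_D.1 (h1 hl)).1, h2, ?_⟩, h1⟩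
    rw [Finset.card_image_of_injOn, h2]
    intro l hl l' hl' hll
    by_contra hne
    have hd := (interp_mem_D.1 (h1 (Finset.mem_coe.1 hl))).2
    have hd' := (interp_mem_D.1 (h1 (Finset.mem_coe.1 hl'))).2
    obtain ⟨σ, hσ⟩ := hA
    have h3 : σ l.1 ≠ l.2 := fun h => hd ⟨σ, hσ, h⟩
    have h3' : σ l'.1 ≠ l'.2 := fun h => hd' ⟨σ, hσ, h⟩
    have hll' : l.1 = l'.1 := hll
    rw [← hll'] at h3'
    have h4 : l.2 = l'.2 := by
      cases h5 : σ l.1 <;> cases h6 : l.2 <;> cases h7 : l'.2 <;> simp_all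
    exact hne (Prod.ext hll' h4)

lemma interp_kap_eq (hU : k ≤ U.card) (hA : A.Nonempty) :
    kap k U A = ((interpD U A).card.choose k : ℝ) / (2 ^ k * (U.card.choose k : ℝ)) := by
  classical
  have hpos : (0 : ℝ) < (Cl k U).card := Cl_card_pos hU
  have h1 : ∑ c ∈ Cl k U, phi (A ∩ sol c) =
      ((Cl k U).card : ℝ) - ((interpD U A).card.choose k : ℝ) := by
    have h2 : ∀ c ∈ Cl k U, phi (A ∩ sol c) = 1 - (if c ⊆ interpD U A then (1 : ℝ) else 0) := by
      intro c hc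
      by_cases hne : (A ∩ sol c).Nonempty
      · rw [phi_of_nonempty hne, if_neg, sub_zero]
        intro hsub
        exact interp_dead_iff.2 (fun l hl => (interp_mem_D.1 (hsub hl)).2) hne
      · rw [Set.not_nonempty_iff_eq_empty.1 hne, phi_empty, if_pos, sub_self]
        intro l hl
        exact interp_mem_D.2 ⟨(mem_Cl.1 hc).1 hl, interp_dead_iff.1 hne l hl⟩
    rw [Finset.sum_congr rfl h2, Finset.sum_sub_distrib, Finset.sum_const, nsmul_eq_mul, mul_one,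
      ← Finset.sum_filter, Finset.sum_const, nsmul_eq_mul, mul_one, interp_filter_eq hA,
      Finset.card_powersetCard]
  rw [kap, phi_of_nonempty hA, PP_apply, h1]
  have h3 : ((Cl k U).card : ℝ) = 2 ^ k * (U.card.choose k : ℝ) := by
    rw [Cl_card]; push_cast; ring
  rw [← h3]
  field_simp
  ring

lemma interp_kap_empty : kap k U ∅ = 0 := by
  unfold kap
  rw [phi_empty, PP, Op_empty _ phi_empty, sub_zero]

lemma interp_D_card_le (hA : A.Nonempty) : (interpD U A).card ≤ U.card := by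
  have h : ((interpD U A).image Prod.fst).card = (interpD U A).card := by
    apply Finset.card_image_of_injOn
    intro l hl l' hl' hll
    by_contra hne
    have hd := (interp_mem_D.1 (Finset.mem_coe.1 hl)).2
    have hd' := (interp_mem_D.1 (Finset.mem_coe.1 hl')).2
    obtain ⟨σ, hσ⟩ := hA
    have h3 : σ l.1 ≠ l.2 := fun h => hd ⟨σ, hσ, h⟩
    have h3' : σ l'.1 ≠ l'.2 := fun h => hd' ⟨σ, hσ, h⟩
    have hll' : l.1 = l'.1 := hll
    rw [← hll'] at h3'
    have h4 : l.2 = l'.2 := by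
      cases h5 : σ l.1 <;> cases h6 : l.2 <;> cases h7 : l'.2 <;> simp_all
    exact hne (Prod.ext hll' h4)
  rw [← h]
  apply Finset.card_le_card
  intro v hv
  obtain ⟨l, hl, rfl⟩ := Finset.mem_image.1 hv
  have := (interp_mem_D.1 hl).1
  unfold Lits at this
  exact (Finset.mem_product.1 this).1

lemma interp_D_union_card {V1 V2 : Finset ℕ} (hd : Disjoint V1 V2) :
    (interpD (V1 ∪ V2) A).card = (interpD V1 A).card + (interpD V2 A).card := by
  classical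
  rw [← Finset.card_union_of_disjoint]
  · congr 1
    ext l
    rw [Finset.mem_union, interp_mem_D, interp_mem_D, interp_mem_D]
    unfold Lits
    rw [Finset.mem_product, Finset.mem_product, Finset.mem_product, Finset.mem_union]
    constructor
    · rintro ⟨⟨h1 | h1, h2⟩, h3⟩
      · exact Or.inl ⟨⟨h1, h2⟩, h3⟩
      · exact Or.inr ⟨⟨h1, h2⟩, h3⟩
    · rintro (⟨⟨h1, h2⟩, h3⟩ | ⟨⟨h1, h2⟩, h3⟩)
      · exact ⟨⟨Or.inl h1, h2⟩, h3⟩
      · exact ⟨⟨Or.inr h1, h2⟩, h3⟩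
  · rw [Finset.disjoint_left]
    intro l h1 h2
    have e1 := (interp_mem_D.1 h1).1
    have e2 := (interp_mem_D.1 h2).1
    unfold Lits at e1 e2
    exact (Finset.disjoint_left.1 hd) (Finset.mem_product.1 e1).1 (Finset.mem_product.1 e2).1

lemma interp_choose_rec {f n j : ℕ} (hj : j + 1 ≤ n) :
    (f.choose (j + 1) : ℝ) / (n.choose (j + 1) : ℝ) =
      (f.choose j : ℝ) / (n.choose j : ℝ) * (((f - j : ℕ) : ℝ) / ((n : ℝ) - j)) := by
  have h1 : (f.choose (j + 1) : ℝ) * (j + 1) = (f.choose j : ℝ) * ((f - j : ℕ) : ℝ) := by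
    exact_mod_cast Nat.choose_succ_right_eq f j
  have h2 : (n.choose (j + 1) : ℝ) * (j + 1) = (n.choose j : ℝ) * ((n : ℝ) - j) := by
    have := Nat.choose_succ_right_eq n j
    have h3 : ((n - j : ℕ) : ℝ) = (n : ℝ) - j := by
      rw [Nat.cast_sub (by omega)]
    rw [← h3]
    exact_mod_cast this
  have hn1 : (0 : ℝ) < (n.choose (j + 1) : ℝ) := by exact_mod_cast Nat.choose_pos hj
  have hn2 : (0 : ℝ) < (n.choose j : ℝ) := by exact_mod_cast Nat.choose_pos (by omega)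
  have hn3 : (0 : ℝ) < (n : ℝ) - j := by
    have : (j : ℝ) + 1 ≤ n := by exact_mod_cast hj
    linarith
  have hj1 : (0 : ℝ) < (j : ℝ) + 1 := by positivity
  rw [div_mul_div_comm, div_eq_div_iff hn1.ne' (by positivity), ← h2]
  have : (f.choose (j + 1) : ℝ) * ((n.choose (j + 1) : ℝ) * (j + 1)) =
      ((f.choose (j + 1) : ℝ) * (j + 1)) * (n.choose (j + 1) : ℝ) := by ring
  rw [this, h1]

lemma interp_ratio_le {f n : ℕ} (hf : f ≤ n) (j : ℕ) (hj : j ≤ n) :
    (f.choose j : ℝ) / (n.choose j : ℝ) ≤ ((f : ℝ) / n) ^ j := by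
  induction j with
  | zero => simp
  | succ j ih =>
    rw [interp_choose_rec hj, pow_succ]
    have hn : (0 : ℝ) < n := by exact_mod_cast (by omega : 0 < n)
    have hn3 : (0 : ℝ) < (n : ℝ) - j := by
      have : (j : ℝ) + 1 ≤ n := by exact_mod_cast hj
      linarith
    refine mul_le_mul (ih (by omega)) ?_ (by positivity) (by positivity)
    rw [div_le_div_iff₀ hn3 hn]
    have hfn : (f : ℝ) ≤ n := by exact_mod_cast hf
    rcases Nat.lt_or_ge f j with h | h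
    · rw [Nat.sub_eq_zero_of_le h.le]
      have : (0 : ℝ) ≤ (f : ℝ) * ((n : ℝ) - j) := by positivity
      simpa using this
    · rw [Nat.cast_sub h]
      have hj0 : (0 : ℝ) ≤ j := by positivity
      nlinarith

lemma interp_ratio_ge {f n : ℕ} {ε : ℝ} (hε : 0 < ε) (hε1 : ε ≤ 1) (hf : f ≤ n)
    (hkn : k ≤ n) (h : 2 * k / ε ≤ (f : ℝ)) (j : ℕ) (hj : j ≤ k) :
    ((f : ℝ) / n) ^ j ≤ (1 + ε) ^ j * ((f.choose j : ℝ) / (n.choose j : ℝ)) := by
  induction j with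
  | zero => simp
  | succ j ih =>
    have hjn : j + 1 ≤ n := by omega
    rw [interp_choose_rec hjn, pow_succ, pow_succ]
    have hn : (0 : ℝ) < n := by exact_mod_cast (by omega : 0 < n)
    have hn3 : (0 : ℝ) < (n : ℝ) - j := by
      have : (j : ℝ) + 1 ≤ n := by exact_mod_cast hjn
      linarith
    have hk' : ((j : ℝ) + 1) ≤ k := by exact_mod_cast hj
    have hfk : 2 * (k : ℝ) ≤ ε * f := by
      rw [div_le_iff₀ hε] at h
      linarith
    have hfj : (j : ℝ) < f := by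
      have hf0 : (0 : ℝ) ≤ f := by positivity
      nlinarith
    have hfj' : j < f := by exact_mod_cast hfj
    have e1 : (((f - j : ℕ) : ℝ)) = (f : ℝ) - j := by rw [Nat.cast_sub hfj'.le]
    have key : (f : ℝ) / n ≤ (1 + ε) * ((((f - j : ℕ) : ℝ)) / ((n : ℝ) - j)) := by
      rw [e1, ← mul_div_assoc, div_le_div_iff₀ hn hn3]
      have hj0 : (0 : ℝ) ≤ j := by positivity
      have hf0 : (0 : ℝ) ≤ f := by positivity
      have h5 : 0 ≤ ε * f - (1 + ε) * j := by nlinarith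
      have h6 : 0 ≤ (n : ℝ) * (ε * f - (1 + ε) * j) := by positivity
      nlinarith [mul_nonneg hf0 hj0]
    calc ((f : ℝ) / n) ^ j * ((f : ℝ) / n)
        ≤ ((1 + ε) ^ j * ((f.choose j : ℝ) / (n.choose j : ℝ))) *
          ((1 + ε) * ((((f - j : ℕ) : ℝ)) / ((n : ℝ) - j))) :=
          mul_le_mul (ih (by omega)) key (by positivity) (by positivity)
      _ = _ := by ring

lemma interp_one_side {f n : ℕ} {ε μ : ℝ} (hε : 0 < ε) (hε1 : ε ≤ 1) (hf : f ≤ n)
    (hkn : 2 * k ≤ n) (hk : 1 ≤ k) (hμ : 0 < μ) (hμn : μ ≤ n) :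
    ((f : ℝ) / n) ^ k ≤ (1 + ε) ^ k * ((f.choose k : ℝ) / (n.choose k : ℝ)) +
      (2 * k / (ε * μ)) ^ k := by
  by_cases h : 2 * k / ε ≤ (f : ℝ)
  · have := interp_ratio_ge (k := k) hε hε1 hf (by omega) h k le_rfl
    have h2 : (0 : ℝ) ≤ (2 * k / (ε * μ)) ^ k := by positivity
    linarith
  · push Not at h
    have h1 : (0 : ℝ) ≤ (1 + ε) ^ k * ((f.choose k : ℝ) / (n.choose k : ℝ)) := by positivity
    have hn : (0 : ℝ) < n := lt_of_lt_of_le hμ hμn
    have h2 : (f : ℝ) / n ≤ 2 * k / (ε * μ) := by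
      rw [div_le_div_iff₀ hn (by positivity)]
      rw [lt_div_iff₀ hε] at h
      have hk0 : (0 : ℝ) ≤ 2 * k := by positivity
      calc (f : ℝ) * (ε * μ) = (f * ε) * μ := by ring
        _ ≤ (2 * k) * n := mul_le_mul h.le hμn hμ.le hk0
    have h3 : ((f : ℝ) / n) ^ k ≤ (2 * k / (ε * μ)) ^ k :=
      pow_le_pow_left₀ (by positivity) h2 k
    linarith

lemma interp_kap_bound (hk : 1 ≤ k) {V1 V2 : Finset ℕ} (hd : Disjoint V1 V2)
    (h1 : 2 * k ≤ V1.card) (h2 : 2 * k ≤ V2.card) {ε : ℝ} (hε : 0 < ε) (hε1 : ε ≤ 1)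
    (hA : A.Nonempty) :
    kap k (V1 ∪ V2) A ≤ (1 + ε) ^ k *
      ((V1.card : ℝ) / ((V1.card : ℝ) + V2.card) * kap k V1 A +
       (V2.card : ℝ) / ((V1.card : ℝ) + V2.card) * kap k V2 A) +
      (2 * k / (ε * min (V1.card : ℝ) V2.card)) ^ k := by
  have hcard : (V1 ∪ V2).card = V1.card + V2.card := Finset.card_union_of_disjoint hd
  rw [interp_kap_eq (by omega) hA, interp_kap_eq (U := V1) (by omega) hA,
    interp_kap_eq (U := V2) (by omega) hA, interp_D_union_card hd, hcard]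
  set f1 := (interpD V1 A).card with hf1
  set f2 := (interpD V2 A).card with hf2
  set n1 := V1.card with hn1
  set n2 := V2.card with hn2
  have hf1n : f1 ≤ n1 := interp_D_card_le hA
  have hf2n : f2 ≤ n2 := interp_D_card_le hA
  have hn1p : (0 : ℝ) < n1 := by exact_mod_cast (by omega : 0 < n1)
  have hn2p : (0 : ℝ) < n2 := by exact_mod_cast (by omega : 0 < n2)
  have hmin : (0 : ℝ) < min (n1 : ℝ) n2 := lt_min hn1p hn2p
  set w1 : ℝ := (n1 : ℝ) / ((n1 : ℝ) + n2) with hw1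
  set w2 : ℝ := (n2 : ℝ) / ((n1 : ℝ) + n2) with hw2
  have hw1p : 0 ≤ w1 := by positivity
  have hw2p : 0 ≤ w2 := by positivity
  have hw : w1 + w2 = 1 := by
    rw [hw1, hw2]; field_simp
  have a1 := interp_ratio_le (f := f1 + f2) (n := n1 + n2) (by omega) k (by omega)
  have a2 : (((f1 + f2 : ℕ) : ℝ) / ((n1 + n2 : ℕ) : ℝ)) =
      w1 * ((f1 : ℝ) / n1) + w2 * ((f2 : ℝ) / n2) := by
    rw [hw1, hw2]
    push_cast
    field_simp
  have a3 : (w1 * ((f1 : ℝ) / n1) + w2 * ((f2 : ℝ) / n2)) ^ k ≤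
      w1 * ((f1 : ℝ) / n1) ^ k + w2 * ((f2 : ℝ) / n2) ^ k := by
    have := (convexOn_pow (𝕜 := ℝ) k).2 (x := (f1 : ℝ) / n1) (y := (f2 : ℝ) / n2)
      (Set.mem_Ici.2 (by positivity)) (Set.mem_Ici.2 (by positivity)) hw1p hw2p hw
    simpa [smul_eq_mul] using this
  have a4 := interp_one_side (k := k) (f := f1) (n := n1) (μ := min (n1 : ℝ) n2) hε hε1 hf1n h1 hk
    hmin (min_le_left _ _)
  have a5 := interp_one_side (k := k) (f := f2) (n := n2) (μ := min (n1 : ℝ) n2) hε hε1 hf2n h2 hk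
    hmin (min_le_right _ _)
  set err : ℝ := (2 * k / (ε * min (n1 : ℝ) n2)) ^ k with herr
  have herr0 : 0 ≤ err := by positivity
  set r1 : ℝ := (f1.choose k : ℝ) / (n1.choose k : ℝ) with hr1
  set r2 : ℝ := (f2.choose k : ℝ) / (n2.choose k : ℝ) with hr2
  have a6 : ((f1 + f2).choose k : ℝ) / ((n1 + n2).choose k : ℝ) ≤
      (1 + ε) ^ k * (w1 * r1 + w2 * r2) + err := by
    calc ((f1 + f2).choose k : ℝ) / ((n1 + n2).choose k : ℝ)
        ≤ (((f1 + f2 : ℕ) : ℝ) / ((n1 + n2 : ℕ) : ℝ)) ^ k := a1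
      _ = (w1 * ((f1 : ℝ) / n1) + w2 * ((f2 : ℝ) / n2)) ^ k := by rw [a2]
      _ ≤ w1 * ((f1 : ℝ) / n1) ^ k + w2 * ((f2 : ℝ) / n2) ^ k := a3
      _ ≤ w1 * ((1 + ε) ^ k * r1 + err) + w2 * ((1 + ε) ^ k * r2 + err) :=
          add_le_add (mul_le_mul_of_nonneg_left a4 hw1p) (mul_le_mul_of_nonneg_left a5 hw2p)
      _ = (1 + ε) ^ k * (w1 * r1 + w2 * r2) + (w1 + w2) * err := by ring
      _ = _ := by rw [hw, one_mul]
  have h2k : (1 : ℝ) ≤ 2 ^ k := one_le_pow₀ (by norm_num)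
  have h2k0 : (0 : ℝ) < 2 ^ k := by positivity
  have e1 : ((f1 + f2).choose k : ℝ) / (2 ^ k * ((n1 + n2).choose k : ℝ)) =
      (((f1 + f2).choose k : ℝ) / ((n1 + n2).choose k : ℝ)) / 2 ^ k := by
    rw [div_div, mul_comm]
  have e2 : (f1.choose k : ℝ) / (2 ^ k * (n1.choose k : ℝ)) = r1 / 2 ^ k := by
    rw [hr1, div_div, mul_comm]
  have e3 : (f2.choose k : ℝ) / (2 ^ k * (n2.choose k : ℝ)) = r2 / 2 ^ k := by
    rw [hr2, div_div, mul_comm]
  rw [e1, e2, e3]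
  calc (((f1 + f2).choose k : ℝ) / ((n1 + n2).choose k : ℝ)) / 2 ^ k
      ≤ ((1 + ε) ^ k * (w1 * r1 + w2 * r2) + err) / 2 ^ k :=
        div_le_div_of_nonneg_right a6 h2k0.le
    _ = (1 + ε) ^ k * (w1 * (r1 / 2 ^ k) + w2 * (r2 / 2 ^ k)) + err / 2 ^ k := by ring
    _ ≤ (1 + ε) ^ k * (w1 * (r1 / 2 ^ k) + w2 * (r2 / 2 ^ k)) + err := by
        have : err / 2 ^ k ≤ err := div_le_self herr0 h2k
        linarith


/-! operators -/

lemma interp_Op_local (S : Finset Cls) {f g : St → ℝ} {A : St}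
    (h : ∀ c ∈ S, f (A ∩ sol c) ≤ g (A ∩ sol c)) : Op S f A ≤ Op S g A := by
  rw [Op_apply, Op_apply]
  exact div_le_div_of_nonneg_right (Finset.sum_le_sum h) (by positivity)

noncomputable def interpR (k : ℕ) (V1 V2 : Finset ℕ) (w1 w2 : ℝ) : Module.End ℝ (St → ℝ) :=
  w1 • PP k V1 + w2 • PP k V2

noncomputable def interpRp (k : ℕ) (V1 V2 : Finset ℕ) (w1 w2 θ : ℝ) : Module.End ℝ (St → ℝ) :=
  (1 - θ) • interpR k V1 V2 w1 w2 + θ • (interpR k V1 V2 w1 w2 * interpR k V1 V2 w1 w2)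

lemma interp_kap_nonneg (A : St) (hU : k ≤ U.card) : 0 ≤ kap k U A := by
  by_cases hA : A.Nonempty
  · rw [interp_kap_eq hU hA]; positivity
  · rw [Set.not_nonempty_iff_eq_empty.1 hA, interp_kap_empty]

lemma interp_kap_le_half (A : St) (hk : 1 ≤ k) (hU : k ≤ U.card) : kap k U A ≤ 1 / 2 := by
  by_cases hA : A.Nonempty
  · rw [interp_kap_eq hU hA]
    have h1 : ((interpD U A).card.choose k : ℝ) ≤ (U.card.choose k : ℝ) := by
      exact_mod_cast Nat.choose_le_choose k (interp_D_card_le hA)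
    have h2 : (0 : ℝ) < (U.card.choose k : ℝ) := by exact_mod_cast Nat.choose_pos hU
    have h3 : (2 : ℝ) ≤ 2 ^ k := by
      calc (2 : ℝ) = 2 ^ 1 := by norm_num
        _ ≤ 2 ^ k := pow_le_pow_right₀ (by norm_num) hk
    rw [div_le_div_iff₀ (by positivity) (by norm_num)]
    nlinarith
  · rw [Set.not_nonempty_iff_eq_empty.1 hA, interp_kap_empty]; norm_num

lemma interp_kap_mono {A B : St} (hB : B.Nonempty) (h : B ⊆ A) : kap k U A ≤ kap k U B := by
  have hA : A.Nonempty := hB.mono h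
  unfold kap
  rw [phi_of_nonempty hA, phi_of_nonempty hB]
  have : PP k U phi B ≤ PP k U phi A := Op_mono_state _ (fun _ _ h => phi_mono h) h
  linarith

lemma interp_R_phi (V1 V2 : Finset ℕ) {w1 w2 : ℝ} (hw : w1 + w2 = 1) (A : St) :
    interpR k V1 V2 w1 w2 phi A = phi A - (w1 * kap k V1 A + w2 * kap k V2 A) := by
  have h : interpR k V1 V2 w1 w2 phi A = w1 * PP k V1 phi A + w2 * PP k V2 phi A := rfl
  rw [h]
  unfold kap
  have : phi A = (w1 + w2) * phi A := by rw [hw, one_mul]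
  nlinarith

lemma interp_Rp_apply (V1 V2 : Finset ℕ) (w1 w2 θ : ℝ) (f : St → ℝ) (A : St) :
    interpRp k V1 V2 w1 w2 θ f A = (1 - θ) * interpR k V1 V2 w1 w2 f A +
      θ * interpR k V1 V2 w1 w2 (interpR k V1 V2 w1 w2 f) A := rfl

lemma interp_R_apply (V1 V2 : Finset ℕ) (w1 w2 : ℝ) (f : St → ℝ) (A : St) :
    interpR k V1 V2 w1 w2 f A = w1 * PP k V1 f A + w2 * PP k V2 f A := rfl

lemma interp_step (hk : 1 ≤ k) {V1 V2 : Finset ℕ} (hd : Disjoint V1 V2)
    (h1 : 2 * k ≤ V1.card) (h2 : 2 * k ≤ V2.card) {ε θ : ℝ} (hε : 0 < ε) (hε1 : ε ≤ 1)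
    (hθ : 2 * ((1 + ε) ^ k - 1) ≤ θ) (hθ1 : θ ≤ 1) (A : St) :
    interpRp k V1 V2 ((V1.card : ℝ) / ((V1.card : ℝ) + V2.card))
      ((V2.card : ℝ) / ((V1.card : ℝ) + V2.card)) θ phi A -
      (2 * k / (ε * min (V1.card : ℝ) V2.card)) ^ k ≤ PP k (V1 ∪ V2) phi A := by
  have hn1p : (0 : ℝ) < V1.card := by exact_mod_cast (by omega : 0 < V1.card)
  have hn2p : (0 : ℝ) < V2.card := by exact_mod_cast (by omega : 0 < V2.card)
  have hmin : (0 : ℝ) < min (V1.card : ℝ) V2.card := lt_min hn1p hn2p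
  set w1 : ℝ := (V1.card : ℝ) / ((V1.card : ℝ) + V2.card) with hw1
  set w2 : ℝ := (V2.card : ℝ) / ((V1.card : ℝ) + V2.card) with hw2
  set err : ℝ := (2 * k / (ε * min (V1.card : ℝ) V2.card)) ^ k with herr
  have herr0 : 0 ≤ err := by positivity
  have hw1p : 0 ≤ w1 := by positivity
  have hw2p : 0 ≤ w2 := by positivity
  have hw : w1 + w2 = 1 := by
    rw [hw1, hw2]; field_simp
  have hθ0 : 0 ≤ θ := by
    have : (1 : ℝ) ≤ (1 + ε) ^ k := one_le_pow₀ (by linarith)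
    linarith
  by_cases hA : A.Nonempty
  · set κ : ℝ := w1 * kap k V1 A + w2 * kap k V2 A with hκ
    have hκ0 : 0 ≤ κ := by
      have a1 := interp_kap_nonneg (k := k) (U := V1) A (by omega)
      have a2 := interp_kap_nonneg (k := k) (U := V2) A (by omega)
      positivity
    have hκ1 : κ ≤ 1 / 2 := by
      have a1 := interp_kap_le_half (k := k) (U := V1) A hk (by omega)
      have a2 := interp_kap_le_half (k := k) (U := V2) A hk (by omega)
      calc κ ≤ w1 * (1 / 2) + w2 * (1 / 2) :=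
            add_le_add (mul_le_mul_of_nonneg_left a1 hw1p) (mul_le_mul_of_nonneg_left a2 hw2p)
        _ = (w1 + w2) * (1 / 2) := by ring
        _ = 1 / 2 := by rw [hw, one_mul]
    have hR : interpR k V1 V2 w1 w2 phi A = 1 - κ := by
      rw [interp_R_phi V1 V2 hw A, phi_of_nonempty hA]
    have hRB : ∀ B : St, B ⊆ A → interpR k V1 V2 w1 w2 phi B ≤ ((1 - κ) • phi) B := by
      intro B hBA
      rw [interp_R_phi V1 V2 hw B, Pi.smul_apply, smul_eq_mul]
      by_cases hB : B.Nonempty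
      · rw [phi_of_nonempty hB]
        have a1 := interp_kap_mono (k := k) (U := V1) hB hBA
        have a2 := interp_kap_mono (k := k) (U := V2) hB hBA
        have : κ ≤ w1 * kap k V1 B + w2 * kap k V2 B :=
          add_le_add (mul_le_mul_of_nonneg_left a1 hw1p) (mul_le_mul_of_nonneg_left a2 hw2p)
        linarith
      · rw [Set.not_nonempty_iff_eq_empty.1 hB, phi_empty, interp_kap_empty, interp_kap_empty]
        simp
    have hRR : interpR k V1 V2 w1 w2 (interpR k V1 V2 w1 w2 phi) A ≤ (1 - κ) * (1 - κ) := by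
      calc interpR k V1 V2 w1 w2 (interpR k V1 V2 w1 w2 phi) A
          ≤ interpR k V1 V2 w1 w2 ((1 - κ) • phi) A := by
            rw [interp_R_apply, interp_R_apply]
            refine add_le_add (mul_le_mul_of_nonneg_left ?_ hw1p)
              (mul_le_mul_of_nonneg_left ?_ hw2p)
            · exact interp_Op_local _ fun c _ => hRB _ Set.inter_subset_left
            · exact interp_Op_local _ fun c _ => hRB _ Set.inter_subset_left
        _ = (1 - κ) * (1 - κ) := by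
            rw [map_smul, Pi.smul_apply, smul_eq_mul, hR]
    rw [interp_Rp_apply, hR]
    have hkapU := interp_kap_bound hk hd h1 h2 hε hε1 hA
    rw [← hw1, ← hw2, ← hκ, ← herr] at hkapU
    have hPP : PP k (V1 ∪ V2) phi A = 1 - kap k (V1 ∪ V2) A := by
      unfold kap
      rw [phi_of_nonempty hA]; ring
    rw [hPP]
    have e1 : (1 + ε) ^ k * κ ≤ (1 + θ / 2) * κ :=
      mul_le_mul_of_nonneg_right (by linarith) hκ0
    have e2 : θ * interpR k V1 V2 w1 w2 (interpR k V1 V2 w1 w2 phi) A ≤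
        θ * ((1 - κ) * (1 - κ)) := mul_le_mul_of_nonneg_left hRR hθ0
    have e3 : 0 ≤ θ * κ * (1 / 2 - κ) := by
      have : 0 ≤ 1 / 2 - κ := by linarith
      positivity
    nlinarith
  · rw [Set.not_nonempty_iff_eq_empty.1 hA, interp_Rp_apply, interp_R_apply, interp_R_apply]
    have z1 : interpR k V1 V2 w1 w2 phi ∅ = 0 := by
      rw [interp_R_apply, PP, PP, Op_empty _ phi_empty, Op_empty _ phi_empty]; ring
    have e1 : PP k V1 phi ∅ = 0 := by rw [PP]; exact Op_empty _ phi_empty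
    have e2 : PP k V2 phi ∅ = 0 := by rw [PP]; exact Op_empty _ phi_empty
    have e3 : PP k V1 (interpR k V1 V2 w1 w2 phi) ∅ = 0 := by rw [PP]; exact Op_empty _ z1
    have e4 : PP k V2 (interpR k V1 V2 w1 w2 phi) ∅ = 0 := by rw [PP]; exact Op_empty _ z1
    have e5 : PP k (V1 ∪ V2) phi ∅ = 0 := by rw [PP]; exact Op_empty _ phi_empty
    rw [e1, e2, e3, e4, e5]
    simp only [mul_zero, add_zero]
    linarith


lemma interp_PP_commute (U V : Finset ℕ) : Commute (PP k U) (PP k V) := Op_commute _ _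

lemma interp_R_commute (V1 V2 : Finset ℕ) (w1 w2 : ℝ) (U : Finset ℕ) :
    Commute (PP k U) (interpR k V1 V2 w1 w2) :=
  ((interp_PP_commute U V1).smul_right w1).add_right ((interp_PP_commute U V2).smul_right w2)

lemma interp_Rp_commute (V1 V2 : Finset ℕ) (w1 w2 θ : ℝ) (U : Finset ℕ) :
    Commute (PP k U) (interpRp k V1 V2 w1 w2 θ) :=
  ((interp_R_commute V1 V2 w1 w2 U).smul_right _).add_right
    (((interp_R_commute V1 V2 w1 w2 U).mul_right (interp_R_commute V1 V2 w1 w2 U)).smul_right _)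

lemma interp_R_isPos (V1 V2 : Finset ℕ) {w1 w2 : ℝ} (hw1 : 0 ≤ w1) (hw2 : 0 ≤ w2) :
    IsPos (interpR k V1 V2 w1 w2) :=
  (IsPos.smul hw1 (PP_isPos k V1)).add (IsPos.smul hw2 (PP_isPos k V2))

lemma interp_Rp_isPos (V1 V2 : Finset ℕ) {w1 w2 θ : ℝ} (hw1 : 0 ≤ w1) (hw2 : 0 ≤ w2)
    (hθ0 : 0 ≤ θ) (hθ1 : θ ≤ 1) : IsPos (interpRp k V1 V2 w1 w2 θ) :=
  (IsPos.smul (by linarith) (interp_R_isPos V1 V2 hw1 hw2)).add
    (IsPos.smul hθ0 ((interp_R_isPos V1 V2 hw1 hw2).mul (interp_R_isPos V1 V2 hw1 hw2)))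

lemma interp_R_const {V1 V2 : Finset ℕ} (h1 : k ≤ V1.card) (h2 : k ≤ V2.card) {w1 w2 : ℝ}
    (hw : w1 + w2 = 1) (r : ℝ) :
    interpR k V1 V2 w1 w2 (fun _ => r) = fun _ => r := by
  funext A
  rw [interp_R_apply, PP, PP, Op_const (Cl_nonempty h1), Op_const (Cl_nonempty h2), ← add_mul, hw,
    one_mul]

lemma interp_Rp_const {V1 V2 : Finset ℕ} (h1 : k ≤ V1.card) (h2 : k ≤ V2.card) {w1 w2 θ : ℝ}
    (hw : w1 + w2 = 1) (r : ℝ) :
    interpRp k V1 V2 w1 w2 θ (fun _ => r) = fun _ => r := by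
  funext A
  rw [interp_Rp_apply, interp_R_const h1 h2 hw, interp_R_const h1 h2 hw]
  ring

lemma interp_pow_const {T : Module.End ℝ (St → ℝ)} {r : ℝ} (h : T (fun _ => r) = fun _ => r)
    (m : ℕ) : (T ^ m) (fun _ => r) = fun _ => r := by
  induction m with
  | zero => rfl
  | succ m ih => rw [pow_succ_apply', h, ih]

lemma interp_iter {P R : Module.End ℝ (St → ℝ)} (hR : IsPos R)
    (hP : IsPos P)
    (hRc : ∀ r : ℝ, R (fun _ => r) = fun _ => r) (hPc : ∀ r : ℝ, P (fun _ => r) = fun _ => r)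
    (hc : Commute P R) {f : St → ℝ} {e : ℝ} (h : ∀ A, R f A - e ≤ P f A) (m : ℕ) :
    ∀ A, (R ^ m) f A - m * e ≤ (P ^ m) f A := by
  induction m with
  | zero => intro A; simp
  | succ m ih =>
    intro A
    have h1 : (R ^ m) (P f) - (fun _ => (m : ℝ) * e) ≤ (P ^ (m + 1)) f := by
      have e0 : P ((R ^ m) f) = (R ^ m) (P f) := by
        have := (hc.pow_right m).eq
        exact congrArg (fun T : Module.End ℝ (St → ℝ) => T f) this
      have e1 : P ((R ^ m) f - (fun _ => (m : ℝ) * e)) =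
          (R ^ m) (P f) - (fun _ => (m : ℝ) * e) := by
        rw [map_sub, e0, hPc]
      rw [← e1, pow_succ_apply]
      exact hP _ _ (fun B => ih B)
    have h2 : (R ^ (m + 1)) f - (fun _ => e) ≤ (R ^ m) (P f) := by
      have e1 : (R ^ m) (R f - (fun _ => e)) = (R ^ (m + 1)) f - (fun _ => e) := by
        rw [map_sub, interp_pow_const (hRc e), pow_succ_apply']
      rw [← e1]
      exact hR.pow m _ _ (fun B => h B)
    have h3 := h1 A
    have h4 := h2 A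
    simp only [Pi.sub_apply] at h3 h4
    push_cast
    linarith

/-! product formula -/

def InterpDep (V : Finset ℕ) (A : St) : Prop :=
  ∀ σ τ : Asg, (∀ x ∈ V, σ x = τ x) → (σ ∈ A ↔ τ ∈ A)

lemma interpDep_univ (V : Finset ℕ) : InterpDep V Set.univ := by
  intro σ τ _
  exact Iff.rfl

lemma interpDep_inter {V : Finset ℕ} {A : St} (hA : InterpDep V A) {c : Cls}
    (hc : c ∈ Cl k V) : InterpDep V (A ∩ sol c) := by
  intro σ τ h
  have h1 := hA σ τ h
  have h2 : σ ∈ sol c ↔ τ ∈ sol c := by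
    constructor
    · rintro ⟨l, hl, h3⟩
      refine ⟨l, hl, ?_⟩
      have := (mem_Cl.1 hc).1 hl
      unfold Lits at this
      rw [← h _ (Finset.mem_product.1 this).1, h3]
    · rintro ⟨l, hl, h3⟩
      refine ⟨l, hl, ?_⟩
      have := (mem_Cl.1 hc).1 hl
      unfold Lits at this
      rw [h _ (Finset.mem_product.1 this).1, h3]
  rw [Set.mem_inter_iff, Set.mem_inter_iff, h1, h2]

lemma interp_phi_prod {V1 V2 : Finset ℕ} (hd : Disjoint V1 V2) {A1 A2 : St}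
    (h1 : InterpDep V1 A1) (h2 : InterpDep V2 A2) : phi (A1 ∩ A2) = phi A1 * phi A2 := by
  classical
  by_cases e1 : A1.Nonempty
  · by_cases e2 : A2.Nonempty
    · obtain ⟨σ, hσ⟩ := e1
      obtain ⟨τ, hτ⟩ := e2
      have hne : (A1 ∩ A2).Nonempty := by
        refine ⟨fun x => if x ∈ V1 then σ x else τ x, ?_, ?_⟩
        · refine (h1 _ σ ?_).2 hσ
          intro x hx
          simp only [if_pos hx]
        · refine (h2 _ τ ?_).2 hτ
          intro x hx
          simp only [if_neg (Finset.disjoint_right.1 hd hx)]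
      rw [phi_of_nonempty hne, phi_of_nonempty ⟨σ, hσ⟩, phi_of_nonempty ⟨τ, hτ⟩, one_mul]
    · rw [Set.not_nonempty_iff_eq_empty.1 e2, Set.inter_empty, phi_empty, mul_zero]
  · rw [Set.not_nonempty_iff_eq_empty.1 e1, Set.empty_inter, phi_empty, zero_mul]

lemma interp_prod_right {V1 V2 : Finset ℕ} (hd : Disjoint V1 V2) (j : ℕ) {A1 : St}
    (h1 : InterpDep V1 A1) : ∀ {A2 : St}, InterpDep V2 A2 →
    ((PP k V2) ^ j) phi (A1 ∩ A2) = phi A1 * s k V2 j A2 := by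
  induction j with
  | zero =>
    intro A2 h2
    rw [s_zero]
    exact interp_phi_prod hd h1 h2
  | succ j ih =>
    intro A2 h2
    rw [pow_succ_apply, s_succ, PP_apply, PP_apply, ← mul_div_assoc, Finset.mul_sum]
    congr 1
    refine Finset.sum_congr rfl fun c hc => ?_
    rw [Set.inter_assoc, ih (interpDep_inter h2 hc)]

lemma interp_prod {V1 V2 : Finset ℕ} (hd : Disjoint V1 V2) (i j : ℕ) {A2 : St}
    (h2 : InterpDep V2 A2) : ∀ {A1 : St}, InterpDep V1 A1 →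
    ((PP k V1) ^ i) (((PP k V2) ^ j) phi) (A1 ∩ A2) = s k V1 i A1 * s k V2 j A2 := by
  induction i with
  | zero =>
    intro A1 h1
    rw [pow_zero, Module.End.one_apply, s_zero]
    exact interp_prod_right hd j h1 h2
  | succ i ih =>
    intro A1 h1
    rw [pow_succ_apply, s_succ, PP_apply, PP_apply, div_mul_eq_mul_div, Finset.sum_mul]
    congr 1
    refine Finset.sum_congr rfl fun c hc => ?_
    rw [Set.inter_right_comm, ih (interpDep_inter h1 hc)]

lemma interp_prod_univ {V1 V2 : Finset ℕ} (hd : Disjoint V1 V2) (i j : ℕ) :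
    ((PP k V1) ^ i) (((PP k V2) ^ j) phi) Set.univ =
      s k V1 i Set.univ * s k V2 j Set.univ := by
  have := interp_prod (k := k) hd i j (interpDep_univ V2) (interpDep_univ V1)
  rwa [Set.univ_inter] at this

lemma interp_tail {V : Finset ℕ} {i t : ℕ} {c K : ℝ} (hK : 0 < K) (h : c + K ≤ t) :
    1 - s k V i Set.univ ≤ (1 - s k V t Set.univ) + ((i : ℝ) - c) ^ 2 / K ^ 2 := by
  have h0 : 0 ≤ ((i : ℝ) - c) ^ 2 / K ^ 2 := by positivity
  rcases Nat.lt_or_ge t i with hti | hti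
  · have h1 : (t : ℝ) < i := by exact_mod_cast hti
    have h2 : K ≤ (i : ℝ) - c := by linarith
    have h3 : 1 ≤ ((i : ℝ) - c) ^ 2 / K ^ 2 := by
      rw [le_div_iff₀ (by positivity), one_mul]
      exact pow_le_pow_left₀ hK.le h2 2
    have h4 := s_nonneg (k := k) (U := V) i Set.univ
    have h5 := s_le_one (k := k) (U := V) t Set.univ
    linarith
  · have h1 : s k V t Set.univ ≤ s k V i Set.univ := s_antitone Set.univ hti
    linarith

lemma interp_aux {w1 w2 θ : ℝ} (hw1 : 0 ≤ w1) (hw2 : 0 ≤ w2) (hw : w1 + w2 = 1)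
    (hθ0 : 0 ≤ θ) (hθ1 : θ ≤ 1) :
    (1 - θ) * w1 + θ * (4 * w1 * w1 + 2 * w1 * w2) ≤ 4 := by
  have h1 : w1 ≤ 1 := by linarith
  have h2 : 4 * w1 * w1 + 2 * w1 * w2 = 4 * w1 - 2 * (w1 * w2) := by
    have : w2 = 1 - w1 := by linarith
    rw [this]; ring
  have h3 : 0 ≤ w1 * w2 := mul_nonneg hw1 hw2
  have h4 : 4 * w1 * w1 + 2 * w1 * w2 ≤ 4 := by linarith
  have h5 : (1 - θ) * w1 ≤ (1 - θ) * 4 := mul_le_mul_of_nonneg_left (by linarith) (by linarith)
  have h6 : θ * (4 * w1 * w1 + 2 * w1 * w2) ≤ θ * 4 := mul_le_mul_of_nonneg_left h4 hθ0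
  linarith

lemma interp_comb (S0 x y m w1 θ a b : ℝ) :
    (1 - θ) * (w1 * (S0 - ((x + 1) ^ 2 + 4 * m) * a - (y ^ 2 + 4 * m) * b) +
        (1 - w1) * (S0 - (x ^ 2 + 4 * m) * a - ((y + 1) ^ 2 + 4 * m) * b)) +
        θ * (w1 * w1 * (S0 - ((x + 2) ^ 2 + 4 * m) * a - (y ^ 2 + 4 * m) * b) +
        2 * (w1 * (1 - w1)) * (S0 - ((x + 1) ^ 2 + 4 * m) * a - ((y + 1) ^ 2 + 4 * m) * b) +
        (1 - w1) * (1 - w1) * (S0 - (x ^ 2 + 4 * m) * a - ((y + 2) ^ 2 + 4 * m) * b)) -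
        (S0 - ((x + (1 + θ) * w1) ^ 2 + 4 * (m + 1)) * a -
          ((y + (1 + θ) * (1 - w1)) ^ 2 + 4 * (m + 1)) * b) =
        a * (4 - ((1 - θ) * w1 + θ * (4 * w1 * w1 + 2 * w1 * (1 - w1))) +
          ((1 + θ) * w1) ^ 2) +
        b * (4 - ((1 - θ) * (1 - w1) + θ * (4 * (1 - w1) * (1 - w1) + 2 * w1 * (1 - w1))) +
          ((1 + θ) * (1 - w1)) ^ 2) := by
  ring

lemma interp_walk {V1 V2 : Finset ℕ} (hd : Disjoint V1 V2) {w1 w2 θ : ℝ} (hw1 : 0 ≤ w1)
    (hw2 : 0 ≤ w2) (hw : w1 + w2 = 1) (hθ0 : 0 ≤ θ) (hθ1 : θ ≤ 1) (t1 t2 : ℕ)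
    {c1 c2 K1 K2 : ℝ} (hK1 : 0 < K1) (hK2 : 0 < K2)
    (e1 : c1 + K1 ≤ t1) (e2 : c2 + K2 ≤ t2) (m : ℕ) : ∀ i j : ℕ,
    1 - (1 - s k V1 t1 Set.univ) - (1 - s k V2 t2 Set.univ)
      - (((i : ℝ) + m * ((1 + θ) * w1) - c1) ^ 2 + 4 * m) / K1 ^ 2
      - (((j : ℝ) + m * ((1 + θ) * w2) - c2) ^ 2 + 4 * m) / K2 ^ 2 ≤
    ((PP k V1) ^ i) (((PP k V2) ^ j) (((interpRp k V1 V2 w1 w2 θ) ^ m) phi)) Set.univ := by
  induction m with
  | zero =>
    intro i j
    have a1 := interp_tail (k := k) (V := V1) (i := i) hK1 e1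
    have a2 := interp_tail (k := k) (V := V2) (i := j) hK2 e2
    have a3 : ((PP k V1) ^ i) (((PP k V2) ^ j) (((interpRp k V1 V2 w1 w2 θ) ^ 0) phi)) Set.univ =
        s k V1 i Set.univ * s k V2 j Set.univ := interp_prod_univ hd i j
    rw [a3]
    have b1 := s_le_one (k := k) (U := V1) i Set.univ
    have b2 := s_le_one (k := k) (U := V2) j Set.univ
    have b3 : 0 ≤ (1 - s k V1 i Set.univ) * (1 - s k V2 j Set.univ) :=
      mul_nonneg (by linarith) (by linarith)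
    simp only [Nat.cast_zero, zero_mul, mul_zero, add_zero]
    nlinarith
  | succ m ih =>
    intro i j
    set F : St → ℝ := ((interpRp k V1 V2 w1 w2 θ) ^ m) phi with hF
    set P1 := PP k V1 with hP1
    set P2 := PP k V2 with hP2
    have c12 : Commute P1 P2 := interp_PP_commute V1 V2
    have hexp : (P1 ^ i) ((P2 ^ j) (((interpRp k V1 V2 w1 w2 θ) ^ (m + 1)) phi)) =
        (1 - θ) • (w1 • (P1 ^ (i + 1)) ((P2 ^ j) F) + w2 • (P1 ^ i) ((P2 ^ (j + 1)) F)) +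
        θ • ((w1 * w1) • (P1 ^ (i + 2)) ((P2 ^ j) F) +
          (2 * (w1 * w2)) • (P1 ^ (i + 1)) ((P2 ^ (j + 1)) F) +
          (w2 * w2) • (P1 ^ i) ((P2 ^ (j + 2)) F)) := by
      have hop : P1 ^ i * (P2 ^ j * interpRp k V1 V2 w1 w2 θ) =
          (1 - θ) • (w1 • (P1 ^ (i + 1) * P2 ^ j) + w2 • (P1 ^ i * P2 ^ (j + 1))) +
          θ • ((w1 * w1) • (P1 ^ (i + 2) * P2 ^ j) +
          (2 * (w1 * w2)) • (P1 ^ (i + 1) * P2 ^ (j + 1)) +
          (w2 * w2) • (P1 ^ i * P2 ^ (j + 2))) := by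
        have q1 : P2 ^ j * P1 = P1 * P2 ^ j := ((c12.pow_right j).eq).symm
        have q2 : P2 * P1 = P1 * P2 := c12.eq.symm
        have q3 : P1 ^ i * (P2 ^ j * P1) = P1 ^ (i + 1) * P2 ^ j := by
          rw [q1, ← mul_assoc, ← pow_succ]
        have q4 : P1 ^ i * (P2 ^ j * P2) = P1 ^ i * P2 ^ (j + 1) := by
          rw [← pow_succ]
        have q5 : P1 ^ i * (P2 ^ j * (P1 * P1)) = P1 ^ (i + 2) * P2 ^ j := by
          rw [← mul_assoc (P2 ^ j), q1, mul_assoc P1, q1, ← mul_assoc, ← mul_assoc, ← pow_succ,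
            ← pow_succ]
        have q6 : P1 ^ i * (P2 ^ j * (P1 * P2)) = P1 ^ (i + 1) * P2 ^ (j + 1) := by
          rw [← mul_assoc (P2 ^ j), q1, mul_assoc P1, ← pow_succ, ← mul_assoc, ← pow_succ]
        have q7 : P1 ^ i * (P2 ^ j * (P2 * P1)) = P1 ^ (i + 1) * P2 ^ (j + 1) := by
          rw [q2, q6]
        have q8 : P1 ^ i * (P2 ^ j * (P2 * P2)) = P1 ^ i * P2 ^ (j + 2) := by
          rw [← mul_assoc (P2 ^ j), ← pow_succ, ← pow_succ]
        unfold interpRp interpR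
        rw [← hP1, ← hP2]
        simp only [mul_add, add_mul, mul_smul_comm, smul_mul_assoc, smul_add, smul_smul]
        rw [q3, q4, q5, q6, q7, q8]
        module
      have := congrArg (fun T : Module.End ℝ (St → ℝ) => T F) hop
      rw [pow_succ_apply, ← hF]
      exact this
    rw [hexp]
    simp only [Pi.add_apply, Pi.smul_apply, smul_eq_mul]
    have i1 := ih (i + 1) j
    have i2 := ih i (j + 1)
    have i3 := ih (i + 2) j
    have i4 := ih (i + 1) (j + 1)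
    have i5 := ih i (j + 2)
    push_cast at i1 i2 i3 i4 i5
    set S0 : ℝ := 1 - (1 - s k V1 t1 Set.univ) - (1 - s k V2 t2 Set.univ) with hS0
    set x : ℝ := (i : ℝ) + m * ((1 + θ) * w1) - c1 with hx
    set y : ℝ := (j : ℝ) + m * ((1 + θ) * w2) - c2 with hy
    have z1 : (i : ℝ) + 1 + m * ((1 + θ) * w1) - c1 = x + 1 := by rw [hx]; ring
    have z2 : (j : ℝ) + 1 + m * ((1 + θ) * w2) - c2 = y + 1 := by rw [hy]; ring
    have z3 : (i : ℝ) + 2 + m * ((1 + θ) * w1) - c1 = x + 2 := by rw [hx]; ring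
    have z4 : (j : ℝ) + 2 + m * ((1 + θ) * w2) - c2 = y + 2 := by rw [hy]; ring
    rw [z1] at i1 i4
    rw [z2] at i2 i4
    rw [z3] at i3
    rw [z4] at i5
    have hθ' : 0 ≤ 1 - θ := by linarith
    have j1 := mul_le_mul_of_nonneg_left i1 hw1
    have j2 := mul_le_mul_of_nonneg_left i2 hw2
    have j12 := mul_le_mul_of_nonneg_left (add_le_add j1 j2) hθ'
    have j3 := mul_le_mul_of_nonneg_left i3 (mul_nonneg hw1 hw1)
    have j4 := mul_le_mul_of_nonneg_left i4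
      (mul_nonneg (by norm_num : (0 : ℝ) ≤ 2) (mul_nonneg hw1 hw2))
    have j5 := mul_le_mul_of_nonneg_left i5 (mul_nonneg hw2 hw2)
    have j345 := mul_le_mul_of_nonneg_left (add_le_add (add_le_add j3 j4) j5) hθ0
    refine le_trans ?_ (add_le_add j12 j345)
    have hw2' : w2 = 1 - w1 := by linarith
    set a : ℝ := 1 / K1 ^ 2 with ha
    set b : ℝ := 1 / K2 ^ 2 with hb
    have ha0 : 0 ≤ a := by positivity
    have hb0 : 0 ≤ b := by positivity
    have d1 : ∀ z : ℝ, z / K1 ^ 2 = z * a := fun z => by rw [ha]; ring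
    have d2 : ∀ z : ℝ, z / K2 ^ 2 = z * b := fun z => by rw [hb]; ring
    simp only [d1, d2]
    have hx' : (i : ℝ) + ((m : ℝ) + 1) * ((1 + θ) * w1) - c1 = x + (1 + θ) * w1 := by
      rw [hx]; ring
    have hy' : (j : ℝ) + ((m : ℝ) + 1) * ((1 + θ) * w2) - c2 = y + (1 + θ) * w2 := by
      rw [hy]; ring
    push_cast
    rw [hx', hy']
    have k1 : 0 ≤ a * (4 - ((1 - θ) * w1 + θ * (4 * w1 * w1 + 2 * w1 * w2)) +
        ((1 + θ) * w1) ^ 2) := by
      apply mul_nonneg ha0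
      have h2 : (1 - θ) * w1 + θ * (4 * w1 * w1 + 2 * w1 * w2) ≤ 4 :=
        interp_aux hw1 hw2 hw hθ0 hθ1
      have h4 : 0 ≤ ((1 + θ) * w1) ^ 2 := by positivity
      linarith
    have k2 : 0 ≤ b * (4 - ((1 - θ) * w2 + θ * (4 * w2 * w2 + 2 * w1 * w2)) +
        ((1 + θ) * w2) ^ 2) := by
      apply mul_nonneg hb0
      have h2 : (1 - θ) * w2 + θ * (4 * w2 * w2 + 2 * w1 * w2) ≤ 4 := by
        have := interp_aux hw2 hw1 (by linarith) hθ0 hθ1
        have e : 2 * w2 * w1 = 2 * w1 * w2 := by ring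
        rw [e] at this
        exact this
      have h4 : 0 ≤ ((1 + θ) * w2) ^ 2 := by positivity
      linarith
    have key := interp_comb S0 x y m w1 θ a b
    rw [← hw2'] at key
    linarith

theorem interp (hk : 1 ≤ k) {V1 V2 : Finset ℕ} (hd : Disjoint V1 V2)
    (h1 : 2 * k ≤ V1.card) (h2 : 2 * k ≤ V2.card)
    {ε θ : ℝ} (hε : 0 < ε) (hε1 : ε ≤ 1) (hθ : 2 * ((1 + ε) ^ k - 1) ≤ θ) (hθ1 : θ ≤ 1)
    (m t1 t2 : ℕ) {K1 K2 : ℝ} (hK1 : 0 < K1) (hK2 : 0 < K2)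
    (e1 : (m : ℝ) * (1 + θ) * ((V1.card : ℝ) / ((V1.card : ℝ) + V2.card)) + K1 ≤ t1)
    (e2 : (m : ℝ) * (1 + θ) * ((V2.card : ℝ) / ((V1.card : ℝ) + V2.card)) + K2 ≤ t2) :
    1 - (1 - s k V1 t1 Set.univ) - (1 - s k V2 t2 Set.univ)
      - 4 * m / K1 ^ 2 - 4 * m / K2 ^ 2
      - m * (2 * k / (ε * min (V1.card : ℝ) V2.card)) ^ k
    ≤ s k (V1 ∪ V2) m Set.univ := by
  have hn1p : (0 : ℝ) < V1.card := by exact_mod_cast (by omega : 0 < V1.card)
  have hn2p : (0 : ℝ) < V2.card := by exact_mod_cast (by omega : 0 < V2.card)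
  have hstep := interp_step hk hd h1 h2 hε hε1 hθ hθ1
  set w1 : ℝ := (V1.card : ℝ) / ((V1.card : ℝ) + V2.card) with hw1
  set w2 : ℝ := (V2.card : ℝ) / ((V1.card : ℝ) + V2.card) with hw2
  have hw1p : 0 ≤ w1 := by positivity
  have hw2p : 0 ≤ w2 := by positivity
  have hw : w1 + w2 = 1 := by
    rw [hw1, hw2]; field_simp
  have hθ0 : 0 ≤ θ := by
    have : (1 : ℝ) ≤ (1 + ε) ^ k := one_le_pow₀ (by linarith)
    linarith
  have hcard : (V1 ∪ V2).card = V1.card + V2.card := Finset.card_union_of_disjoint hd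
  have hiter := interp_iter (interp_Rp_isPos (k := k) V1 V2 hw1p hw2p hθ0 hθ1)
    (PP_isPos k (V1 ∪ V2)) (interp_Rp_const (by omega) (by omega) hw)
    (fun r => by rw [PP]; exact Op_const (Cl_nonempty (by omega)) r)
    (interp_Rp_commute V1 V2 w1 w2 θ (V1 ∪ V2)) hstep m Set.univ
  have hwalk := interp_walk (k := k) hd hw1p hw2p hw hθ0 hθ1 t1 t2 hK1 hK2 e1 e2 m 0 0
  have z1 : ((0 : ℕ) : ℝ) + m * ((1 + θ) * w1) - m * (1 + θ) * w1 = 0 := by push_cast; ring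
  have z2 : ((0 : ℕ) : ℝ) + m * ((1 + θ) * w2) - m * (1 + θ) * w2 = 0 := by push_cast; ring
  rw [z1, z2] at hwalk
  have z3 : ((PP k V1) ^ 0) (((PP k V2) ^ 0) (((interpRp k V1 V2 w1 w2 θ) ^ m) phi)) Set.univ =
      ((interpRp k V1 V2 w1 w2 θ) ^ m) phi Set.univ := rfl
  rw [z3] at hwalk
  have hs : s k (V1 ∪ V2) m Set.univ = ((PP k (V1 ∪ V2)) ^ m) phi Set.univ := rfl
  rw [hs]
  refine le_trans ?_ hiter
  refine le_trans ?_ (sub_le_sub_right hwalk _)
  have z4 : (0 : ℝ) ^ 2 + 4 * m = 4 * m := by ring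
  rw [z4]

end Vale.Agent.P170
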