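import Vale.Agent.P170.Transl

namespace Vale.Agent.P170

open Filter Topology Finset

/-- the set of variables of a clause -/
def pos_vars {k n : ℕ} (c : Clause k n) : Finset (Fin n) := c.1.image Prod.fst

lemma pos_hall {k n m : ℕ} (F : Fin m → Clause k n)
    (h : ∀ S : Finset (Fin m), S.card ≤ (S.biUnion (fun i => pos_vars (F i))).card) :
    Satisfiable F := by
  classical
  obtain ⟨f, hf, hmem⟩ := (Finset.all_card_le_biUnion_card_iff_exists_injective _).1 h
  have hl : ∀ i, ∃ b : Bool, (f i, b) ∈ (F i).1 := by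
    intro i
    have := hmem i
    unfold pos_vars at this
    rw [Finset.mem_image] at this
    obtain ⟨l, hl, hl2⟩ := this
    exact ⟨l.2, by rw [← hl2]; exact hl⟩
  choose b hb using hl
  refine ⟨fun v => if hv : ∃ i, f i = v then b hv.choose else false, fun i => ?_⟩
  refine ⟨(f i, b i), hb i, ?_⟩
  have hex : ∃ j, f j = f i := ⟨i, rfl⟩
  simp only [hex, dite_true]
  congr 1
  exact hf hex.choose_spec

lemma pos_count {k n m : ℕ} (S : Finset (Fin m)) (T : Finset (Fin n)) :
    (Finset.univ.filter (fun F : Fin m → Clause k n => ∀ i ∈ S, pos_vars (F i) ⊆ T)).card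
      = (2 ^ k * T.card.choose k) ^ S.card * (2 ^ k * n.choose k) ^ (m - S.card) := by
  classical
  have e : Fin n ↪ ℕ := Fin.valEmbedding
  have h1 : (Finset.univ.filter (fun F : Fin m → Clause k n => ∀ i ∈ S, pos_vars (F i) ⊆ T))
      = Fintype.piFinset (fun i => if i ∈ S then
          Finset.univ.filter (fun c : Clause k n => c.1.image Prod.fst ⊆ T) else
          Finset.univ.filter (fun c : Clause k n => c.1.image Prod.fst ⊆ Finset.univ)) := by
    ext F
    simp only [Finset.mem_filter, Finset.mem_univ, true_and, Fintype.mem_piFinset]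
    constructor
    · intro h i
      by_cases hi : i ∈ S
      · rw [if_pos hi]; simpa [pos_vars] using h i hi
      · rw [if_neg hi]; simp
    · intro h i hi
      have := h i
      rw [if_pos hi] at this
      simpa [pos_vars] using this
  rw [h1, Fintype.card_piFinset]
  have h2 : ∀ i : Fin m, (if i ∈ S then
          Finset.univ.filter (fun c : Clause k n => c.1.image Prod.fst ⊆ T) else
          Finset.univ.filter (fun c : Clause k n => c.1.image Prod.fst ⊆ Finset.univ)).card
        = if i ∈ S then 2 ^ k * T.card.choose k else 2 ^ k * n.choose k := by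
    intro i
    split_ifs
    · exact tr_card e T
    · rw [tr_card e]; simp
  simp only [h2]
  rw [Finset.prod_ite, Finset.prod_const, Finset.prod_const]
  congr 2
  · simp
  · have : (Finset.univ.filter (fun i => i ∉ S)) = Sᶜ := by
      ext i; simp
    rw [this, Finset.card_compl, Fintype.card_fin]

lemma pos_desc (a n k : ℕ) (h : a ≤ n) :
    a.descFactorial k * n ^ k ≤ n.descFactorial k * a ^ k := by
  induction k with
  | zero => simp
  | succ k ih =>
    rw [Nat.descFactorial_succ, Nat.descFactorial_succ, pow_succ, pow_succ]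
    have h1 : (a - k) * n ≤ (n - k) * a := by
      rcases le_total a k with hk | hk
      · rw [Nat.sub_eq_zero_of_le hk]; simp
      · obtain ⟨x, rfl⟩ := Nat.exists_eq_add_of_le hk
        obtain ⟨y, rfl⟩ := Nat.exists_eq_add_of_le (hk.trans h)
        simp only [Nat.add_sub_cancel_left]
        have : x ≤ y := by omega
        nlinarith
    calc (a - k) * a.descFactorial k * (n ^ k * n)
        = (a.descFactorial k * n ^ k) * ((a - k) * n) := by ring
      _ ≤ (n.descFactorial k * a ^ k) * ((n - k) * a) := Nat.mul_le_mul ih h1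
      _ = (n - k) * n.descFactorial k * (a ^ k * a) := by ring

lemma pos_ratio {a n k : ℕ} (h : a ≤ n) (hk : k ≤ n) (hk1 : 1 ≤ k) :
    ((2 ^ k * a.choose k : ℕ) : ℝ) / ((2 ^ k * n.choose k : ℕ) : ℝ) ≤ ((a : ℝ) / n) ^ k := by
  have hn : (0 : ℝ) < n := by
    have : 0 < n := by omega
    exact_mod_cast this
  have hc : (0 : ℝ) < (n.choose k : ℝ) := by exact_mod_cast Nat.choose_pos hk
  rw [div_pow, div_le_div_iff₀ (by push_cast; positivity) (by positivity)]
  have h1 := pos_desc a n k h
  rw [Nat.descFactorial_eq_factorial_mul_choose, Nat.descFactorial_eq_factorial_mul_choose] at h1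
  have h2 : a.choose k * n ^ k ≤ n.choose k * a ^ k := by
    have hf : 0 < Nat.factorial k := Nat.factorial_pos k
    apply Nat.le_of_mul_le_mul_left _ hf
    calc Nat.factorial k * (a.choose k * n ^ k) = Nat.factorial k * a.choose k * n ^ k := by ring
      _ ≤ Nat.factorial k * n.choose k * a ^ k := h1
      _ = Nat.factorial k * (n.choose k * a ^ k) := by ring
  have h3 : 2 ^ k * a.choose k * n ^ k ≤ a ^ k * (2 ^ k * n.choose k) := by
    calc 2 ^ k * a.choose k * n ^ k = 2 ^ k * (a.choose k * n ^ k) := by ring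
      _ ≤ 2 ^ k * (n.choose k * a ^ k) := Nat.mul_le_mul_left _ h2
      _ = a ^ k * (2 ^ k * n.choose k) := by ring
  exact_mod_cast h3

lemma pos_fact (s : ℕ) : (s : ℝ) ^ s / (Nat.factorial s : ℝ) ≤ 3 ^ s := by
  have h := Real.pow_div_factorial_le_exp (s : ℝ) (Nat.cast_nonneg s) s
  refine h.trans ?_
  have h3 : Real.exp 1 ≤ 3 := by
    have := Real.exp_one_lt_d9
    linarith
  calc Real.exp (s : ℝ) = Real.exp 1 ^ s := by rw [← Real.exp_nat_mul, mul_one]
    _ ≤ 3 ^ s := pow_le_pow_left₀ (Real.exp_pos _).le h3 s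

lemma pos_term {k n m s : ℕ} (hk : 3 ≤ k) (hkn : k ≤ n) (hm : 36 * m ≤ n) (hs : 1 ≤ s)
    (hsm : s ≤ m) :
    (m.choose s : ℝ) * ((n.choose (s - 1) : ℝ) *
      (((2 ^ k * (s - 1).choose k : ℕ) : ℝ) / ((2 ^ k * n.choose k : ℕ) : ℝ)) ^ s)
      ≤ (1 / n) * (1 / 2) ^ s := by
  obtain ⟨r, rfl⟩ : ∃ r, s = r + 1 := ⟨s - 1, by omega⟩
  simp only [Nat.add_sub_cancel]
  have hn : (0 : ℝ) < n := by
    have : 0 < n := by omega
    exact_mod_cast this
  have hrn : r ≤ n := by omega
  have h1 : ((2 ^ k * r.choose k : ℕ) : ℝ) / ((2 ^ k * n.choose k : ℕ) : ℝ)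
      ≤ (((r + 1 : ℕ) : ℝ) / n) ^ 3 := by
    refine (pos_ratio hrn hkn (by omega)).trans ?_
    have hr1 : (r : ℝ) / n ≤ 1 := by
      rw [div_le_one hn]; exact_mod_cast hrn
    calc ((r : ℝ) / n) ^ k ≤ ((r : ℝ) / n) ^ 3 := pow_le_pow_of_le_one (by positivity) hr1 hk
      _ ≤ (((r + 1 : ℕ) : ℝ) / n) ^ 3 := by
          apply pow_le_pow_left₀ (by positivity)
          apply div_le_div_of_nonneg_right _ hn.le
          push_cast; linarith
  have h2 : (m.choose (r + 1) : ℝ) ≤ (m : ℝ) ^ (r + 1) / (Nat.factorial (r + 1) : ℝ) :=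
    Nat.choose_le_pow_div _ _
  have h3 : (n.choose r : ℝ) ≤ (n : ℝ) ^ r / (Nat.factorial r : ℝ) := Nat.choose_le_pow_div _ _
  have hfac : (Nat.factorial (r + 1) : ℝ) = ((r + 1 : ℕ) : ℝ) * (Nat.factorial r : ℝ) := by
    rw [Nat.factorial_succ]; push_cast; ring
  have hrf : (0 : ℝ) < (Nat.factorial r : ℝ) := by exact_mod_cast Nat.factorial_pos r
  set q : ℝ := ((r + 1 : ℕ) : ℝ) with hq
  have hq0 : 0 < q := by rw [hq]; positivity
  set A : ℝ := q ^ (r + 1) / (Nat.factorial (r + 1) : ℝ) with hA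
  have hA3 : A ≤ 3 ^ (r + 1) := pos_fact (r + 1)
  have hA0 : 0 ≤ A := by rw [hA]; positivity
  have hqn : q ≤ n := by
    rw [hq]
    have : r + 1 ≤ n := by omega
    exact_mod_cast this
  have hmn : 36 * (m : ℝ) ≤ n := by exact_mod_cast hm
  have hm0 : (0 : ℝ) ≤ m := Nat.cast_nonneg m
  have hrf1 : (0 : ℝ) < (Nat.factorial (r + 1) : ℝ) := by
    exact_mod_cast Nat.factorial_pos (r + 1)
  calc (m.choose (r + 1) : ℝ) * ((n.choose r : ℝ) *
        (((2 ^ k * r.choose k : ℕ) : ℝ) / ((2 ^ k * n.choose k : ℕ) : ℝ)) ^ (r + 1))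
      ≤ ((m : ℝ) ^ (r + 1) / (Nat.factorial (r + 1) : ℝ)) *
          (((n : ℝ) ^ r / (Nat.factorial r : ℝ)) * ((q / n) ^ 3) ^ (r + 1)) := by
        gcongr
    _ = ((m : ℝ) / n) ^ (r + 1) * (A ^ 2 * ((q / n) ^ (r + 1) * (q * (1 / n)))) := by
        have hq0' : q ≠ 0 := hq0.ne'
        have hn0 : (n : ℝ) ≠ 0 := hn.ne'
        have hf0 : (Nat.factorial (r + 1) : ℝ) ≠ 0 := hrf1.ne'
        have g1 : (n : ℝ) ^ r = (n : ℝ) ^ (r + 1) / n := by
          rw [pow_succ, mul_div_assoc, div_self hn0, mul_one]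
        have g2 : (Nat.factorial r : ℝ) = (Nat.factorial (r + 1) : ℝ) / q := by
          rw [hfac]; field_simp
        have g3 : ((q / (n : ℝ)) ^ 3) ^ (r + 1) = (q ^ (r + 1) / (n : ℝ) ^ (r + 1)) ^ 3 := by
          rw [← div_pow, ← pow_mul, ← pow_mul, mul_comm]
        have hY : (n : ℝ) ^ (r + 1) ≠ 0 := pow_ne_zero _ hn0
        rw [hA, g1, g2, g3, div_pow (m : ℝ), div_pow q]
        generalize (n : ℝ) ^ (r + 1) = Y at hY
        generalize (m : ℝ) ^ (r + 1) = X
        generalize q ^ (r + 1) = Z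
        generalize (Nat.factorial (r + 1) : ℝ) = W at hf0
        field_simp
    _ ≤ (1 / 36) ^ (r + 1) * ((3 ^ (r + 1)) ^ 2 * (1 * (2 ^ (r + 1) * (1 / n)))) := by
        have e1 : ((m : ℝ) / n) ^ (r + 1) ≤ (1 / 36) ^ (r + 1) := by
          apply pow_le_pow_left₀ (by positivity)
          rw [div_le_iff₀ hn]; linarith
        have e2 : (q / n) ^ (r + 1) ≤ 1 := by
          apply pow_le_one₀ (by positivity)
          rw [div_le_one hn]; exact hqn
        have e3 : q ≤ 2 ^ (r + 1) := by
          rw [hq]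
          have : r + 1 ≤ 2 ^ (r + 1) := Nat.lt_two_pow_self.le
          exact_mod_cast this
        gcongr
    _ = (1 / n) * (1 / 2) ^ (r + 1) := by
        rw [← pow_mul, mul_comm (r + 1) 2, pow_mul]
        have : ((1 : ℝ) / 36) ^ (r + 1) * ((3 ^ 2) ^ (r + 1) * 2 ^ (r + 1)) = (1 / 2) ^ (r + 1) := by
          rw [← mul_pow, ← mul_pow]
          norm_num
        rw [← this]; ring

lemma pos_unsat {k n m : ℕ} (hk : 3 ≤ k) (hkn : k ≤ n) (hm : 36 * m ≤ n) :
    (Nat.card {F : Fin m → Clause k n // ¬ Satisfiable F} : ℝ)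
      ≤ (1 / n) * (Nat.card (Fin m → Clause k n) : ℝ) := by
  classical
  have e : Fin n ↪ ℕ := Fin.valEmbedding
  set N : ℕ := 2 ^ k * n.choose k with hN
  have hcardC : Fintype.card (Clause k n) = N := by
    have := tr_card (k := k) e (Finset.univ : Finset (Fin n))
    simpa using this
  have hNpos : 0 < N := by
    rw [hN]; exact Nat.mul_pos (by positivity) (Nat.choose_pos hkn)
  have hNposR : (0 : ℝ) < N := by exact_mod_cast hNpos
  have hcardF : (Nat.card (Fin m → Clause k n) : ℝ) = (N : ℝ) ^ m := by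
    rw [Nat.card_eq_fintype_card, Fintype.card_fun, hcardC, Fintype.card_fin]; push_cast; ring
  rw [hcardF]
  rw [Nat.card_eq_fintype_card, Fintype.card_subtype]
  have hsub : (Finset.univ.filter (fun F : Fin m → Clause k n => ¬ Satisfiable F)) ⊆
      (Finset.univ.filter (fun S : Finset (Fin m) => S.card ≠ 0)).biUnion (fun S =>
        ((Finset.univ : Finset (Fin n)).powersetCard (S.card - 1)).biUnion (fun T =>
          Finset.univ.filter (fun F : Fin m → Clause k n => ∀ i ∈ S, pos_vars (F i) ⊆ T))) := by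
    intro F hF
    rw [Finset.mem_filter] at hF
    have hns : ¬ ∀ S : Finset (Fin m), S.card ≤ (S.biUnion (fun i => pos_vars (F i))).card :=
      fun h => hF.2 (pos_hall F h)
    push Not at hns
    obtain ⟨S, hS⟩ := hns
    have hSm : S.card ≤ m := by
      have := Finset.card_le_univ S
      simpa using this
    obtain ⟨T, hT1, hT2⟩ := Finset.exists_superset_card_eq
      (s := S.biUnion (fun i => pos_vars (F i))) (n := S.card - 1) (by omega)
      (by rw [Fintype.card_fin]; omega)
    rw [Finset.mem_biUnion]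
    refine ⟨S, ?_, ?_⟩
    · rw [Finset.mem_filter]
      exact ⟨Finset.mem_univ _, by omega⟩
    · rw [Finset.mem_biUnion]
      refine ⟨T, ?_, ?_⟩
      · rw [Finset.mem_powersetCard]
        exact ⟨Finset.subset_univ _, hT2⟩
      · rw [Finset.mem_filter]
        refine ⟨Finset.mem_univ _, fun i hi => ?_⟩
        exact (Finset.subset_biUnion_of_mem (fun i => pos_vars (F i)) hi).trans hT1
  have hcard := Finset.card_le_card hsub
  have hcard2 := hcard.trans (Finset.card_biUnion_le.trans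
    (Finset.sum_le_sum fun S _ => Finset.card_biUnion_le))
  have hcard3 : ((Finset.univ.filter
      (fun F : Fin m → Clause k n => ¬ Satisfiable F)).card : ℝ) ≤
      ∑ S ∈ (Finset.univ.filter (fun S : Finset (Fin m) => S.card ≠ 0)),
        ∑ T ∈ ((Finset.univ : Finset (Fin n)).powersetCard (S.card - 1)),
          ((2 ^ k * (S.card - 1).choose k : ℕ) : ℝ) ^ S.card * (N : ℝ) ^ (m - S.card) := by
    refine (Nat.cast_le.2 hcard2).trans ?_
    push_cast
    refine Finset.sum_le_sum fun S _ => Finset.sum_le_sum fun T hT => ?_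
    rw [Finset.mem_powersetCard] at hT
    rw [pos_count, hT.2, hN]
    push_cast
    exact le_rfl
  refine hcard3.trans ?_
  have hstep : ∀ S ∈ (Finset.univ.filter (fun S : Finset (Fin m) => S.card ≠ 0)),
      (∑ T ∈ ((Finset.univ : Finset (Fin n)).powersetCard (S.card - 1)),
          ((2 ^ k * (S.card - 1).choose k : ℕ) : ℝ) ^ S.card * (N : ℝ) ^ (m - S.card))
      = (N : ℝ) ^ m * ((n.choose (S.card - 1) : ℝ) *
        (((2 ^ k * (S.card - 1).choose k : ℕ) : ℝ) / (N : ℝ)) ^ S.card) := by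
    intro S _
    have hSm : S.card ≤ m := by
      have := Finset.card_le_univ S
      simpa using this
    rw [Finset.sum_const, Finset.card_powersetCard, Finset.card_univ, Fintype.card_fin,
      nsmul_eq_mul]
    have : (N : ℝ) ^ m = (N : ℝ) ^ (m - S.card) * (N : ℝ) ^ S.card := by
      rw [← pow_add, Nat.sub_add_cancel hSm]
    rw [this, div_pow]
    field_simp
  rw [Finset.sum_congr rfl hstep, ← Finset.mul_sum, mul_comm (1 / (n : ℝ))]
  apply mul_le_mul_of_nonneg_left _ (by positivity)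
  rw [Finset.sum_filter]
  have hps : (Finset.univ : Finset (Finset (Fin m))) = (Finset.univ : Finset (Fin m)).powerset := by
    simp
  rw [hps, Finset.sum_powerset_apply_card (fun s => if s ≠ 0 then ((n.choose (s - 1) : ℝ) *
        (((2 ^ k * (s - 1).choose k : ℕ) : ℝ) / (N : ℝ)) ^ s) else 0)]
  rw [Finset.card_univ, Fintype.card_fin]
  have hle : ∀ s ∈ Finset.range (m + 1), (m.choose s) • (if s ≠ 0 then ((n.choose (s - 1) : ℝ) *
        (((2 ^ k * (s - 1).choose k : ℕ) : ℝ) / (N : ℝ)) ^ s) else 0)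
        ≤ (if s ≠ 0 then (1 / (n : ℝ)) * (1 / 2) ^ s else 0) := by
    intro s hs
    rw [Finset.mem_range] at hs
    by_cases h0 : s = 0
    · simp [h0]
    · rw [if_pos h0, if_pos h0, nsmul_eq_mul]
      exact pos_term hk hkn hm (by omega) (by omega)
  refine (Finset.sum_le_sum hle).trans ?_
  rw [Finset.sum_range_succ']
  simp only [ne_eq, Nat.add_eq_zero_iff, one_ne_zero, and_false, not_false_eq_true, if_true,
    not_true_eq_false, if_false, add_zero]
  rw [← Finset.mul_sum]
  have hn : (0 : ℝ) < n := by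
    have : 0 < n := by omega
    exact_mod_cast this
  have hgeom : ∑ i ∈ Finset.range m, (1 / 2 : ℝ) ^ (i + 1) ≤ 1 := by
    have : ∀ m : ℕ, ∑ i ∈ Finset.range m, (1 / 2 : ℝ) ^ (i + 1) = 1 - (1 / 2) ^ m := by
      intro m
      induction m with
      | zero => simp
      | succ m ih => rw [Finset.sum_range_succ, ih, pow_succ]; ring
    rw [this]
    have : (0 : ℝ) < (1 / 2) ^ m := by positivity
    linarith
  calc (1 / (n : ℝ)) * ∑ i ∈ Finset.range m, (1 / 2 : ℝ) ^ (i + 1) ≤ (1 / (n : ℝ)) * 1 := by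
        gcongr
    _ = 1 / (n : ℝ) := mul_one _

theorem positive (k : ℕ) (hk : 3 ≤ k) :
    ∃ c : ℝ, 0 < c ∧ ∀ᶠ n : ℕ in atTop, (1 / 2 : ℝ) ≤ probSat k n ⌊c * n⌋₊ := by
  classical
  refine ⟨1 / 36, by norm_num, ?_⟩
  filter_upwards [eventually_ge_atTop k] with n hn
  have hn3 : 3 ≤ n := hk.trans hn
  set m := ⌊(1 / 36 : ℝ) * n⌋₊ with hmdef
  have hm : 36 * m ≤ n := by
    have h1 : (m : ℝ) ≤ 1 / 36 * n := Nat.floor_le (by positivity)
    have h2 : (36 * m : ℝ) ≤ n := by linarith
    exact_mod_cast h2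
  have h := pos_unsat (m := m) hk hn hm
  have e : Fin n ↪ ℕ := Fin.valEmbedding
  have hcardC : Fintype.card (Clause k n) = 2 ^ k * n.choose k := by
    have := tr_card (k := k) e (Finset.univ : Finset (Fin n))
    simpa using this
  have hpos : (0 : ℝ) < (Nat.card (Fin m → Clause k n) : ℝ) := by
    rw [Nat.card_eq_fintype_card, Fintype.card_fun, hcardC]
    have : 0 < 2 ^ k * n.choose k := Nat.mul_pos (by positivity) (Nat.choose_pos hn)
    have h2 : 0 < (2 ^ k * n.choose k) ^ Fintype.card (Fin m) := pow_pos this _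
    exact_mod_cast h2
  have hsum : (Nat.card {F : Fin m → Clause k n // Satisfiable F} : ℝ)
      + (Nat.card {F : Fin m → Clause k n // ¬ Satisfiable F} : ℝ)
      = (Nat.card (Fin m → Clause k n) : ℝ) := by
    rw [Nat.card_eq_fintype_card, Nat.card_eq_fintype_card, Nat.card_eq_fintype_card,
      ← Nat.cast_add]
    congr 1
    rw [Fintype.card_subtype_compl]
    have := Fintype.card_subtype_le (fun F : Fin m → Clause k n => Satisfiable F)
    omega
  unfold probSat
  rw [le_div_iff₀ hpos]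
  have hn2 : (1 : ℝ) / n ≤ 1 / 2 := by
    apply one_div_le_one_div_of_le (by norm_num)
    have : 2 ≤ n := by omega
    exact_mod_cast this
  have h3 : (1 / (n : ℝ)) * (Nat.card (Fin m → Clause k n) : ℝ)
      ≤ 1 / 2 * (Nat.card (Fin m → Clause k n) : ℝ) :=
    mul_le_mul_of_nonneg_right hn2 hpos.le
  linarith

end Vale.Agent.P170
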