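import Vale.Agent.P170.Api
import Vale.Agent.P170.Defs

namespace Vale.Agent.P170

open Finset

/-- push a clause forward along an embedding of the variables -/
def tr_map {k n : ℕ} (e : Fin n ↪ ℕ) (c : Clause k n) : Cls :=
  c.1.map (e.prodMap (Function.Embedding.refl Bool))

lemma tr_mem_map {k n : ℕ} (e : Fin n ↪ ℕ) (c : Clause k n) (l : Lit) :
    l ∈ tr_map e c ↔ ∃ l' ∈ c.1, (e l'.1, l'.2) = l := by
  unfold tr_map
  simp [Finset.mem_map, Function.Embedding.prodMap]

lemma tr_map_injective {k n : ℕ} (e : Fin n ↪ ℕ) :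
    Function.Injective (tr_map e : Clause k n → Cls) := by
  intro c d h
  unfold tr_map at h
  exact Subtype.ext (Finset.map_injective _ h)

lemma tr_image_fst {k n : ℕ} (e : Fin n ↪ ℕ) (c : Clause k n) :
    (tr_map e c).image Prod.fst = (c.1.image Prod.fst).map e := by
  ext v
  simp only [Finset.mem_image, tr_mem_map, Finset.mem_map]
  constructor
  · rintro ⟨l, ⟨l', hl', rfl⟩, rfl⟩
    exact ⟨l'.1, ⟨l', hl', rfl⟩, rfl⟩
  · rintro ⟨a, ⟨l', hl', rfl⟩, rfl⟩
    exact ⟨_, ⟨l', hl', rfl⟩, rfl⟩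

lemma tr_map_mem {k n : ℕ} (e : Fin n ↪ ℕ) {T : Finset (Fin n)} {c : Clause k n}
    (h : c.1.image Prod.fst ⊆ T) : tr_map e c ∈ Cl k (T.map e) := by
  rw [mem_Cl]
  refine ⟨?_, ?_, ?_⟩
  · intro l hl
    rw [mem_Lits]
    rw [tr_mem_map] at hl
    obtain ⟨l', hl', rfl⟩ := hl
    rw [Finset.mem_map]
    exact ⟨l'.1, h (Finset.mem_image_of_mem _ hl'), rfl⟩
  · unfold tr_map
    rw [Finset.card_map]
    exact c.2.1
  · rw [tr_image_fst, Finset.card_map]
    exact c.2.2

lemma tr_map_surj {k n : ℕ} (e : Fin n ↪ ℕ) {T : Finset (Fin n)} {d : Cls}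
    (h : d ∈ Cl k (T.map e)) : ∃ c : Clause k n, c.1.image Prod.fst ⊆ T ∧ tr_map e c = d := by
  rw [mem_Cl] at h
  obtain ⟨h1, h2, h3⟩ := h
  have key : ((T ×ˢ (Finset.univ : Finset Bool)).filter (fun l => (e l.1, l.2) ∈ d)).map
      (e.prodMap (Function.Embedding.refl Bool)) = d := by
    ext l
    simp only [Finset.mem_map, Finset.mem_filter, Finset.mem_product, Finset.mem_univ, and_true]
    constructor
    · rintro ⟨l', ⟨_, hl'⟩, rfl⟩
      exact hl'
    · intro hl
      have := h1 hl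
      rw [mem_Lits, Finset.mem_map] at this
      obtain ⟨a, ha, hae⟩ := this
      refine ⟨(a, l.2), ⟨ha, ?_⟩, ?_⟩
      · simp only [hae]; exact hl
      · ext
        · exact hae
        · rfl
  have hfst : (((T ×ˢ (Finset.univ : Finset Bool)).filter
      (fun l => (e l.1, l.2) ∈ d)).image Prod.fst).card = k := by
    rw [← Finset.card_map e, ← h3]
    congr 1
    conv_rhs => rw [← key]
    ext v
    simp only [Finset.mem_image, Finset.mem_map, Finset.mem_filter]
    constructor
    · rintro ⟨a, ⟨l', hl', rfl⟩, rfl⟩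
      exact ⟨_, ⟨l', hl', rfl⟩, rfl⟩
    · rintro ⟨l, ⟨l', hl', rfl⟩, rfl⟩
      exact ⟨l'.1, ⟨l', hl', rfl⟩, rfl⟩
  refine ⟨⟨(T ×ˢ (Finset.univ : Finset Bool)).filter (fun l => (e l.1, l.2) ∈ d), ?_, hfst⟩, ?_, key⟩
  · rw [← h2, ← Finset.card_map (e.prodMap (Function.Embedding.refl Bool)), key]
  · intro a ha
    rw [Finset.mem_image] at ha
    obtain ⟨l, hl, rfl⟩ := ha
    rw [Finset.mem_filter, Finset.mem_product] at hl
    exact hl.1.1

lemma tr_card {k n : ℕ} (e : Fin n ↪ ℕ) (T : Finset (Fin n)) :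
    (Finset.univ.filter (fun c : Clause k n => c.1.image Prod.fst ⊆ T)).card
      = 2 ^ k * T.card.choose k := by
  rw [← Finset.card_map e, ← Cl_card]
  apply Finset.card_bij (fun c _ => tr_map e c)
  · intro c hc
    exact tr_map_mem e (Finset.mem_filter.1 hc).2
  · intro c _ d _ h
    exact tr_map_injective e h
  · intro d hd
    obtain ⟨c, hc, h⟩ := tr_map_surj e hd
    exact ⟨c, Finset.mem_filter.2 ⟨Finset.mem_univ _, hc⟩, h⟩

/-- iterates of the operator are averages over sequences of clauses -/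
lemma tr_pow (S : Finset Cls) (t : ℕ) (f : St → ℝ) (A : St) :
    ((Op S) ^ t) f A = (∑ F : Fin t → S, f (A ∩ ⋂ i, sol (F i).1)) / (S.card : ℝ) ^ t := by
  induction t generalizing A with
  | zero => simp
  | succ t ih =>
    rw [pow_succ_apply, Op_apply]
    simp only [ih]
    rw [← Finset.sum_div, div_div, ← pow_succ]
    congr 1
    rw [← (Fin.consEquiv (fun _ : Fin (t + 1) => (S : Type))).sum_comp, Fintype.sum_prod_type,
      ← Finset.sum_coe_sort S]
    refine Finset.sum_congr rfl fun c _ => Finset.sum_congr rfl fun F _ => ?_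
    congr 1
    rw [Set.inter_assoc]
    congr 1
    ext σ
    simp only [Set.mem_inter_iff, Set.mem_iInter, Fin.forall_fin_succ, Fin.consEquiv,
      Equiv.coe_fn_mk, Fin.cons_zero, Fin.cons_succ]

theorem s_eq_probSat (k : ℕ) (U : Finset ℕ) (t : ℕ) (hU : k ≤ U.card) :
    s k U t Set.univ = probSat k U.card t := by
  classical
  set n := U.card with hn
  let e : Fin n ↪ ℕ := (U.orderEmbOfFin hn.symm).toEmbedding
  have heU : Finset.univ.map e = U := by
    exact Finset.map_orderEmbOfFin_univ U hn.symm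
  have hbij : Function.Bijective
      (fun c : Clause k n => (⟨tr_map e c, by
        have := tr_map_mem e (T := Finset.univ) (c := c) (Finset.subset_univ _)
        rwa [heU] at this⟩ : {d // d ∈ Cl k U})) := by
    constructor
    · intro c d h
      exact tr_map_injective e (Subtype.ext_iff.1 h)
    · rintro ⟨d, hd⟩
      have hd' := hd
      rw [← heU] at hd'
      obtain ⟨c, -, h⟩ := tr_map_surj e hd'
      exact ⟨c, Subtype.ext h⟩
  let E : Clause k n ≃ {d // d ∈ Cl k U} := Equiv.ofBijective _ hbij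
  have hE : ∀ c, (E c).1 = tr_map e c := fun c => rfl
  unfold s PP probSat
  rw [tr_pow]
  have hcard : (Cl k U).card = Fintype.card (Clause k n) := by
    rw [← Fintype.card_coe, Fintype.card_congr E]
  congr 1
  · rw [← (Equiv.arrowCongr (Equiv.refl (Fin t)) E).sum_comp]
    rw [Nat.card_eq_fintype_card, Fintype.card_subtype, Finset.card_filter, Nat.cast_sum]
    refine Finset.sum_congr rfl fun F _ => ?_
    have hiff : (Set.univ ∩ ⋂ i, sol ((Equiv.arrowCongr (Equiv.refl (Fin t)) E) F i).1).Nonempty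
        ↔ Satisfiable F := by
      simp only [Set.univ_inter, Set.Nonempty, Set.mem_iInter, mem_sol, Equiv.arrowCongr_apply,
        Equiv.refl_symm, Equiv.coe_refl, Function.comp_apply, id_eq, hE, tr_mem_map]
      constructor
      · rintro ⟨σ, hσ⟩
        refine ⟨fun a => σ (e a), fun i => ?_⟩
        obtain ⟨l, ⟨l', hl', rfl⟩, h⟩ := hσ i
        exact ⟨l', hl', h⟩
      · rintro ⟨x, hx⟩
        refine ⟨fun v => if h : ∃ a, e a = v then x h.choose else false, fun i => ?_⟩
        obtain ⟨l, hl, h⟩ := hx i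
        refine ⟨_, ⟨l, hl, rfl⟩, ?_⟩
        have hex : ∃ a, e a = e l.1 := ⟨_, rfl⟩
        simp only [hex, dite_true]
        rw [← h]
        congr 1
        exact e.injective hex.choose_spec
    unfold phi
    by_cases hs : Satisfiable F
    · rw [if_pos (hiff.2 hs), if_pos hs]; simp
    · rw [if_neg (fun h => hs (hiff.1 h)), if_neg hs]; simp
  · rw [Nat.card_eq_fintype_card, hcard]
    simp

end Vale.Agent.P170
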