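import Vale.Agent.P170.VarBound
import Vale.Agent.P170.Interp
import Vale.Agent.P170.Fekete
import Vale.Agent.P170.Transl
import Vale.Agent.P170.Positive

namespace Vale.Agent.P170

open Filter Topology Finset

/-- normalised expected hitting time -/
noncomputable def an (k n : ℕ) : ℝ := M k (Finset.range n) / n

theorem M_card_eq {k : ℕ} {U V : Finset ℕ} (hU : k ≤ U.card) (h : U.card = V.card) :
    M k U = M k V := by
  unfold M J
  congr 1
  funext t
  rw [s_eq_probSat k U t hU, s_eq_probSat k V t (h ▸ hU), h]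

theorem an_bound {k : ℕ} (hk : 1 ≤ k) : ∀ n, k ≤ n → an k n ≤ 2 ^ (k + 1) := by
  intro n hn
  unfold an
  have hn' : (0 : ℝ) < n := by exact_mod_cast (hk.trans hn)
  rw [div_le_iff₀ hn']
  have := J_le hk (U := Finset.range n) (by simpa using hn) Set.univ
  simpa [M] using this

theorem M_nonneg (k : ℕ) (U : Finset ℕ) : 0 ≤ M k U := J_nonneg _

theorem an_nonneg (k n : ℕ) : 0 ≤ an k n := div_nonneg (M_nonneg _ _) (Nat.cast_nonneg _)

theorem an_step {k : ℕ} (hk : 3 ≤ k) : ∃ C : ℝ, 0 ≤ C ∧ ∃ n0 : ℕ, ∀ n, n0 ≤ n →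
    an k n - C * (n : ℝ) ^ (-(1 / 10 : ℝ)) ≤ an k (n + 1) := by
  obtain ⟨C, hC, n0, h⟩ := slow hk
  refine ⟨2 ^ (k + 1) + C, by positivity, max n0 k, fun n hn => ?_⟩
  have hn0 : n0 ≤ n := le_trans (le_max_left _ _) hn
  have hnk : k ≤ n := le_trans (le_max_right _ _) hn
  have hn1 : (1 : ℝ) ≤ n := by exact_mod_cast (show 1 ≤ n by omega)
  have h1 := h (Finset.range n) (by simpa using hn0) n (by simp)
  rw [← Finset.range_add_one, Finset.card_range] at h1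
  have h2 := an_bound (show 1 ≤ k by omega) n hnk
  have h3 := an_nonneg k n
  have h4 : M k (Finset.range n) = an k n * n := by
    unfold an; field_simp
  have h5 : an k (n + 1) = M k (Finset.range (n + 1)) / ((n : ℝ) + 1) := by
    unfold an; push_cast; rfl
  rw [h5, le_div_iff₀ (by linarith)]
  rw [h4] at h1
  -- n^(2/3) <= n * n^(-1/10)
  have h6 : (n : ℝ) ^ (2 / 3 : ℝ) ≤ n * (n : ℝ) ^ (-(1 / 10 : ℝ)) := by
    have : (n : ℝ) * (n : ℝ) ^ (-(1 / 10 : ℝ)) = (n : ℝ) ^ (9 / 10 : ℝ) := by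
      conv_lhs => rw [← Real.rpow_one (n : ℝ)]
      rw [← Real.rpow_mul (by linarith), ← Real.rpow_add (by linarith)]
      norm_num
    rw [this]
    exact Real.rpow_le_rpow_of_exponent_le hn1 (by norm_num)
  have h7 : (1 : ℝ) ≤ n * (n : ℝ) ^ (-(1 / 10 : ℝ)) :=
    le_trans (Real.one_le_rpow hn1 (by norm_num)) h6
  have h8 : 0 ≤ (n : ℝ) ^ (-(1 / 10 : ℝ)) := Real.rpow_nonneg (by linarith) _
  nlinarith [mul_le_mul_of_nonneg_left h6 hC, mul_nonneg hC h8, mul_le_mul_of_nonneg_left h7 (show (0:ℝ) ≤ 2 ^ (k+1) by positivity), mul_nonneg (show (0:ℝ) ≤ 2 ^ (k+1) by positivity) h8]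


/-- The real-number part of the superadditivity step. -/
theorem an_add_real {k : ℕ} (hk : 3 ≤ k) {C1 N p q μ z K1 K2 M1 M2 MN : ℝ} (hC1 : 0 ≤ C1)
    (hp : 1 ≤ p) (hq : 1 ≤ q) (hN : N = p + q) (hpq : p ≤ 3 * q) (hqp : q ≤ 3 * p)
    (hz0 : 0 < z) (hz1 : z ≤ 1) (hz : z ^ 10 * N = 1)
    (hμ0 : 0 ≤ μ) (hμ : μ ≤ 2 ^ (k + 1)) (h1 : μ * p ≤ M1) (h2 : μ * q ≤ M2)
    (hK1 : p * z ≤ K1) (hK1' : K1 ≤ 2 * (p * z)) (hK11 : 1 ≤ K1)
    (hK2 : q * z ≤ K2) (hK2' : K2 ≤ 2 * (q * z)) (hK21 : 1 ≤ K2)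
    (hMN0 : 0 ≤ MN)
    (key : ∀ m t1 t2 : ℕ, (t1 : ℝ) ≤ M1 - K1 → M1 - K1 - 1 ≤ t1 → (t2 : ℝ) ≤ M2 - K2 →
      M2 - K2 - 1 ≤ t2 →
      (m : ℝ) * (1 + 2 ^ (k + 1) * z ^ 5) * (p / (p + q)) + K1 ≤ t1 →
      (m : ℝ) * (1 + 2 ^ (k + 1) * z ^ 5) * (q / (p + q)) + K2 ≤ t2 →
      ((m : ℝ) + 1) * (1 - C1 * z - C1 * z - 4 * m / K1 ^ 2 - 4 * m / K2 ^ 2
      - m * (2 * k / (z ^ 5 * min p q)) ^ k) ≤ MN) :
    μ - (6 + 4 ^ (k + 1) + 2 ^ (k + 1) * (2 * C1 + 128 * 2 ^ (k + 1) + 2 ^ (k + 1) * (8 * k) ^ k)) * z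
      ≤ MN / N := by
  have hNpos : 0 < N := by rw [hN]; linarith
  set E := 2 * C1 + 128 * 2 ^ (k + 1) + 2 ^ (k + 1) * (8 * (k : ℝ)) ^ k with hE
  have hE0 : 0 ≤ E := by positivity
  have hA : (0 : ℝ) < 2 ^ (k + 1) := by positivity
  -- trivial case 1
  by_cases hc1 : μ ≤ 6 * z
  · have : 0 ≤ MN / N := div_nonneg hMN0 hNpos.le
    have h3 : 0 ≤ 2 ^ (k + 1) * E * z := by positivity
    have h4 : 0 ≤ (4 : ℝ) ^ (k + 1) * z := by positivity
    have h5 : (6 + 4 ^ (k + 1) + 2 ^ (k + 1) * E) * z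
      = 6 * z + (4 : ℝ) ^ (k + 1) * z + 2 ^ (k + 1) * E * z := by ring
    linarith
  push Not at hc1
  by_cases hc2 : 1 ≤ E * z
  · have : 0 ≤ MN / N := div_nonneg hMN0 hNpos.le
    have h3 : 0 ≤ 6 * z := by positivity
    have h4 : 0 ≤ (4 : ℝ) ^ (k + 1) * z := by positivity
    have h5 : μ ≤ 2 ^ (k + 1) * (E * z) :=
      hμ.trans (le_mul_of_one_le_right hA.le hc2)
    have h6 : (6 + 4 ^ (k + 1) + 2 ^ (k + 1) * E) * z
      = 6 * z + (4 : ℝ) ^ (k + 1) * z + 2 ^ (k + 1) * (E * z) := by ring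
    linarith
  push Not at hc2
  set θ := (2 : ℝ) ^ (k + 1) * z ^ 5 with hθdef
  have hθ0 : 0 ≤ θ := by positivity
  have hpN : p ≤ N := by rw [hN]; linarith
  have hqN : q ≤ N := by rw [hN]; linarith
  have hp4 : N ≤ 4 * p := by rw [hN]; linarith
  have hq4 : N ≤ 4 * q := by rw [hN]; linarith
  have hpz : 0 < p * z := by positivity
  have hqz : 0 < q * z := by positivity
  have hM1 : K1 ≤ M1 := by
    have : 6 * z * p ≤ μ * p := mul_le_mul_of_nonneg_right hc1.le (by linarith)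
    have h3 : 6 * z * p = 6 * (p * z) := by ring
    linarith
  have hM2 : K2 ≤ M2 := by
    have : 6 * z * q ≤ μ * q := mul_le_mul_of_nonneg_right hc1.le (by linarith)
    have h3 : 6 * z * q = 6 * (q * z) := by ring
    linarith
  set Y := N * (μ - 6 * z) / (1 + θ) with hY
  have hY0 : 0 ≤ Y := by
    apply div_nonneg (mul_nonneg hNpos.le (by linarith)) (by linarith)
  have h1θ : 0 < 1 + θ := by linarith
  set m := ⌊Y⌋₊ with hm
  have hmY : (m : ℝ) ≤ Y := Nat.floor_le hY0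
  have hmY' : Y < (m : ℝ) + 1 := Nat.lt_floor_add_one Y
  have hYN : Y ≤ N * μ := by
    rw [hY, div_le_iff₀ h1θ]
    have h3 : 0 ≤ N * μ * θ := by positivity
    have h4 : 0 ≤ N * (6 * z) := by positivity
    have h5 : N * (μ - 6 * z) = N * μ - N * (6 * z) := by ring
    have h6 : N * μ * (1 + θ) = N * μ + N * μ * θ := by ring
    linarith
  have hmN : (m : ℝ) ≤ 2 ^ (k + 1) * N := by
    have h3 : N * μ ≤ N * 2 ^ (k + 1) := mul_le_mul_of_nonneg_left hμ hNpos.le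
    linarith
  have hm0 : (0 : ℝ) ≤ m := Nat.cast_nonneg _
  have hmθ : (m : ℝ) * (1 + θ) ≤ N * (μ - 6 * z) := by
    have := mul_le_mul_of_nonneg_right hmY h1θ.le
    rwa [hY, div_mul_cancel₀ _ h1θ.ne'] at this
  have e1 : (m : ℝ) * (1 + θ) * (p / (p + q)) + K1 ≤ (⌊M1 - K1⌋₊ : ℝ) := by
    have h3 : M1 - K1 < (⌊M1 - K1⌋₊ : ℝ) + 1 := Nat.lt_floor_add_one _
    have h4 : (m : ℝ) * (1 + θ) * (p / (p + q)) ≤ N * (μ - 6 * z) * (p / (p + q)) :=
      mul_le_mul_of_nonneg_right hmθ (by positivity)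
    have h5 : N * (μ - 6 * z) * (p / (p + q)) = μ * p - 6 * (p * z) := by
      rw [← hN]; field_simp
    linarith
  have e2 : (m : ℝ) * (1 + θ) * (q / (p + q)) + K2 ≤ (⌊M2 - K2⌋₊ : ℝ) := by
    have h3 : M2 - K2 < (⌊M2 - K2⌋₊ : ℝ) + 1 := Nat.lt_floor_add_one _
    have h4 : (m : ℝ) * (1 + θ) * (q / (p + q)) ≤ N * (μ - 6 * z) * (q / (p + q)) :=
      mul_le_mul_of_nonneg_right hmθ (by positivity)
    have h5 : N * (μ - 6 * z) * (q / (p + q)) = μ * q - 6 * (q * z) := by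
      rw [← hN]; field_simp
    linarith
  have hkey := key m ⌊M1 - K1⌋₊ ⌊M2 - K2⌋₊ (Nat.floor_le (by linarith))
    (by have h3 : M1 - K1 < (⌊M1 - K1⌋₊ : ℝ) + 1 := Nat.lt_floor_add_one _
        linarith)
    (Nat.floor_le (by linarith))
    (by have h3 : M2 - K2 < (⌊M2 - K2⌋₊ : ℝ) + 1 := Nat.lt_floor_add_one _
        linarith) e1 e2
  have f1 : 4 * (m : ℝ) / K1 ^ 2 ≤ 64 * 2 ^ (k + 1) * z := by
    have h3 : (N * z / 4) ^ 2 ≤ K1 ^ 2 := by
      apply pow_le_pow_left₀ (by positivity)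
      have : N * z ≤ 4 * p * z := mul_le_mul_of_nonneg_right hp4 hz0.le
      linarith
    have h4 : 0 < (N * z / 4) ^ 2 := by positivity
    rw [div_le_iff₀ (by positivity)]
    have h5 : 64 * 2 ^ (k + 1) * z * (N * z / 4) ^ 2 ≤ 64 * 2 ^ (k + 1) * z * K1 ^ 2 :=
      mul_le_mul_of_nonneg_left h3 (by positivity)
    have h6 : 64 * 2 ^ (k + 1) * z * (N * z / 4) ^ 2 = 4 * (2 ^ (k + 1) * N) * (N * z ^ 3) := by
      ring
    have h7 : 1 ≤ N * z ^ 3 := by
      have : z ^ 10 ≤ z ^ 3 := pow_le_pow_of_le_one hz0.le hz1 (by norm_num)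
      have h9 : N * z ^ 10 ≤ N * z ^ 3 := mul_le_mul_of_nonneg_left this hNpos.le
      linarith
    have h8 : 4 * (2 ^ (k + 1) * N) * 1 ≤ 4 * (2 ^ (k + 1) * N) * (N * z ^ 3) :=
      mul_le_mul_of_nonneg_left h7 (by positivity)
    linarith
  have f2 : 4 * (m : ℝ) / K2 ^ 2 ≤ 64 * 2 ^ (k + 1) * z := by
    have h3 : (N * z / 4) ^ 2 ≤ K2 ^ 2 := by
      apply pow_le_pow_left₀ (by positivity)
      have : N * z ≤ 4 * q * z := mul_le_mul_of_nonneg_right hq4 hz0.le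
      linarith
    have h4 : 0 < (N * z / 4) ^ 2 := by positivity
    rw [div_le_iff₀ (by positivity)]
    have h5 : 64 * 2 ^ (k + 1) * z * (N * z / 4) ^ 2 ≤ 64 * 2 ^ (k + 1) * z * K2 ^ 2 :=
      mul_le_mul_of_nonneg_left h3 (by positivity)
    have h6 : 64 * 2 ^ (k + 1) * z * (N * z / 4) ^ 2 = 4 * (2 ^ (k + 1) * N) * (N * z ^ 3) := by
      ring
    have h7 : 1 ≤ N * z ^ 3 := by
      have : z ^ 10 ≤ z ^ 3 := pow_le_pow_of_le_one hz0.le hz1 (by norm_num)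
      have h9 : N * z ^ 10 ≤ N * z ^ 3 := mul_le_mul_of_nonneg_left this hNpos.le
      linarith
    have h8 : 4 * (2 ^ (k + 1) * N) * 1 ≤ 4 * (2 ^ (k + 1) * N) * (N * z ^ 3) :=
      mul_le_mul_of_nonneg_left h7 (by positivity)
    linarith
  have f3 : (m : ℝ) * (2 * k / (z ^ 5 * min p q)) ^ k ≤ 2 ^ (k + 1) * (8 * k) ^ k * z := by
    have hmin : N / 4 ≤ min p q := le_min (by linarith) (by linarith)
    have hk0 : (0 : ℝ) < k := by exact_mod_cast (show 0 < k by omega)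
    have h3 : 2 * (k : ℝ) / (z ^ 5 * min p q) ≤ 8 * k * z ^ 5 := by
      rw [div_le_iff₀ (by positivity)]
      have : 8 * (k : ℝ) * z ^ 5 * (z ^ 5 * (N / 4)) ≤ 8 * k * z ^ 5 * (z ^ 5 * min p q) := by
        gcongr
      have h4 : 8 * (k : ℝ) * z ^ 5 * (z ^ 5 * (N / 4)) = 2 * k * (z ^ 10 * N) := by ring
      rw [h4, hz] at this
      linarith
    have h5 : (2 * (k : ℝ) / (z ^ 5 * min p q)) ^ k ≤ (8 * k) ^ k * z ^ 15 := by
      calc (2 * (k : ℝ) / (z ^ 5 * min p q)) ^ k ≤ (8 * k * z ^ 5) ^ k :=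
            pow_le_pow_left₀ (by positivity) h3 _
        _ = (8 * k) ^ k * z ^ (5 * k) := by rw [mul_pow, ← pow_mul]
        _ ≤ (8 * k) ^ k * z ^ 15 := by
            apply mul_le_mul_of_nonneg_left _ (by positivity)
            exact pow_le_pow_of_le_one hz0.le hz1 (by omega)
    calc (m : ℝ) * (2 * k / (z ^ 5 * min p q)) ^ k
        ≤ (2 ^ (k + 1) * N) * ((8 * k) ^ k * z ^ 15) := by
          apply mul_le_mul hmN h5 (by positivity) (by positivity)
      _ = 2 ^ (k + 1) * (8 * k) ^ k * (z ^ 10 * N) * z ^ 5 := by ring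
      _ = 2 ^ (k + 1) * (8 * k) ^ k * z ^ 5 := by rw [hz, mul_one]
      _ ≤ 2 ^ (k + 1) * (8 * k) ^ k * z := by
          apply mul_le_mul_of_nonneg_left _ (by positivity)
          calc z ^ 5 ≤ z ^ 1 := pow_le_pow_of_le_one hz0.le hz1 (by norm_num)
            _ = z := pow_one z
  have f4 : 1 - E * z ≤ 1 - C1 * z - C1 * z - 4 * m / K1 ^ 2 - 4 * m / K2 ^ 2
      - m * (2 * k / (z ^ 5 * min p q)) ^ k := by
    have h3 : E * z = 2 * C1 * z + 128 * 2 ^ (k + 1) * z + 2 ^ (k + 1) * (8 * (k : ℝ)) ^ k * z := by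
      rw [hE]; ring
    linarith
  have f5 : Y * (1 - E * z) ≤ MN := by
    refine le_trans ?_ hkey
    calc Y * (1 - E * z) ≤ ((m : ℝ) + 1) * (1 - E * z) :=
          mul_le_mul_of_nonneg_right hmY'.le (by linarith)
      _ ≤ _ := mul_le_mul_of_nonneg_left f4 (by linarith)
  rw [le_div_iff₀ hNpos]
  refine le_trans ?_ f5
  -- Y >= N (μ - 6z) (1-θ)
  have g1 : N * (μ - 6 * z) * (1 - θ) ≤ Y := by
    rw [hY, le_div_iff₀ h1θ]
    have h3 : 0 ≤ N * (μ - 6 * z) * θ ^ 2 := by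
      apply mul_nonneg (mul_nonneg hNpos.le (by linarith)) (by positivity)
    have h4 : N * (μ - 6 * z) * (1 - θ) * (1 + θ) = N * (μ - 6 * z) - N * (μ - 6 * z) * θ ^ 2 := by
      ring
    linarith
  have g2 : Y * (E * z) ≤ N * 2 ^ (k + 1) * (E * z) := by
    apply mul_le_mul_of_nonneg_right _ (by positivity)
    have h3 : N * μ ≤ N * 2 ^ (k + 1) := mul_le_mul_of_nonneg_left hμ hNpos.le
    linarith
  have g3 : θ * μ ≤ 4 ^ (k + 1) * z := by
    have h4 : (4 : ℝ) ^ (k + 1) = 2 ^ (k + 1) * 2 ^ (k + 1) := by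
      rw [← mul_pow]; norm_num
    have h5 : z ^ 5 ≤ z := by
      calc z ^ 5 ≤ z ^ 1 := pow_le_pow_of_le_one hz0.le hz1 (by norm_num)
        _ = z := pow_one z
    calc θ * μ ≤ (2 ^ (k + 1) * z) * 2 ^ (k + 1) := by
          apply mul_le_mul _ hμ hμ0 (by positivity)
          rw [hθdef]
          exact mul_le_mul_of_nonneg_left h5 hA.le
      _ = 4 ^ (k + 1) * z := by rw [h4]; ring
  have g4 : N * (μ - 6 * z) * (1 - θ) ≥ N * (μ - 6 * z - 4 ^ (k + 1) * z) := by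
    have : (μ - 6 * z) * (1 - θ) ≥ μ - 6 * z - 4 ^ (k + 1) * z := by
      have : (μ - 6 * z) * (1 - θ) = μ - 6 * z - θ * μ + 6 * z * θ := by ring
      have h6 : 0 ≤ 6 * z * θ := by positivity
      linarith
    have h7 := mul_le_mul_of_nonneg_left this hNpos.le
    have h8 : N * (μ - 6 * z) * (1 - θ) = N * ((μ - 6 * z) * (1 - θ)) := by ring
    linarith
  have g5 : (μ - (6 + 4 ^ (k + 1) + 2 ^ (k + 1) * E) * z) * N
      = N * (μ - 6 * z - 4 ^ (k + 1) * z) - N * 2 ^ (k + 1) * (E * z) := by ring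
  have g6 : Y * (1 - E * z) = Y - Y * (E * z) := by ring
  linarith


theorem one_add_pow_le {ε : ℝ} (h0 : 0 ≤ ε) (h1 : ε ≤ 1) (k : ℕ) :
    (1 + ε) ^ k ≤ 1 + (2 ^ k - 1) * ε := by
  induction k with
  | zero => simp
  | succ n ih =>
    have h2 : (1 : ℝ) ≤ 2 ^ n := one_le_pow₀ (by norm_num)
    have h3 : (1 + ε) ^ (n + 1) ≤ (1 + (2 ^ n - 1) * ε) * (1 + ε) := by
      rw [pow_succ]; exact mul_le_mul_of_nonneg_right ih (by linarith)
    have h4 : (1 + (2 ^ n - 1) * ε) * (1 + ε) = 1 + 2 ^ n * ε + (2 ^ n - 1) * (ε * ε) := by ring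
    have h5 : (2 ^ n - 1) * (ε * ε) ≤ (2 ^ n - 1) * ε := by
      apply mul_le_mul_of_nonneg_left _ (by linarith)
      nlinarith
    have h6 : (1 : ℝ) + (2 ^ (n + 1) - 1) * ε = 1 + 2 ^ n * ε + (2 ^ n - 1) * ε := by
      rw [pow_succ]; ring
    linarith

/-- facts about one block of size `p ≤ N ≤ 4p` -/
theorem block_facts {p N : ℝ} (hp : 1 ≤ p) (hpN : p ≤ N) (hN4 : N ≤ 4 * p) :
    p * N ^ (-(1 / 10 : ℝ)) ≤ p ^ (9 / 10 : ℝ) ∧
    p ^ (9 / 10 : ℝ) ≤ 2 * (p * N ^ (-(1 / 10 : ℝ))) ∧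
    1 ≤ p ^ (9 / 10 : ℝ) ∧
    p ^ (5 / 3 : ℝ) / (p ^ (9 / 10 : ℝ)) ^ 2 ≤ 2 * N ^ (-(1 / 10 : ℝ)) := by
  have hp0 : 0 < p := by linarith
  have hN0 : 0 < N := by linarith
  have e1 : p ^ (9 / 10 : ℝ) = p * p ^ (-(1 / 10 : ℝ)) := by
    conv_rhs => enter [1]; rw [← Real.rpow_one p]
    rw [← Real.rpow_add hp0]; norm_num
  have e2 : N ^ (-(1 / 10 : ℝ)) ≤ p ^ (-(1 / 10 : ℝ)) :=
    Real.rpow_le_rpow_of_nonpos hp0 hpN (by norm_num)
  have e3 : p ^ (-(1 / 10 : ℝ)) ≤ 2 * N ^ (-(1 / 10 : ℝ)) := by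
    have h1 : p ^ (-(1 / 10 : ℝ)) ≤ (N / 4) ^ (-(1 / 10 : ℝ)) :=
      Real.rpow_le_rpow_of_nonpos (by linarith) (by linarith) (by norm_num)
    have h2 : (N / 4) ^ (-(1 / 10 : ℝ)) = N ^ (-(1 / 10 : ℝ)) * 4 ^ (1 / 10 : ℝ) := by
      rw [Real.div_rpow hN0.le (by norm_num), Real.rpow_neg (by norm_num : (0:ℝ) ≤ 4)]
      rw [div_eq_mul_inv, inv_inv]
    have h3 : (4 : ℝ) ^ (1 / 10 : ℝ) ≤ 2 := by
      have : (4 : ℝ) ^ (1 / 10 : ℝ) ≤ 4 ^ (1 / 2 : ℝ) :=
        Real.rpow_le_rpow_of_exponent_le (by norm_num) (by norm_num)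
      have h4 : (4 : ℝ) ^ (1 / 2 : ℝ) = 2 := by
        rw [← Real.sqrt_eq_rpow]
        rw [show (4 : ℝ) = 2 ^ 2 by norm_num]
        exact Real.sqrt_sq (by norm_num)
      linarith
    have h4 : 0 ≤ N ^ (-(1 / 10 : ℝ)) := Real.rpow_nonneg hN0.le _
    nlinarith
  refine ⟨?_, ?_, Real.one_le_rpow hp (by norm_num), ?_⟩
  · rw [e1]; exact mul_le_mul_of_nonneg_left e2 hp0.le
  · rw [e1]
    have := mul_le_mul_of_nonneg_left e3 hp0.le
    linarith
  · have h1 : p ^ (5 / 3 : ℝ) / (p ^ (9 / 10 : ℝ)) ^ 2 = p ^ (-(2 / 15) : ℝ) := by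
      rw [← Real.rpow_natCast (p ^ (9 / 10 : ℝ)) 2, ← Real.rpow_mul hp0.le, ← Real.rpow_sub hp0]
      norm_num
    rw [h1]
    refine le_trans ?_ e3
    exact Real.rpow_le_rpow_of_exponent_le hp (by norm_num)

theorem an_add {k : ℕ} (hk : 3 ≤ k) : ∃ C : ℝ, 0 ≤ C ∧ ∃ n0 : ℕ, ∀ m n, n0 ≤ m → n0 ≤ n →
    m ≤ 3 * n → n ≤ 3 * m →
      min (an k m) (an k n) - C * ((m : ℝ) + n) ^ (-(1 / 10 : ℝ)) ≤ an k (m + n) := by
  obtain ⟨C1, hC1, n1, hconc⟩ := concentration hk (2 ^ (k + 1))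
  refine ⟨6 + 4 ^ (k + 1) + 2 ^ (k + 1) *
    (2 * (2 * C1) + 128 * 2 ^ (k + 1) + 2 ^ (k + 1) * (8 * k) ^ k), by positivity,
    max n1 (max (2 * k) (4 ^ (k + 1))), ?_⟩
  intro p q hp hq hpq hqp
  have hp1 : n1 ≤ p := le_trans (le_max_left _ _) hp
  have hq1 : n1 ≤ q := le_trans (le_max_left _ _) hq
  have hp2 : 2 * k ≤ p := le_trans (le_trans (le_max_left _ _) (le_max_right _ _)) hp
  have hq2 : 2 * k ≤ q := le_trans (le_trans (le_max_left _ _) (le_max_right _ _)) hq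
  have hp3 : 4 ^ (k + 1) ≤ p := le_trans (le_trans (le_max_right _ _) (le_max_right _ _)) hp
  have hk1 : 1 ≤ k := by omega
  have hpr : (1 : ℝ) ≤ p := by exact_mod_cast (show 1 ≤ p by omega)
  have hqr : (1 : ℝ) ≤ q := by exact_mod_cast (show 1 ≤ q by omega)
  have hpqr : (p : ℝ) ≤ 3 * q := by exact_mod_cast hpq
  have hqpr : (q : ℝ) ≤ 3 * p := by exact_mod_cast hqp
  set N : ℝ := (p : ℝ) + q with hN
  have hNpos : 0 < N := by rw [hN]; linarith
  have hN1 : 1 ≤ N := by rw [hN]; linarith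
  set z : ℝ := N ^ (-(1 / 10 : ℝ)) with hzdef
  have hz0 : 0 < z := Real.rpow_pos_of_pos hNpos _
  have hz1 : z ≤ 1 := Real.rpow_le_one_of_one_le_of_nonpos hN1 (by norm_num)
  have hz : z ^ 10 * N = 1 := by
    rw [hzdef, ← Real.rpow_natCast, ← Real.rpow_mul hNpos.le]
    norm_num
    rw [Real.rpow_neg hNpos.le, Real.rpow_one]
    field_simp
  have hθ : 2 ^ (k + 1) * z ^ 5 ≤ 1 := by
    have h1 : (2 ^ (k + 1) * z ^ 5) ^ 2 ≤ 1 ^ 2 := by
      have h2 : (2 ^ (k + 1) * z ^ 5) ^ 2 = (2 ^ 2) ^ (k + 1) * z ^ 10 := by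
        rw [mul_pow, ← pow_mul, ← pow_mul, ← pow_mul, mul_comm (k + 1) 2]
      rw [h2]
      have h3 : ((2 : ℝ) ^ 2) ^ (k + 1) ≤ N := by
        have : ((4 : ℝ)) ^ (k + 1) ≤ p := by exact_mod_cast hp3
        rw [hN]
        norm_num
        linarith
      have h4 : ((2 : ℝ) ^ 2) ^ (k + 1) * z ^ 10 ≤ N * z ^ 10 :=
        mul_le_mul_of_nonneg_right h3 (by positivity)
      linarith
    exact le_of_sq_le_sq h1 (by norm_num)
  obtain ⟨a1, a2, a3, a4⟩ := block_facts hpr (N := N) (by rw [hN]; linarith)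
    (by rw [hN]; linarith)
  obtain ⟨b1, b2, b3, b4⟩ := block_facts hqr (N := N) (by rw [hN]; linarith)
    (by rw [hN]; linarith)
  have cV1 : (Finset.range p).card = p := Finset.card_range p
  have cV2 : (Finset.Ico p (p + q)).card = q := by rw [Nat.card_Ico]; omega
  have hd : Disjoint (Finset.range p) (Finset.Ico p (p + q)) := by
    rw [Finset.range_eq_Ico]; exact Finset.Ico_disjoint_Ico_consecutive 0 p (p + q)
  have hU : Finset.range p ∪ Finset.Ico p (p + q) = Finset.range (p + q) := by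
    rw [Finset.range_eq_Ico, Finset.range_eq_Ico]
    exact Finset.Ico_union_Ico_eq_Ico (by omega) (by omega)
  have hM2 : M k (Finset.Ico p (p + q)) = M k (Finset.range q) :=
    M_card_eq (by rw [cV2]; omega) (by rw [cV2, Finset.card_range])
  have hanp : an k p * p = M k (Finset.range p) := by
    unfold an; field_simp
  have hanq : an k q * q = M k (Finset.Ico p (p + q)) := by
    rw [hM2]; unfold an; field_simp
  have hle : ∀ (V : Finset ℕ) (n : ℕ), V.card = n → n1 ≤ n → k ≤ n → ∀ t : ℕ,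
      (t : ℝ) ≤ M k V - (n : ℝ) ^ (9 / 10 : ℝ) → 1 ≤ (n : ℝ) ^ (9 / 10 : ℝ) →
      (n : ℝ) ^ (5 / 3 : ℝ) / ((n : ℝ) ^ (9 / 10 : ℝ)) ^ 2 ≤ 2 * z →
      1 - s k V t Set.univ ≤ 2 * C1 * z := by
    intro V n hV hn hkn t ht hK hz'
    have hJ : M k V ≤ 2 ^ (k + 1) * V.card := J_le hk1 (by omega) _
    have htK : t ≤ 2 ^ (k + 1) * V.card := by
      have : (t : ℝ) ≤ ((2 ^ (k + 1) * V.card : ℕ) : ℝ) := by
        push_cast
        linarith
      exact_mod_cast this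
    have h1 := (hconc V (by omega) t htK).2 (by linarith)
    rw [hV] at h1
    have hs0 : 0 ≤ 1 - s k V t Set.univ := by
      have := s_le_one (k := k) (U := V) t Set.univ
      linarith
    have h2 : ((n : ℝ) ^ (9 / 10 : ℝ)) ^ 2 ≤ (M k V - t) ^ 2 :=
      pow_le_pow_left₀ (by linarith) (by linarith) 2
    have h3 : ((n : ℝ) ^ (9 / 10 : ℝ)) ^ 2 * (1 - s k V t Set.univ) ≤
        C1 * (n : ℝ) ^ (5 / 3 : ℝ) :=
      le_trans (mul_le_mul_of_nonneg_right h2 hs0) h1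
    have h4 : 0 < ((n : ℝ) ^ (9 / 10 : ℝ)) ^ 2 := by positivity
    have h5 : 1 - s k V t Set.univ ≤
        C1 * ((n : ℝ) ^ (5 / 3 : ℝ) / ((n : ℝ) ^ (9 / 10 : ℝ)) ^ 2) := by
      rw [← mul_div_assoc, le_div_iff₀ h4]
      linarith
    have h6 := mul_le_mul_of_nonneg_left hz' hC1
    linarith
  have hμ0 : 0 ≤ min (an k p) (an k q) := le_min (an_nonneg _ _) (an_nonneg _ _)
  have hμ1 : min (an k p) (an k q) ≤ 2 ^ (k + 1) :=
    le_trans (min_le_left _ _) (an_bound hk1 p (by omega))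
  have hres := an_add_real hk (C1 := 2 * C1) (N := N) (p := p) (q := q)
    (μ := min (an k p) (an k q)) (z := z)
    (K1 := (p : ℝ) ^ (9 / 10 : ℝ)) (K2 := (q : ℝ) ^ (9 / 10 : ℝ))
    (M1 := M k (Finset.range p)) (M2 := M k (Finset.Ico p (p + q)))
    (MN := M k (Finset.range (p + q))) (by positivity) hpr hqr hN hpqr hqpr hz0 hz1 hz
    hμ0 hμ1
    (by rw [← hanp]; exact mul_le_mul_of_nonneg_right (min_le_left _ _) (by linarith))
    (by rw [← hanq]; exact mul_le_mul_of_nonneg_right (min_le_right _ _) (by linarith))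
    a1 a2 a3 b1 b2 b3 (M_nonneg _ _) ?_
  · have h1 : an k (p + q) = M k (Finset.range (p + q)) / N := by
      unfold an; rw [hN]; push_cast; rfl
    rw [h1]
    exact hres
  · intro m t1 t2 ht1 _ ht2 _ e1 e2
    have hε1 : z ^ 5 ≤ 1 := pow_le_one₀ hz0.le hz1
    have hint := interp hk1 hd (by rw [cV1]; exact hp2) (by rw [cV2]; exact hq2)
      (ε := z ^ 5) (θ := 2 ^ (k + 1) * z ^ 5) (by positivity) hε1
      (by
        have := one_add_pow_le (ε := z ^ 5) (by positivity) hε1 k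
        have h2 : (2 : ℝ) ^ (k + 1) * z ^ 5 = 2 * (2 ^ k * z ^ 5) := by rw [pow_succ]; ring
        have h3 : (0 : ℝ) ≤ z ^ 5 := by positivity
        rw [h2]
        linarith) hθ m t1 t2 (K1 := (p : ℝ) ^ (9 / 10 : ℝ)) (K2 := (q : ℝ) ^ (9 / 10 : ℝ))
      (by linarith) (by linarith) (by rw [cV1, cV2]; exact e1) (by rw [cV1, cV2]; exact e2)
    rw [cV1, cV2, hU] at hint
    have h1 := hle (Finset.range p) p cV1 hp1 (by omega) t1 ht1 a3 a4
    have h2 := hle (Finset.Ico p (p + q)) q cV2 hq1 (by omega) t2 ht2 b3 b4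
    have h3 := mul_s_le_J hk1 (U := Finset.range (p + q)) (by rw [Finset.card_range]; omega)
      m Set.univ
    refine le_trans ?_ h3
    apply mul_le_mul_of_nonneg_left _ (by positivity)
    linarith


theorem probSat_eq {k n : ℕ} (hn : k ≤ n) (t : ℕ) :
    probSat k n t = s k (Finset.range n) t Set.univ := by
  have h := s_eq_probSat k (Finset.range n) t (by rw [Finset.card_range]; exact hn)
  rw [Finset.card_range] at h
  exact h.symm

theorem an_tendsto {k : ℕ} (hk : 3 ≤ k) : ∃ α : ℝ, Tendsto (an k) atTop (𝓝 α) := by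
  obtain ⟨C1, hC1, n1, h1⟩ := an_step hk
  obtain ⟨C2, hC2, n2, h2⟩ := an_add hk
  refine fekete (an k) (max C1 C2) (1 / 10) (2 ^ (k + 1)) (max (max n1 n2) k) (by norm_num)
    (le_max_of_le_left hC1) ?_ ?_ ?_
  · intro n hn
    exact an_bound (by omega) n (le_trans (le_max_right _ _) hn)
  · intro n hn
    have hn1 : n1 ≤ n := le_trans (le_trans (le_max_left _ _) (le_max_left _ _)) hn
    have h3 := h1 n hn1
    have h4 : C1 * (n : ℝ) ^ (-(1 / 10 : ℝ)) ≤ max C1 C2 * (n : ℝ) ^ (-(1 / 10 : ℝ)) :=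
      mul_le_mul_of_nonneg_right (le_max_left _ _) (Real.rpow_nonneg (Nat.cast_nonneg _) _)
    linarith
  · intro m n hm hn hmn hnm
    have hm1 : n2 ≤ m := le_trans (le_trans (le_max_right _ _) (le_max_left _ _)) hm
    have hn1 : n2 ≤ n := le_trans (le_trans (le_max_right _ _) (le_max_left _ _)) hn
    have h3 := h2 m n hm1 hn1 hmn hnm
    have h4 : C2 * ((m : ℝ) + n) ^ (-(1 / 10 : ℝ)) ≤ max C1 C2 * ((m : ℝ) + n) ^ (-(1 / 10 : ℝ)) :=
      mul_le_mul_of_nonneg_right (le_max_right _ _) (Real.rpow_nonneg (by positivity) _)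
    linarith

theorem tendsto_err {C δ : ℝ} (hδ : 0 < δ) :
    Tendsto (fun n : ℕ => C * (n : ℝ) ^ (5 / 3 : ℝ) / (δ * n) ^ 2) atTop (𝓝 0) := by
  have h1 : Tendsto (fun n : ℕ => (C / δ ^ 2) * (n : ℝ) ^ (-(1 / 3 : ℝ))) atTop (𝓝 0) := by
    have := (tendsto_rpow_neg_atTop (show (0 : ℝ) < 1 / 3 by norm_num)).comp
      tendsto_natCast_atTop_atTop
    simpa using this.const_mul (C / δ ^ 2)
  refine h1.congr' ?_
  filter_upwards [eventually_gt_atTop 0] with n hn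
  have hn' : (0 : ℝ) < n := by exact_mod_cast hn
  have h2 : (n : ℝ) ^ (5 / 3 : ℝ) = (n : ℝ) ^ (-(1 / 3 : ℝ)) * (n : ℝ) ^ 2 := by
    rw [← Real.rpow_natCast (n : ℝ) 2, ← Real.rpow_add hn']
    norm_num
  rw [h2]
  field_simp

theorem main (k : ℕ) (hk : 3 ≤ k) : ∃ α : ℝ, IsLimitingThreshold k α := by
  obtain ⟨α, hα⟩ := an_tendsto hk
  have hk1 : 1 ≤ k := by omega
  refine ⟨α, ?_, ?_, ?_⟩
  · -- positivity
    obtain ⟨c, hc, hpos⟩ := positive k hk
    have h1 : ∀ᶠ n : ℕ in atTop, c / 2 ≤ an k n := by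
      filter_upwards [hpos, eventually_ge_atTop k] with n hn hnk
      have hn0 : (0 : ℝ) < n := by exact_mod_cast (show 0 < n by omega)
      rw [probSat_eq hnk] at hn
      have h3 := mul_s_le_J hk1 (U := Finset.range n) (by rw [Finset.card_range]; exact hnk)
        ⌊c * n⌋₊ Set.univ
      have h4 : c * n < (⌊c * n⌋₊ : ℝ) + 1 := Nat.lt_floor_add_one _
      unfold an
      rw [le_div_iff₀ hn0]
      change _ ≤ J k (Finset.range n) Set.univ
      refine le_trans ?_ h3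
      have h5 : 0 ≤ c * n := by positivity
      calc c / 2 * n = c * n * (1 / 2) := by ring
        _ ≤ ((⌊c * n⌋₊ : ℝ) + 1) * (s k (Finset.range n) ⌊c * n⌋₊ Set.univ) :=
            mul_le_mul h4.le hn (by norm_num) (by linarith)
    have h2 : c / 2 ≤ α := ge_of_tendsto hα h1
    linarith
  · intro c hc0 hcα
    obtain ⟨C, hC, n0, hconc⟩ := concentration hk (⌈c⌉₊)
    have hδ : 0 < (α - c) / 2 := by linarith
    have h1 : ∀ᶠ n : ℕ in atTop, c + (α - c) / 2 < an k n :=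
      hα.eventually (lt_mem_nhds (by linarith))
    have h2 : ∀ᶠ n : ℕ in atTop,
        1 - C * (n : ℝ) ^ (5 / 3 : ℝ) / ((α - c) / 2 * n) ^ 2 ≤ probSat k n ⌊c * n⌋₊ := by
      filter_upwards [h1, eventually_ge_atTop (max n0 k)] with n hn hnk
      have hnk' : k ≤ n := le_trans (le_max_right _ _) hnk
      have hn0' : n0 ≤ n := le_trans (le_max_left _ _) hnk
      have hn0 : (0 : ℝ) < n := by exact_mod_cast (show 0 < n by omega)
      rw [probSat_eq hnk']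
      have ht : (⌊c * n⌋₊ : ℝ) ≤ c * n := Nat.floor_le (by positivity)
      have hK : ⌊c * n⌋₊ ≤ ⌈c⌉₊ * (Finset.range n).card := by
        rw [Finset.card_range]
        have : (⌊c * n⌋₊ : ℝ) ≤ ((⌈c⌉₊ * n : ℕ) : ℝ) := by
          push_cast
          exact ht.trans (mul_le_mul_of_nonneg_right (Nat.le_ceil c) hn0.le)
        exact_mod_cast this
      have hM : M k (Finset.range n) = an k n * n := by unfold an; field_simp
      have hMt : (α - c) / 2 * n ≤ M k (Finset.range n) - ⌊c * n⌋₊ := by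
        rw [hM]
        have := mul_lt_mul_of_pos_right hn hn0
        have h6 : (c + (α - c) / 2) * n = c * n + (α - c) / 2 * n := by ring
        linarith
      have hpos' : 0 < (α - c) / 2 * n := by positivity
      have h3 := (hconc (Finset.range n) (by rw [Finset.card_range]; exact hn0') _ hK).2
        (by linarith)
      rw [Finset.card_range] at h3
      have hs0 : 0 ≤ 1 - s k (Finset.range n) ⌊c * n⌋₊ Set.univ := by
        have := s_le_one (k := k) (U := Finset.range n) ⌊c * n⌋₊ Set.univ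
        linarith
      have h4 : ((α - c) / 2 * n) ^ 2 * (1 - s k (Finset.range n) ⌊c * n⌋₊ Set.univ) ≤
          C * (n : ℝ) ^ (5 / 3 : ℝ) :=
        le_trans (mul_le_mul_of_nonneg_right (pow_le_pow_left₀ hpos'.le hMt 2) hs0) h3
      have h5 : 1 - s k (Finset.range n) ⌊c * n⌋₊ Set.univ ≤
          C * (n : ℝ) ^ (5 / 3 : ℝ) / ((α - c) / 2 * n) ^ 2 := by
        rw [le_div_iff₀ (by positivity)]
        linarith
      linarith
    have h3 : ∀ᶠ n : ℕ in atTop, probSat k n ⌊c * n⌋₊ ≤ 1 := by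
      filter_upwards [eventually_ge_atTop k] with n hn
      rw [probSat_eq hn]
      exact s_le_one _ _
    have h4 : Tendsto (fun n : ℕ => 1 - C * (n : ℝ) ^ (5 / 3 : ℝ) / ((α - c) / 2 * n) ^ 2)
        atTop (𝓝 1) := by
      simpa using (tendsto_const_nhds (x := (1 : ℝ))).sub (tendsto_err (C := C) hδ)
    exact tendsto_of_tendsto_of_tendsto_of_le_of_le' h4 tendsto_const_nhds h2 h3
  · intro c hcα
    have hα0 : 0 ≤ α := ge_of_tendsto' hα (fun n => an_nonneg k n)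
    have hc0 : 0 ≤ c := by linarith
    obtain ⟨C, hC, n0, hconc⟩ := concentration hk (⌈c⌉₊)
    have hδ : 0 < (c - α) / 2 := by linarith
    have h1 : ∀ᶠ n : ℕ in atTop, an k n < c - (c - α) / 2 :=
      hα.eventually (gt_mem_nhds (by linarith))
    have h2 : ∀ᶠ n : ℕ in atTop,
        probSat k n ⌊c * n⌋₊ ≤ C * (n : ℝ) ^ (5 / 3 : ℝ) / ((c - α) / 2 * n) ^ 2 := by
      filter_upwards [h1, eventually_ge_atTop (max n0 k)] with n hn hnk
      have hnk' : k ≤ n := le_trans (le_max_right _ _) hnk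
      have hn0' : n0 ≤ n := le_trans (le_max_left _ _) hnk
      have hn0 : (0 : ℝ) < n := by exact_mod_cast (show 0 < n by omega)
      rw [probSat_eq hnk']
      have ht : (⌊c * n⌋₊ : ℝ) ≤ c * n := Nat.floor_le (by positivity)
      have ht' : c * n < (⌊c * n⌋₊ : ℝ) + 1 := Nat.lt_floor_add_one _
      have hK : ⌊c * n⌋₊ ≤ ⌈c⌉₊ * (Finset.range n).card := by
        rw [Finset.card_range]
        have : (⌊c * n⌋₊ : ℝ) ≤ ((⌈c⌉₊ * n : ℕ) : ℝ) := by
          push_cast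
          exact ht.trans (mul_le_mul_of_nonneg_right (Nat.le_ceil c) hn0.le)
        exact_mod_cast this
      have hM : M k (Finset.range n) = an k n * n := by unfold an; field_simp
      have hMt : (c - α) / 2 * n ≤ (⌊c * n⌋₊ : ℝ) + 1 - M k (Finset.range n) := by
        rw [hM]
        have := mul_lt_mul_of_pos_right hn hn0
        have h6 : (c - (c - α) / 2) * n = c * n - (c - α) / 2 * n := by ring
        linarith
      have hpos' : 0 < (c - α) / 2 * n := by positivity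
      have h3 := (hconc (Finset.range n) (by rw [Finset.card_range]; exact hn0') _ hK).1
        (by linarith)
      rw [Finset.card_range] at h3
      have hs0 : 0 ≤ s k (Finset.range n) ⌊c * n⌋₊ Set.univ := s_nonneg _ _
      have h4 : ((c - α) / 2 * n) ^ 2 * (s k (Finset.range n) ⌊c * n⌋₊ Set.univ) ≤
          C * (n : ℝ) ^ (5 / 3 : ℝ) :=
        le_trans (mul_le_mul_of_nonneg_right (pow_le_pow_left₀ hpos'.le hMt 2) hs0) h3
      rw [le_div_iff₀ (by positivity)]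
      linarith
    have h3 : ∀ᶠ n : ℕ in atTop, 0 ≤ probSat k n ⌊c * n⌋₊ := by
      filter_upwards [eventually_ge_atTop k] with n hn
      rw [probSat_eq hn]
      exact s_nonneg _ _
    exact tendsto_of_tendsto_of_tendsto_of_le_of_le' tendsto_const_nhds (tendsto_err (C := C) hδ)
      h3 h2

end Vale.Agent.P170
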