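import Vale.Agent.P170.Final

open MeasureTheory ProbabilityTheory Filter Topology

namespace Vale.Agent.P170

theorem card_clause (k n : ℕ) : Fintype.card (Clause k n) = 2 ^ k * n.choose k := by
  classical
  have h := tr_card (k := k) (n := n) (Fin.valEmbedding) Finset.univ
  rw [Finset.card_univ, Fintype.card_fin] at h
  rw [← h, Finset.filter_true_of_mem (fun c _ => Finset.subset_univ _), Finset.card_univ]

/-- The probability of satisfiability of a formula with i.i.d. uniform proper clauses. -/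
theorem prob_eq {k n : ℕ} (hkn : k ≤ n) {Ω : Type*} [MeasurableSpace Ω] (P : Measure Ω)
    [IsProbabilityMeasure P] (C : ℕ → Ω → Finset (Fin n × Bool))
    (hmeas : ∀ i D, MeasurableSet {ω | C i ω = D})
    (hind : iIndepFun (m := fun _ => ⊤) C P)
    (hunif : ∀ i (D : Finset (Fin n × Bool)), D.card = k → (D.image Prod.fst).card = k →
      P {ω | C i ω = D} = 1 / ((2 ^ k * n.choose k : ℕ) : ENNReal)) (m : ℕ) :
    P {ω | ∃ x : Fin n → Bool, ∀ i < m, ∃ l ∈ C i ω, x l.1 = l.2} =
      ENNReal.ofReal (probSat k n m) := by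
  classical
  set N : ℕ := 2 ^ k * n.choose k with hN
  have hNpos : 0 < N := Nat.mul_pos (by positivity) (Nat.choose_pos hkn)
  have hN0 : (N : ENNReal) ≠ 0 := by exact_mod_cast hNpos.ne'
  have hNt : (N : ENNReal) ≠ ⊤ := ENNReal.natCast_ne_top N
  have hcard : Fintype.card (Clause k n) = N := card_clause k n
  -- the atoms
  set A : (Fin m → Clause k n) → Set Ω := fun F => {ω | ∀ i : Fin m, C i ω = (F i).1} with hA
  have hAm : ∀ F, MeasurableSet (A F) := by
    intro F
    have : A F = ⋂ i : Fin m, {ω | C i ω = (F i).1} := by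
      ext ω
      simp [hA]
    rw [this]
    exact MeasurableSet.iInter fun i => hmeas i _
  have hAd : Pairwise (Function.onFun Disjoint A) := by
    intro F G hFG
    rw [Function.onFun, Set.disjoint_left]
    intro ω h1 h2
    apply hFG
    funext i
    exact Subtype.ext ((h1 i).symm.trans (h2 i))
  have hAP : ∀ F, P (A F) = ((N : ENNReal)⁻¹) ^ m := by
    intro F
    have h1 := hind.measure_inter_preimage_eq_mul ((Finset.univ : Finset (Fin m)).map Fin.valEmbedding)
      (sets := fun i => {D | ∀ h : i < m, D = (F ⟨i, h⟩).1}) (fun i _ => trivial)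
    have h2 : (⋂ i ∈ (Finset.univ : Finset (Fin m)).map Fin.valEmbedding,
        C i ⁻¹' {D | ∀ h : i < m, D = (F ⟨i, h⟩).1}) = A F := by
      ext ω
      simp only [Set.mem_iInter, Finset.mem_map, Finset.mem_univ, true_and,
        Fin.valEmbedding_apply, Set.mem_preimage, Set.mem_ofPred_eq, hA]
      constructor
      · intro h i
        exact h i ⟨i, rfl⟩ i.2
      · rintro h j ⟨i, rfl⟩ _
        exact h i
    rw [h2, Finset.prod_map] at h1
    rw [h1, Finset.prod_congr rfl (g := fun _ => (N : ENNReal)⁻¹)]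
    · rw [Finset.prod_const, Finset.card_univ, Fintype.card_fin]
    · intro i _
      have h3 : C i ⁻¹' {D | ∀ h : (i : ℕ) < m, D = (F ⟨i, h⟩).1} = {ω | C i ω = (F i).1} := by
        ext ω
        simp
      rw [Fin.valEmbedding_apply, h3, hunif i _ (F i).2.1 (F i).2.2, one_div]
  have hsum : ∀ T : Finset (Fin m → Clause k n),
      P (⋃ F ∈ T, A F) = T.card * ((N : ENNReal)⁻¹) ^ m := by
    intro T
    rw [measure_biUnion_finset (fun F _ G _ h => hAd h) (fun F _ => hAm F)]
    simp only [hAP, Finset.sum_const, nsmul_eq_mul]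
  have htot : P (⋃ F ∈ (Finset.univ : Finset (Fin m → Clause k n)), A F) = 1 := by
    rw [hsum, Finset.card_univ, Fintype.card_fun, Fintype.card_fin, hcard]
    push_cast
    rw [← mul_pow, ENNReal.mul_inv_cancel hN0 hNt, one_pow]
  have hnull : P (⋃ F ∈ (Finset.univ : Finset (Fin m → Clause k n)), A F)ᶜ = 0 := by
    rw [prob_compl_eq_zero_iff (Finset.measurableSet_biUnion _ fun F _ => hAm F)]
    exact htot
  set T : Finset (Fin m → Clause k n) := Finset.univ.filter (fun F => Satisfiable F) with hT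
  have hlow : (⋃ F ∈ T, A F) ⊆ {ω | ∃ x : Fin n → Bool, ∀ i < m, ∃ l ∈ C i ω, x l.1 = l.2} := by
    intro ω hω
    simp only [Set.mem_iUnion] at hω
    obtain ⟨F, hF, hω⟩ := hω
    obtain ⟨x, hx⟩ := (Finset.mem_filter.1 hF).2
    refine ⟨x, fun i hi => ?_⟩
    have h1 := hω ⟨i, hi⟩
    simp only at h1
    rw [h1]
    exact hx ⟨i, hi⟩
  have hupp : {ω | ∃ x : Fin n → Bool, ∀ i < m, ∃ l ∈ C i ω, x l.1 = l.2} ⊆
      (⋃ F ∈ T, A F) ∪ (⋃ F ∈ (Finset.univ : Finset (Fin m → Clause k n)), A F)ᶜ := by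
    rintro ω ⟨x, hx⟩
    by_cases h : ω ∈ (⋃ F ∈ (Finset.univ : Finset (Fin m → Clause k n)), A F)
    · left
      simp only [Set.mem_iUnion] at h ⊢
      obtain ⟨F, -, hF⟩ := h
      refine ⟨F, Finset.mem_filter.2 ⟨Finset.mem_univ _, x, fun i => ?_⟩, hF⟩
      rw [← hF i]
      exact hx i i.2
    · right
      exact h
  have hP : P {ω | ∃ x : Fin n → Bool, ∀ i < m, ∃ l ∈ C i ω, x l.1 = l.2} =
      T.card * ((N : ENNReal)⁻¹) ^ m := by
    apply le_antisymm
    · calc _ ≤ P ((⋃ F ∈ T, A F) ∪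
            (⋃ F ∈ (Finset.univ : Finset (Fin m → Clause k n)), A F)ᶜ) := measure_mono hupp
        _ ≤ P (⋃ F ∈ T, A F) +
            P (⋃ F ∈ (Finset.univ : Finset (Fin m → Clause k n)), A F)ᶜ := measure_union_le _ _
        _ = T.card * ((N : ENNReal)⁻¹) ^ m := by rw [hnull, add_zero, hsum]
    · rw [← hsum]
      exact measure_mono hlow
  have hreal : probSat k n m = T.card / (N : ℝ) ^ m := by
    unfold probSat
    congr 1
    · rw [Nat.card_eq_fintype_card, Fintype.card_subtype]
    · rw [Nat.card_eq_fintype_card, Fintype.card_fun, Fintype.card_fin, hcard]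
      push_cast
      rfl
  rw [hP, hreal, ENNReal.ofReal_div_of_pos (by positivity), ENNReal.ofReal_natCast,
    ENNReal.ofReal_pow (by positivity), ENNReal.ofReal_natCast, div_eq_mul_inv, ENNReal.inv_pow]

end Vale.Agent.P170
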