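import Vale.Agent.P170.Chain

namespace Vale.Agent.P170

open Finset

variable {k : ℕ} {U V : Finset ℕ} {A B : St}

lemma kap_erase_mem {c : Cls} (hc : c ∈ Cl k U) {l : Lit} (hl : l ∈ c) :
    c.erase l ∈ Cl (k - 1) U := by
  have hinj := Cl_injOn hc
  rw [mem_Cl] at hc ⊢
  refine ⟨(Finset.erase_subset _ _).trans hc.1, ?_, ?_⟩
  · rw [Finset.card_erase_of_mem hl, hc.2.1]
  · rw [Finset.card_image_of_injOn, Finset.card_erase_of_mem hl, hc.2.1]
    intro a ha b hb hab
    exact hinj (Finset.mem_of_mem_erase ha) (Finset.mem_of_mem_erase hb) hab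

lemma kap_count (N : Finset Lit) :
    k * ((Cl k U).filter (fun c => c ⊆ N)).card ≤
      N.card * ((Cl (k - 1) U).filter (fun c => c ⊆ N)).card := by
  have h1 : (((Cl k U).filter (fun c => c ⊆ N)).sigma (fun c => c)).card
      = k * ((Cl k U).filter (fun c => c ⊆ N)).card := by
    rw [Finset.card_sigma, Finset.sum_congr rfl (g := fun _ => k)]
    · rw [Finset.sum_const, smul_eq_mul, mul_comm]
    · intro c hc
      rw [Finset.mem_filter] at hc
      exact (mem_Cl.1 hc.1).2.1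
  rw [← h1, ← Finset.card_product]
  refine Finset.card_le_card_of_injOn (fun x => (x.2, x.1.erase x.2)) ?_ ?_
  · rintro ⟨c, l⟩ hx
    rw [Finset.mem_coe, Finset.mem_sigma, Finset.mem_filter] at hx
    obtain ⟨⟨hc, hcN⟩, hl⟩ := hx
    rw [Finset.mem_coe, Finset.mem_product, Finset.mem_filter]
    exact ⟨hcN hl, kap_erase_mem hc hl, (Finset.erase_subset _ _).trans hcN⟩
  · rintro ⟨c, l⟩ hx ⟨c', l'⟩ hx' h
    rw [Finset.mem_coe, Finset.mem_sigma] at hx hx'
    simp only [Prod.mk.injEq] at h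
    obtain ⟨h2, h3⟩ := h
    subst h2
    have h4 : c = c' := by
      have h5 : insert l (c.erase l) = c := Finset.insert_erase hx.2
      have h6 : insert l (c'.erase l) = c' := Finset.insert_erase hx'.2
      rw [← h5, ← h6, h3]
    subst h4
    rfl

lemma kap_card_rel (hk : 1 ≤ k) (hU : k ≤ U.card) :
    ((Cl k U).card : ℝ) * k = ((Cl (k - 1) U).card : ℝ) * (2 * ((U.card : ℝ) - k + 1)) := by
  obtain ⟨j, rfl⟩ : ∃ j, k = j + 1 := ⟨k - 1, by omega⟩
  rw [Cl_card, Cl_card, Nat.add_sub_cancel]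
  have h := Nat.choose_succ_right_eq U.card j
  have h2 : ((U.card.choose (j + 1) : ℕ) : ℝ) * ((j + 1 : ℕ) : ℝ)
      = (U.card.choose j : ℕ) * ((U.card : ℝ) - j) := by
    have h3 : ((U.card - j : ℕ) : ℝ) = (U.card : ℝ) - j := by
      rw [Nat.cast_sub (by omega)]
    rw [← h3]
    exact_mod_cast h
  push_cast at h2 ⊢
  rw [pow_succ]
  calc (2 : ℝ) ^ j * 2 * (U.card.choose (j + 1) : ℝ) * ((j : ℝ) + 1)
      = 2 ^ j * 2 * ((U.card.choose (j + 1) : ℝ) * ((j : ℝ) + 1)) := by ring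
    _ = 2 ^ j * (U.card.choose j : ℝ) * (2 * ((U.card : ℝ) - (j + 1) + 1)) := by
        rw [h2]; ring

lemma kap_pr_step (hk : 1 ≤ k) (hU : k ≤ U.card) (N : Finset Lit) :
    pr k U N ≤ (N.card : ℝ) / (2 * ((U.card : ℝ) - k + 1)) * pr (k - 1) U N := by
  unfold pr
  have h1 := kap_count (k := k) (U := U) N
  have h2 := kap_card_rel hk hU
  have h3 := Cl_card_pos (U := U) hU
  have h4 : (0 : ℝ) < (Cl (k - 1) U).card := Cl_card_pos (by omega)
  have hkU : (k : ℝ) ≤ U.card := by exact_mod_cast hU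
  have hk0 : (0 : ℝ) < k := by exact_mod_cast hk
  have h5 : (0 : ℝ) < 2 * ((U.card : ℝ) - k + 1) := by linarith
  have h6 : (k : ℝ) * (((Cl k U).filter (fun c => c ⊆ N)).card : ℝ) ≤
      (N.card : ℝ) * (((Cl (k - 1) U).filter (fun c => c ⊆ N)).card : ℝ) := by
    exact_mod_cast h1
  rw [div_mul_div_comm, div_le_div_iff₀ h3 (by positivity)]
  have h7 : 2 * ((U.card : ℝ) - k + 1) * ((Cl (k - 1) U).card : ℝ) = (Cl k U).card * k := by
    rw [h2]; ring
  rw [h7]
  calc (((Cl k U).filter (fun c => c ⊆ N)).card : ℝ) * (((Cl k U).card : ℝ) * k)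
      = ((k : ℝ) * (((Cl k U).filter (fun c => c ⊆ N)).card : ℝ)) * (Cl k U).card := by ring
    _ ≤ ((N.card : ℝ) * (((Cl (k - 1) U).filter (fun c => c ⊆ N)).card : ℝ)) * (Cl k U).card :=
        mul_le_mul_of_nonneg_right h6 h3.le

open Classical in
noncomputable def kap_dead (U : Finset ℕ) (A : St) : Finset Lit :=
  (Lits U).filter (fun l => A ∩ lit l = ∅)

lemma kap_one_sub_phi (X : St) : 1 - phi X = if X = ∅ then (1 : ℝ) else 0 := by
  rcases Set.eq_empty_or_nonempty X with h | h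
  · rw [if_pos h, h, phi_empty, sub_zero]
  · rw [if_neg (Set.nonempty_iff_ne_empty.1 h), phi_of_nonempty h, sub_self]

lemma kap_frz (A : St) : frz U A = ((kap_dead U A).card : ℝ) / (2 * (U.card : ℝ)) := by
  classical
  unfold frz kap_dead
  congr 1
  rw [Finset.sum_congr rfl (fun l _ => kap_one_sub_phi (A ∩ lit l)), Finset.sum_boole]

lemma kap_sol_empty_iff {c : Cls} (hc : c ∈ Cl k U) :
    A ∩ sol c = ∅ ↔ c ⊆ kap_dead U A := by
  classical
  unfold kap_dead
  rw [inter_sol_eq]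
  constructor
  · intro h l hl
    rw [Finset.mem_filter]
    refine ⟨(mem_Cl.1 hc).1 hl, ?_⟩
    rw [Set.eq_empty_iff_forall_notMem] at h ⊢
    intro σ hσ
    exact h σ (Set.mem_biUnion (Finset.mem_coe.2 hl) hσ)
  · intro h
    rw [Set.eq_empty_iff_forall_notMem]
    intro σ hσ
    rw [Set.mem_iUnion₂] at hσ
    obtain ⟨l, hl, hσ⟩ := hσ
    have h2 := (Finset.mem_filter.1 (h hl)).2
    rw [h2] at hσ
    exact hσ

lemma kap_eq_pr (hU : k ≤ U.card) (hA : A.Nonempty) : kap k U A = pr k U (kap_dead U A) := by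
  classical
  have hpos := Cl_card_pos (U := U) hU
  unfold kap pr
  rw [phi_of_nonempty hA, PP_apply, eq_div_iff hpos.ne', sub_mul, one_mul,
    div_mul_cancel₀ _ hpos.ne']
  have h1 : ((Cl k U).card : ℝ) = ∑ c ∈ Cl k U, (1 : ℝ) := by
    rw [Finset.sum_const, nsmul_eq_mul, mul_one]
  rw [h1, ← Finset.sum_sub_distrib, Finset.card_filter, Nat.cast_sum]
  refine Finset.sum_congr rfl fun c hc => ?_
  rw [kap_one_sub_phi]
  by_cases h : A ∩ sol c = ∅
  · rw [if_pos h, if_pos ((kap_sol_empty_iff hc).1 h), Nat.cast_one]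
  · rw [if_neg h, if_neg (fun h2 => h ((kap_sol_empty_iff hc).2 h2)), Nat.cast_zero]

lemma kap_dead_subset_bad (k : ℕ) (U : Finset ℕ) (A : St) : kap_dead U A ⊆ bad k U A := by
  classical
  intro l hl
  unfold kap_dead at hl
  rw [Finset.mem_filter] at hl
  unfold bad
  rw [Finset.mem_filter]
  refine ⟨hl.1, ?_⟩
  rw [hl.2, J_empty]
  have := J_nonneg (k := k) (U := U) A
  positivity

lemma kap_pr_mono {j : ℕ} {N N' : Finset Lit} (h : N ⊆ N') : pr j U N ≤ pr j U N' := by
  unfold pr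
  refine div_le_div_of_nonneg_right ?_ (Nat.cast_nonneg _)
  have : (Cl j U).filter (fun c => c ⊆ N) ⊆ (Cl j U).filter (fun c => c ⊆ N') := by
    intro c hc
    rw [Finset.mem_filter] at hc ⊢
    exact ⟨hc.1, hc.2.trans h⟩
  exact_mod_cast Finset.card_le_card this

lemma kap_frz_nonneg (A : St) : 0 ≤ frz U A := by
  rw [kap_frz]; positivity

/-- pointwise bound of (kill probability of a random `k`-clause) times (lifetime) -/
theorem kapJ_bound (hk : 3 ≤ k) : ∃ C : ℝ, 0 ≤ C ∧ ∀ U : Finset ℕ, 4 * k ≤ U.card →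
    ∀ A : St, kap k U A * J k U A ≤ C * frz U A * (J k U A) ^ (1 / 3 : ℝ) := by
  obtain ⟨C, hC, h⟩ := chain hk
  refine ⟨2 * C, by positivity, ?_⟩
  intro U hU A
  have hk1 : 1 ≤ k := by omega
  have hUk : k ≤ U.card := by omega
  rcases Set.eq_empty_or_nonempty A with hA | hA
  · subst hA
    rw [J_empty, mul_zero, Real.zero_rpow (by norm_num), mul_zero]
  · have h1 := (h U hU A hA).1
    have h2 := kap_pr_step hk1 hUk (kap_dead U A)
    have h3 := kap_pr_mono (j := k - 1) (U := U) (kap_dead_subset_bad k U A)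
    have hJ : 0 < J k U A := lt_of_lt_of_le one_pos (one_le_J hk1 hUk hA)
    have hn : (4 : ℝ) * k ≤ U.card := by exact_mod_cast hU
    have hk0 : (3 : ℝ) ≤ k := by exact_mod_cast hk
    have h4 : ((kap_dead U A).card : ℝ) / (2 * ((U.card : ℝ) - k + 1)) ≤ 2 * frz U A := by
      rw [kap_frz]
      have h5 : (2 : ℝ) * (((kap_dead U A).card : ℝ) / (2 * (U.card : ℝ)))
          = ((kap_dead U A).card : ℝ) / U.card := by
        field_simp
      rw [h5]
      apply div_le_div_of_nonneg_left (Nat.cast_nonneg _) (by linarith)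
      linarith
    have h6 : 0 ≤ frz U A := kap_frz_nonneg A
    have h7 : 0 ≤ pr (k - 1) U (kap_dead U A) := by
      unfold pr; positivity
    rw [kap_eq_pr hUk hA]
    calc pr k U (kap_dead U A) * J k U A
        ≤ (2 * frz U A * (C * (J k U A) ^ (-(2 / 3 : ℝ)))) * J k U A := by
          refine mul_le_mul_of_nonneg_right ?_ hJ.le
          refine h2.trans ?_
          exact mul_le_mul h4 (h3.trans h1) h7 (by positivity)
      _ = 2 * C * frz U A * ((J k U A) ^ (-(2 / 3 : ℝ)) * J k U A) := by ring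
      _ = 2 * C * frz U A * (J k U A) ^ (1 / 3 : ℝ) := by
          congr 1
          have h8 := Real.rpow_add hJ (-(2 / 3 : ℝ)) 1
          rw [Real.rpow_one] at h8
          rw [← h8]
          norm_num

end Vale.Agent.P170
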