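import Vale.Agent.P170.Api

namespace Vale.Agent.P170

open Finset

variable {k : ℕ} {U V : Finset ℕ} {A B : St}

lemma sums_psi_nonneg (A : St) : 0 ≤ psi k V A := by
  unfold psi
  exact mul_nonneg (phi_nonneg A) (Real.rpow_nonneg (J_nonneg A) _)

lemma sums_psi_empty : psi k V ∅ = 0 := by
  unfold psi
  rw [phi_empty, zero_mul]

lemma sums_tangent {x y : ℝ} (hx : 0 ≤ x) (hy : 0 < y) :
    (3 / 2) * x ^ (2 / 3 : ℝ) ≤ (1 / 2) * y ^ (2 / 3 : ℝ) + y ^ (-(1 / 3 : ℝ)) * x := by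
  have h1 := Real.geom_mean_le_arith_mean2_weighted (w₁ := 2 / 3) (w₂ := 1 / 3) (p₁ := x)
    (p₂ := y) (by norm_num) (by norm_num) hx hy.le (by norm_num)
  have h2 : 0 < y ^ (-(1 / 3 : ℝ)) := Real.rpow_pos_of_pos hy _
  have h3 : y ^ (1 / 3 : ℝ) * y ^ (-(1 / 3 : ℝ)) = 1 := by
    rw [← Real.rpow_add hy]; norm_num
  have h4 : y * y ^ (-(1 / 3 : ℝ)) = y ^ (2 / 3 : ℝ) := by
    have : y ^ (1 : ℝ) * y ^ (-(1 / 3 : ℝ)) = y ^ (2 / 3 : ℝ) := by
      rw [← Real.rpow_add hy]; norm_num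
    rwa [Real.rpow_one] at this
  have h5 := mul_le_mul_of_nonneg_right h1 h2.le
  have h6 : x ^ (2 / 3 : ℝ) * y ^ (1 / 3 : ℝ) * y ^ (-(1 / 3 : ℝ)) = x ^ (2 / 3 : ℝ) := by
    rw [mul_assoc, h3, mul_one]
  have h7 : (2 / 3 * x + 1 / 3 * y) * y ^ (-(1 / 3 : ℝ)) =
      2 / 3 * (y ^ (-(1 / 3 : ℝ)) * x) + 1 / 3 * y ^ (2 / 3 : ℝ) := by
    rw [← h4]; ring
  rw [h6, h7] at h5
  linarith

lemma sums_pow_nonneg (t : ℕ) (A : St) : 0 ≤ ((PP k V) ^ t) (psi k V) A := by
  have h := (PP_isPos k V).pow t 0 (psi k V) (fun X => sums_psi_nonneg X) A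
  rw [map_zero] at h
  exact h

lemma sums_shift (T : Module.End ℝ (St → ℝ)) (f : St → ℝ) (m : ℕ) (A : St) :
    ∑ t ∈ range (m + 1), (T ^ t) f A = f A + T (∑ t ∈ range m, (T ^ t) f) A := by
  rw [Finset.sum_range_succ']
  rw [add_comm]
  congr 1
  rw [map_sum, Finset.sum_apply]
  apply Finset.sum_congr rfl
  intro t _
  rw [pow_succ_apply]

theorem sum_psi (hk : 1 ≤ k) (hV : k ≤ V.card) (m : ℕ) (A : St) :
    ∑ t ∈ range m, ((PP k V) ^ t) (psi k V) A ≤ (3 / 2) * (J k V A) ^ (2 / 3 : ℝ) := by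
  induction m generalizing A with
  | zero =>
    simp only [range_zero, sum_empty]
    have := Real.rpow_nonneg (J_nonneg (k := k) (U := V) A) (2 / 3 : ℝ)
    linarith
  | succ m ih =>
    rw [sums_shift]
    by_cases hA : A.Nonempty
    · have hJ := one_le_J hk hV hA
      have hJ0 : 0 < J k V A := by linarith
      have h1 : PP k V (∑ t ∈ range m, ((PP k V) ^ t) (psi k V)) A ≤
          PP k V ((fun _ => (1 / 2) * (J k V A) ^ (2 / 3 : ℝ)) +
            (J k V A) ^ (-(1 / 3 : ℝ)) • J k V) A := by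
        apply PP_isPos k V
        intro X
        have h2 := ih X
        have h3 := sums_tangent (J_nonneg (k := k) (U := V) X) hJ0
        rw [Finset.sum_apply]
        simp only [Pi.add_apply, Pi.smul_apply, smul_eq_mul]
        linarith
      rw [map_add, map_smul] at h1
      have hc : PP k V (fun _ => (1 / 2) * (J k V A) ^ (2 / 3 : ℝ)) =
          fun _ => (1 / 2) * (J k V A) ^ (2 / 3 : ℝ) := Op_const (Cl_nonempty hV) _
      rw [hc] at h1
      simp only [Pi.add_apply, Pi.smul_apply, smul_eq_mul] at h1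
      have h4 := J_eq hk hV hA
      have h5 : psi k V A = (J k V A) ^ (-(1 / 3 : ℝ)) := by
        unfold psi
        rw [phi_of_nonempty hA, one_mul]
      have h6 : (J k V A) ^ (-(1 / 3 : ℝ)) * J k V A = (J k V A) ^ (2 / 3 : ℝ) := by
        have : (J k V A) ^ (-(1 / 3 : ℝ)) * (J k V A) ^ (1 : ℝ) = (J k V A) ^ (2 / 3 : ℝ) := by
          rw [← Real.rpow_add hJ0]; norm_num
        rwa [Real.rpow_one] at this
      have h7 : (J k V A) ^ (-(1 / 3 : ℝ)) * PP k V (J k V) A =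
          (J k V A) ^ (2 / 3 : ℝ) - (J k V A) ^ (-(1 / 3 : ℝ)) := by
        rw [← h6]
        have : PP k V (J k V) A = J k V A - 1 := by linarith
        rw [this]
        ring
      rw [h5]
      linarith
    · rw [Set.not_nonempty_iff_eq_empty] at hA
      subst hA
      rw [sums_psi_empty, J_empty]
      have h1 : PP k V (∑ t ∈ range m, ((PP k V) ^ t) (psi k V)) ∅ = 0 := by
        apply Op_empty
        rw [Finset.sum_apply]
        apply le_antisymm
        · have := ih ∅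
          rw [J_empty, Real.zero_rpow (by norm_num), mul_zero] at this
          exact this
        · exact Finset.sum_nonneg (fun t _ => sums_pow_nonneg t ∅)
      rw [h1, Real.zero_rpow (by norm_num)]
      norm_num

lemma sums_Tt_apply (f : St → ℝ) (A : St) :
    Tt k V f A = (1 - (k : ℝ) / ((V.card : ℝ) + 1)) * PP k V f A +
      ((k : ℝ) * ((k : ℝ) + 1) / ((V.card : ℝ) + 1)) * f A := by
  unfold Tt
  simp

lemma sums_q (hV : k ≤ V.card) :
    0 ≤ (k : ℝ) / ((V.card : ℝ) + 1) ∧ (k : ℝ) / ((V.card : ℝ) + 1) ≤ 1 := by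
  have h : (k : ℝ) ≤ V.card := by exact_mod_cast hV
  constructor
  · positivity
  · rw [div_le_one (by positivity)]
    linarith

lemma sums_Tt_isPos (hV : k ≤ V.card) : IsPos (Tt k V) := by
  obtain ⟨h0, h1⟩ := sums_q hV
  unfold Tt
  apply IsPos.add
  · exact IsPos.smul (by linarith) (PP_isPos k V)
  · exact IsPos.smul (by positivity) IsPos.one

lemma sums_Tt_pow_nonneg (hV : k ≤ V.card) (t : ℕ) (A : St) :
    0 ≤ ((Tt k V) ^ t) (psi k V) A := by
  have h := (sums_Tt_isPos hV).pow t 0 (psi k V) (fun X => sums_psi_nonneg X) A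
  rw [map_zero] at h
  exact h

theorem sum_Tt (hk : 1 ≤ k) (hV : k ≤ V.card) (m : ℕ) (A : St) :
    ∑ t ∈ range m, ((Tt k V) ^ t) (psi k V) A ≤
      (1 + (k : ℝ) * ((k : ℝ) + 1) / ((V.card : ℝ) + 1)) ^ m *
        ∑ t ∈ range m, ((PP k V) ^ t) (psi k V) A := by
  obtain ⟨q0, q1⟩ := sums_q hV
  set β : ℝ := (k : ℝ) * ((k : ℝ) + 1) / ((V.card : ℝ) + 1) with hβ
  have hβ0 : 0 ≤ β := by positivity
  induction m generalizing A with
  | zero => simp
  | succ m ih =>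
    have hK : 1 ≤ (1 + β) ^ m := one_le_pow₀ (by linarith)
    have hSm : ∑ t ∈ range m, ((PP k V) ^ t) (psi k V) A ≤
        ∑ t ∈ range (m + 1), ((PP k V) ^ t) (psi k V) A := by
      rw [Finset.sum_range_succ]
      linarith [sums_pow_nonneg (k := k) (V := V) m A]
    have hSp := sums_shift (PP k V) (psi k V) m A
    have hTp := sums_shift (Tt k V) (psi k V) m A
    rw [hTp, sums_Tt_apply, ← hβ]
    have h1 : PP k V (∑ t ∈ range m, ((Tt k V) ^ t) (psi k V)) A ≤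
        (1 + β) ^ m * PP k V (∑ t ∈ range m, ((PP k V) ^ t) (psi k V)) A := by
      have h2 : PP k V (∑ t ∈ range m, ((Tt k V) ^ t) (psi k V)) A ≤
          PP k V ((1 + β) ^ m • ∑ t ∈ range m, ((PP k V) ^ t) (psi k V)) A := by
        apply PP_isPos k V
        intro X
        have := ih X
        rw [Finset.sum_apply, Pi.smul_apply, Finset.sum_apply, smul_eq_mul]
        exact this
      rw [map_smul] at h2
      exact h2
    have h3 : 0 ≤ PP k V (∑ t ∈ range m, ((Tt k V) ^ t) (psi k V)) A := by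
      have := PP_isPos k V 0 (∑ t ∈ range m, ((Tt k V) ^ t) (psi k V)) (by
        intro X
        rw [Finset.sum_apply]
        exact Finset.sum_nonneg (fun t _ => sums_Tt_pow_nonneg hV t X)) A
      rw [map_zero] at this
      exact this
    have h4 := ih A
    have h5 : (1 - (k : ℝ) / ((V.card : ℝ) + 1)) *
        PP k V (∑ t ∈ range m, ((Tt k V) ^ t) (psi k V)) A ≤
        (1 + β) ^ m * PP k V (∑ t ∈ range m, ((PP k V) ^ t) (psi k V)) A := by
      calc _ ≤ 1 * PP k V (∑ t ∈ range m, ((Tt k V) ^ t) (psi k V)) A :=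
            mul_le_mul_of_nonneg_right (by linarith) h3
        _ ≤ _ := by rw [one_mul]; exact h1
    have h6 : β * (∑ t ∈ range m, ((Tt k V) ^ t) (psi k V)) A ≤
        β * ((1 + β) ^ m * ∑ t ∈ range (m + 1), ((PP k V) ^ t) (psi k V) A) := by
      apply mul_le_mul_of_nonneg_left _ hβ0
      rw [Finset.sum_apply]
      calc _ ≤ (1 + β) ^ m * ∑ t ∈ range m, ((PP k V) ^ t) (psi k V) A := h4
        _ ≤ _ := mul_le_mul_of_nonneg_left hSm (by positivity)
    have h7 : psi k V A ≤ (1 + β) ^ m * psi k V A := by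
      have := sums_psi_nonneg (k := k) (V := V) A
      nlinarith
    have h8 : (1 + β) ^ (m + 1) * ∑ t ∈ range (m + 1), ((PP k V) ^ t) (psi k V) A =
        (1 + β) ^ m * (psi k V A + PP k V (∑ t ∈ range m, ((PP k V) ^ t) (psi k V)) A) +
        β * ((1 + β) ^ m * ∑ t ∈ range (m + 1), ((PP k V) ^ t) (psi k V) A) := by
      rw [← hSp, pow_succ]
      ring
    rw [h8]
    linarith

theorem sum_Tt_bound (hk : 1 ≤ k) (K : ℕ) : ∃ C : ℝ, 0 ≤ C ∧ ∀ V : Finset ℕ, k ≤ V.card →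
    ∀ m : ℕ, m ≤ K * (V.card + 1) →
      ∑ t ∈ range m, ((Tt k V) ^ t) (psi k V) Set.univ ≤ C * (V.card : ℝ) ^ (2 / 3 : ℝ) := by
  refine ⟨Real.exp ((K : ℝ) * ((k : ℝ) * ((k : ℝ) + 1))) * ((3 / 2) *
    ((2 : ℝ) ^ (k + 1)) ^ (2 / 3 : ℝ)), by positivity, ?_⟩
  intro V hV m hm
  have h1 := sum_Tt hk hV m (Set.univ : St)
  have h2 := sum_psi hk hV m (Set.univ : St)
  have h3 : (1 + (k : ℝ) * ((k : ℝ) + 1) / ((V.card : ℝ) + 1)) ^ m ≤
      Real.exp ((K : ℝ) * ((k : ℝ) * ((k : ℝ) + 1))) := by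
    have h4 : (1 + (k : ℝ) * ((k : ℝ) + 1) / ((V.card : ℝ) + 1)) ≤
        Real.exp ((k : ℝ) * ((k : ℝ) + 1) / ((V.card : ℝ) + 1)) := by
      have := Real.add_one_le_exp ((k : ℝ) * ((k : ℝ) + 1) / ((V.card : ℝ) + 1))
      linarith
    calc _ ≤ (Real.exp ((k : ℝ) * ((k : ℝ) + 1) / ((V.card : ℝ) + 1))) ^ m :=
          pow_le_pow_left₀ (by positivity) h4 m
      _ = Real.exp (m * ((k : ℝ) * ((k : ℝ) + 1) / ((V.card : ℝ) + 1))) := by
          rw [Real.exp_nat_mul]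
      _ ≤ _ := by
          apply Real.exp_le_exp.mpr
          have hm' : (m : ℝ) ≤ K * ((V.card : ℝ) + 1) := by exact_mod_cast hm
          have hn : (0 : ℝ) < (V.card : ℝ) + 1 := by positivity
          rw [mul_div_assoc', div_le_iff₀ hn]
          nlinarith [show (0 : ℝ) ≤ (k : ℝ) * ((k : ℝ) + 1) by positivity]
  have h5 : (J k V Set.univ) ^ (2 / 3 : ℝ) ≤
      ((2 : ℝ) ^ (k + 1)) ^ (2 / 3 : ℝ) * (V.card : ℝ) ^ (2 / 3 : ℝ) := by
    rw [← Real.mul_rpow (by positivity) (by positivity)]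
    exact Real.rpow_le_rpow (J_nonneg _) (J_le hk hV _) (by norm_num)
  have h6 : 0 ≤ ∑ t ∈ range m, ((PP k V) ^ t) (psi k V) Set.univ :=
    Finset.sum_nonneg (fun t _ => sums_pow_nonneg t _)
  calc _ ≤ _ := h1
    _ ≤ Real.exp ((K : ℝ) * ((k : ℝ) * ((k : ℝ) + 1))) *
        ∑ t ∈ range m, ((PP k V) ^ t) (psi k V) Set.univ :=
        mul_le_mul_of_nonneg_right h3 h6
    _ ≤ Real.exp ((K : ℝ) * ((k : ℝ) * ((k : ℝ) + 1))) *
        ((3 / 2) * (((2 : ℝ) ^ (k + 1)) ^ (2 / 3 : ℝ) * (V.card : ℝ) ^ (2 / 3 : ℝ))) := by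
        apply mul_le_mul_of_nonneg_left _ (by positivity)
        linarith
    _ = _ := by ring

end Vale.Agent.P170
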