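import Vale.Agent.P170.Kap
import Vale.Agent.P170.Branch
import Vale.Agent.P170.Sums
import Vale.Agent.P170.Conc

namespace Vale.Agent.P170

open Finset

variable {k : ℕ} {U V : Finset ℕ} {A B : St}

lemma vb_sum_apply {X ι : Type*} (T : Module.End ℝ (X → ℝ)) (S : Finset ι) (f : ι → X → ℝ)
    (x : X) : T (∑ i ∈ S, f i) x = ∑ i ∈ S, T (f i) x := by
  rw [map_sum, Finset.sum_apply]

lemma vb_card_Lits (U : Finset ℕ) : (Lits U).card = 2 * U.card := by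
  unfold Lits
  rw [Finset.card_product, Finset.card_univ, Fintype.card_bool, mul_comm]

theorem sum_kapJ (hk : 3 ≤ k) (K : ℕ) : ∃ C : ℝ, 0 ≤ C ∧ ∀ U : Finset ℕ, 4 * k + 1 ≤ U.card →
    ∀ m : ℕ, m ≤ K * U.card →
      ∑ t ∈ range m, ((PP k U) ^ t) (fun X => kap k U X * J k U X) Set.univ ≤
        C * (U.card : ℝ) ^ (2 / 3 : ℝ) := by
  obtain ⟨C1, hC1, h1⟩ := kapJ_bound hk
  obtain ⟨C2, hC2, h2⟩ := branch hk
  obtain ⟨C3, hC3, h3⟩ := sum_Tt_bound (k := k) (by omega) K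
  refine ⟨C1 * (C2 * C3), by positivity, ?_⟩
  intro U hU m hm
  have hn : (0 : ℝ) < U.card := by
    have : 0 < U.card := by omega
    exact_mod_cast this
  have hpt : ∀ t : ℕ, ((PP k U) ^ t) (fun X => kap k U X * J k U X) Set.univ ≤
      (C1 / (2 * U.card)) * ∑ l ∈ Lits U,
        ((PP k U) ^ t) (fun X => (1 - phi (X ∩ lit l)) * (J k U X) ^ (1 / 3 : ℝ)) Set.univ := by
    intro t
    have ha : (fun X => kap k U X * J k U X) ≤ (C1 / (2 * U.card)) •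
        ∑ l ∈ Lits U, (fun X : St => (1 - phi (X ∩ lit l)) * (J k U X) ^ (1 / 3 : ℝ)) := by
      intro X
      refine (h1 U (by omega) X).trans (le_of_eq ?_)
      simp only [Pi.smul_apply, Finset.sum_apply, smul_eq_mul]
      rw [← Finset.sum_mul]
      unfold frz
      field_simp
    have hb := (PP_isPos k U).pow t _ _ ha Set.univ
    rw [map_smul, Pi.smul_apply, smul_eq_mul, vb_sum_apply] at hb
    exact hb
  have hlit : ∀ l ∈ Lits U, ∑ t ∈ range m,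
      ((PP k U) ^ t) (fun X => (1 - phi (X ∩ lit l)) * (J k U X) ^ (1 / 3 : ℝ)) Set.univ ≤
        C2 * C3 * (U.card : ℝ) ^ (2 / 3 : ℝ) := by
    rintro ⟨v, b⟩ hl
    have hv : v ∈ U := mem_Lits.1 hl
    have hins : insert v (U.erase v) = U := Finset.insert_erase hv
    have hcard : (U.erase v).card + 1 = U.card := Finset.card_erase_add_one hv
    have hb := h2 (U.erase v) (by omega) v (Finset.notMem_erase v U) b
    rw [hins] at hb
    have hc := h3 (U.erase v) (by omega) m (by rw [hcard]; exact hm)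
    have hd : ((U.erase v).card : ℝ) ^ (2 / 3 : ℝ) ≤ (U.card : ℝ) ^ (2 / 3 : ℝ) := by
      apply Real.rpow_le_rpow (Nat.cast_nonneg _) _ (by norm_num)
      exact_mod_cast (by omega : (U.erase v).card ≤ U.card)
    calc ∑ t ∈ range m,
        ((PP k U) ^ t) (fun X => (1 - phi (X ∩ lit (v, b))) * (J k U X) ^ (1 / 3 : ℝ)) Set.univ
        ≤ ∑ t ∈ range m, C2 * ((Tt k (U.erase v)) ^ t) (psi k (U.erase v)) Set.univ :=
          Finset.sum_le_sum fun t _ => hb t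
      _ = C2 * ∑ t ∈ range m, ((Tt k (U.erase v)) ^ t) (psi k (U.erase v)) Set.univ := by
          rw [Finset.mul_sum]
      _ ≤ C2 * (C3 * (U.card : ℝ) ^ (2 / 3 : ℝ)) :=
          mul_le_mul_of_nonneg_left (hc.trans (mul_le_mul_of_nonneg_left hd hC3)) hC2
      _ = C2 * C3 * (U.card : ℝ) ^ (2 / 3 : ℝ) := by ring
  calc ∑ t ∈ range m, ((PP k U) ^ t) (fun X => kap k U X * J k U X) Set.univ
      ≤ ∑ t ∈ range m, (C1 / (2 * U.card)) * ∑ l ∈ Lits U,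
        ((PP k U) ^ t) (fun X => (1 - phi (X ∩ lit l)) * (J k U X) ^ (1 / 3 : ℝ)) Set.univ :=
        Finset.sum_le_sum fun t _ => hpt t
    _ = (C1 / (2 * U.card)) * ∑ l ∈ Lits U, ∑ t ∈ range m,
        ((PP k U) ^ t) (fun X => (1 - phi (X ∩ lit l)) * (J k U X) ^ (1 / 3 : ℝ)) Set.univ := by
        rw [← Finset.mul_sum, Finset.sum_comm]
    _ ≤ (C1 / (2 * U.card)) * ∑ l ∈ Lits U, C2 * C3 * (U.card : ℝ) ^ (2 / 3 : ℝ) :=
        mul_le_mul_of_nonneg_left (Finset.sum_le_sum hlit) (by positivity)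
    _ = C1 * (C2 * C3) * (U.card : ℝ) ^ (2 / 3 : ℝ) := by
        rw [Finset.sum_const, vb_card_Lits, nsmul_eq_mul]
        push_cast
        field_simp

lemma vb_kap_nonneg (A : St) : 0 ≤ kap k U A := by
  unfold kap
  have h := s_succ_le (k := k) (U := U) 0 A
  rw [s_succ, s_zero] at h
  have h2 : PP k U (s k U 0) A = PP k U phi A := by
    congr 1
  linarith

lemma vb_kapJ_nonneg (A : St) : 0 ≤ kap k U A * J k U A :=
  mul_nonneg (vb_kap_nonneg A) (J_nonneg A)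

lemma vb_pow_nonneg (i : ℕ) (f : St → ℝ) (hf : ∀ X, 0 ≤ f X) (A : St) :
    0 ≤ ((PP k U) ^ i) f A := by
  have h := (PP_isPos k U).pow i (0 : St → ℝ) f (fun X => hf X)
  have h2 := h A
  rw [map_zero] at h2
  exact h2

lemma vb_DD_iter (hk : 1 ≤ k) (hU : k ≤ U.card) (i j : ℕ) (A : St) :
    ((PP k U) ^ i) (DD k U) A ≤
      2 * ∑ u ∈ range j, ((PP k U) ^ (i + u)) (fun X => kap k U X * J k U X) A +
        ((PP k U) ^ (i + j)) (DD k U) A := by
  induction j with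
  | zero => simp
  | succ j ih =>
    refine ih.trans ?_
    rw [Finset.sum_range_succ]
    have ha : DD k U ≤ (2 : ℝ) • (fun X => kap k U X * J k U X) + PP k U (DD k U) := by
      intro X
      simp only [Pi.add_apply, Pi.smul_apply, smul_eq_mul]
      exact DD_le hk hU X
    have hb := (PP_isPos k U).pow (i + j) _ _ ha A
    rw [map_add, map_smul, Pi.add_apply, Pi.smul_apply, smul_eq_mul, ← pow_succ_apply'] at hb
    rw [← add_assoc]
    linarith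

lemma vb_DD_le_phi (hk : 1 ≤ k) (hU : k ≤ U.card) :
    DD k U ≤ ((2 ^ (k + 1) * (U.card : ℝ)) ^ 2) • phi := by
  intro A
  simp only [Pi.smul_apply, smul_eq_mul]
  rcases Set.eq_empty_or_nonempty A with hA | hA
  · subst hA
    rw [conc_DD_empty, phi_empty, mul_zero]
  · rw [phi_of_nonempty hA, mul_one]
    unfold DD
    refine avg_le_of_le (by positivity) fun c _ => ?_
    have h1 := J_mono hk hU (Set.inter_subset_left : A ∩ sol c ⊆ A)
    have h2 := J_nonneg (k := k) (U := U) (A ∩ sol c)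
    have h3 := J_le hk hU A
    apply pow_le_pow_left₀ (by linarith)
    linarith

lemma vb_DD_tail (hk : 1 ≤ k) (hU : k ≤ U.card) (i j : ℕ) (A : St) :
    ((PP k U) ^ (i + j)) (DD k U) A ≤
      (2 ^ (k + 1) * (U.card : ℝ)) ^ 2 * (2 ^ U.card * (1 - 1 / 2 ^ k) ^ j) := by
  have h1 := (PP_isPos k U).pow (i + j) _ _ (vb_DD_le_phi hk hU) A
  rw [map_smul, Pi.smul_apply, smul_eq_mul] at h1
  refine h1.trans (mul_le_mul_of_nonneg_left ?_ (by positivity))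
  have h2 : s k U (i + j) A ≤ s k U j A := s_antitone A (by omega)
  exact h2.trans (s_first_moment hU j A)

lemma vb_exp_bound (n : ℕ) : (2 : ℝ) ^ n ≤ Real.exp n := by
  have h6 : (2 : ℝ) ≤ Real.exp 1 := by
    have := Real.add_one_le_exp (1 : ℝ); linarith
  calc (2 : ℝ) ^ n ≤ (Real.exp 1) ^ n := pow_le_pow_left₀ (by norm_num) h6 _
    _ = Real.exp n := by rw [← Real.exp_nat_mul, mul_one]

lemma vb_small (k n : ℕ) :
    (n : ℝ) ^ 2 * (2 ^ n * (1 - 1 / 2 ^ k) ^ (2 ^ k * (3 * n))) ≤ 1 := by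
  have h1 := q_pow_le k (3 * n)
  have h2 := vb_exp_bound n
  have h3 : (n : ℝ) ≤ Real.exp n := by
    have := Real.add_one_le_exp (n : ℝ); linarith
  have h4 : (0 : ℝ) ≤ (1 - 1 / 2 ^ k) ^ (2 ^ k * (3 * n)) := pow_nonneg (q_nonneg k) _
  calc (n : ℝ) ^ 2 * (2 ^ n * (1 - 1 / 2 ^ k) ^ (2 ^ k * (3 * n)))
      ≤ (Real.exp n) ^ 2 * (Real.exp n * Real.exp (-((3 * n : ℕ) : ℝ))) := by
        refine mul_le_mul (pow_le_pow_left₀ (Nat.cast_nonneg _) h3 2) ?_ (by positivity)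
          (by positivity)
        exact mul_le_mul h2 h1 h4 (by positivity)
    _ = 1 := by
        rw [← Real.exp_nat_mul, ← Real.exp_add, ← Real.exp_add, ← Real.exp_zero]
        congr 1
        push_cast
        ring

lemma vb_sum_DD (hk : 3 ≤ k) (K : ℕ) : ∃ C : ℝ, 0 ≤ C ∧ ∀ U : Finset ℕ, 4 * k + 1 ≤ U.card →
    ∀ t : ℕ, t ≤ K * U.card →
      ∑ i ∈ range t, ((PP k U) ^ i) (DD k U) Set.univ ≤ C * (U.card : ℝ) ^ (5 / 3 : ℝ) := by
  obtain ⟨C1, hC1, h1⟩ := sum_kapJ hk (K + 2 ^ k * 3)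
  refine ⟨(K : ℝ) * (2 * C1 + (2 ^ (k + 1)) ^ 2), by positivity, ?_⟩
  intro U hU t ht
  have hk1 : 1 ≤ k := by omega
  have hUk : k ≤ U.card := by omega
  set n := U.card with hn
  have hn1 : (1 : ℝ) ≤ n := by
    have : 1 ≤ n := by omega
    exact_mod_cast this
  have hn23 : (1 : ℝ) ≤ (n : ℝ) ^ (2 / 3 : ℝ) := Real.one_le_rpow hn1 (by norm_num)
  have hterm : ∀ i ∈ range t, ((PP k U) ^ i) (DD k U) Set.univ ≤
      (2 * C1 + (2 ^ (k + 1)) ^ 2) * (n : ℝ) ^ (2 / 3 : ℝ) := by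
    intro i hi
    have hi' := Finset.mem_range.1 hi
    have h2 := vb_DD_iter hk1 hUk i (2 ^ k * (3 * n)) Set.univ
    have h3 := vb_DD_tail hk1 hUk i (2 ^ k * (3 * n)) Set.univ
    rw [← hn] at h3
    have h4 := vb_small k n
    have h5 : ∑ u ∈ range (2 ^ k * (3 * n)),
        ((PP k U) ^ (i + u)) (fun X => kap k U X * J k U X) Set.univ ≤
        C1 * (n : ℝ) ^ (2 / 3 : ℝ) := by
      refine le_trans ?_ (h1 U hU (t + 2 ^ k * (3 * n)) ?_)
      · have h6 : ∑ u ∈ range (2 ^ k * (3 * n)),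
            ((PP k U) ^ (i + u)) (fun X => kap k U X * J k U X) Set.univ =
            ∑ w ∈ (range (2 ^ k * (3 * n))).image (fun u => i + u),
            ((PP k U) ^ w) (fun X => kap k U X * J k U X) Set.univ := by
          rw [Finset.sum_image]
          intro a _ b _ hab
          exact Nat.add_left_cancel hab
        rw [h6]
        apply Finset.sum_le_sum_of_subset_of_nonneg
        · intro w hw
          obtain ⟨u, hu, rfl⟩ := Finset.mem_image.1 hw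
          rw [Finset.mem_range] at hu ⊢
          omega
        · intro w _ _
          exact vb_pow_nonneg w _ (fun X => vb_kapJ_nonneg X) _
      · rw [← hn]
        nlinarith
    have h7 : (2 ^ (k + 1) * (n : ℝ)) ^ 2 * (2 ^ n * (1 - 1 / 2 ^ k) ^ (2 ^ k * (3 * n))) ≤
        (2 ^ (k + 1)) ^ 2 * (n : ℝ) ^ (2 / 3 : ℝ) := by
      calc (2 ^ (k + 1) * (n : ℝ)) ^ 2 * (2 ^ n * (1 - 1 / 2 ^ k) ^ (2 ^ k * (3 * n)))
          = (2 ^ (k + 1)) ^ 2 *
              ((n : ℝ) ^ 2 * (2 ^ n * (1 - 1 / 2 ^ k) ^ (2 ^ k * (3 * n)))) := by ring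
        _ ≤ (2 ^ (k + 1)) ^ 2 * (n : ℝ) ^ (2 / 3 : ℝ) :=
            mul_le_mul_of_nonneg_left (h4.trans hn23) (by positivity)
    linarith
  have htn : (t : ℝ) ≤ K * n := by exact_mod_cast ht
  have h53 : (n : ℝ) ^ (5 / 3 : ℝ) = n * (n : ℝ) ^ (2 / 3 : ℝ) := by
    rw [show (5 / 3 : ℝ) = 1 + 2 / 3 by norm_num, Real.rpow_add (by linarith), Real.rpow_one]
  calc ∑ i ∈ range t, ((PP k U) ^ i) (DD k U) Set.univ
      ≤ ∑ i ∈ range t, (2 * C1 + (2 ^ (k + 1)) ^ 2) * (n : ℝ) ^ (2 / 3 : ℝ) :=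
        Finset.sum_le_sum hterm
    _ = t * ((2 * C1 + (2 ^ (k + 1)) ^ 2) * (n : ℝ) ^ (2 / 3 : ℝ)) := by
        rw [Finset.sum_const, Finset.card_range, nsmul_eq_mul]
    _ ≤ (K * n) * ((2 * C1 + (2 ^ (k + 1)) ^ 2) * (n : ℝ) ^ (2 / 3 : ℝ)) :=
        mul_le_mul_of_nonneg_right htn (by positivity)
    _ = K * (2 * C1 + (2 ^ (k + 1)) ^ 2) * (n : ℝ) ^ (5 / 3 : ℝ) := by
        rw [h53]; ring

theorem concentration (hk : 3 ≤ k) (K : ℕ) : ∃ C : ℝ, 0 ≤ C ∧ ∃ n0 : ℕ, ∀ U : Finset ℕ,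
    n0 ≤ U.card → ∀ t : ℕ, t ≤ K * U.card →
      (M k U ≤ (t : ℝ) + 1 →
        ((t : ℝ) + 1 - M k U) ^ 2 * s k U t Set.univ ≤ C * (U.card : ℝ) ^ (5 / 3 : ℝ)) ∧
      ((t : ℝ) ≤ M k U →
        (M k U - t) ^ 2 * (1 - s k U t Set.univ) ≤ C * (U.card : ℝ) ^ (5 / 3 : ℝ)) := by
  obtain ⟨C, hC, h⟩ := vb_sum_DD hk K
  refine ⟨C, hC, 4 * k + 1, ?_⟩
  intro U hU t ht
  have h1 := h U hU t ht
  exact ⟨fun h2 => (conc_upper (by omega) (by omega) t h2).trans h1,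
    fun h2 => (conc_lower (by omega) (by omega) t h2).trans h1⟩

theorem slow (hk : 3 ≤ k) : ∃ C : ℝ, 0 ≤ C ∧ ∃ n0 : ℕ, ∀ V : Finset ℕ, n0 ≤ V.card →
    ∀ v : ℕ, v ∉ V → M k V - C * (V.card : ℝ) ^ (2 / 3 : ℝ) ≤ M k (insert v V) := by
  obtain ⟨C1, hC1, h1⟩ := branch_sat hk
  obtain ⟨C2, hC2, h2⟩ := sum_Tt_bound (k := k) (by omega) (2 ^ k)
  refine ⟨C1 * C2 + 2 ^ k, by positivity, 4 * k, ?_⟩
  intro V hV v hv
  have hk1 : 1 ≤ k := by omega
  have hVk : k ≤ V.card := by omega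
  have hWk : k ≤ (insert v V).card := by
    rw [Finset.card_insert_of_notMem hv]; omega
  set n := V.card with hn
  have hn1 : (1 : ℝ) ≤ n := by
    have : 1 ≤ n := by omega
    exact_mod_cast this
  have hn23 : (1 : ℝ) ≤ (n : ℝ) ^ (2 / 3 : ℝ) := Real.one_le_rpow hn1 (by norm_num)
  have h3 := sum_s_le_J hk1 hWk (2 ^ k * (n + 1)) Set.univ
  have h4 := J_le_add hk1 hVk (2 ^ k * (n + 1)) Set.univ
  have h5 : ∑ t ∈ range (2 ^ k * (n + 1)), (s k V t Set.univ -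
      C1 * ((Tt k V) ^ t) (psi k V) Set.univ) ≤
      ∑ t ∈ range (2 ^ k * (n + 1)), s k (insert v V) t Set.univ :=
    Finset.sum_le_sum fun t _ => h1 V hV v hv t
  rw [Finset.sum_sub_distrib, ← Finset.mul_sum] at h5
  have h6 := h2 V hVk (2 ^ k * (n + 1)) le_rfl
  rw [← hn] at h6
  have h7 : (2 : ℝ) ^ n * 2 ^ k * (1 - 1 / 2 ^ k) ^ (2 ^ k * (n + 1)) ≤ 2 ^ k := by
    have h8 := q_pow_le k (n + 1)
    have h9 := vb_exp_bound n
    calc (2 : ℝ) ^ n * 2 ^ k * (1 - 1 / 2 ^ k) ^ (2 ^ k * (n + 1))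
        ≤ Real.exp n * 2 ^ k * Real.exp (-((n + 1 : ℕ) : ℝ)) := by
          refine mul_le_mul (mul_le_mul_of_nonneg_right h9 (by positivity)) h8
            (pow_nonneg (q_nonneg k) _) (by positivity)
      _ = 2 ^ k * (Real.exp n * Real.exp (-((n + 1 : ℕ) : ℝ))) := by ring
      _ ≤ 2 ^ k * 1 := by
          refine mul_le_mul_of_nonneg_left ?_ (by positivity)
          rw [← Real.exp_add]
          apply Real.exp_le_one_iff.2
          push_cast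
          linarith
      _ = 2 ^ k := mul_one _
  have h10 : C1 * ∑ t ∈ range (2 ^ k * (n + 1)), ((Tt k V) ^ t) (psi k V) Set.univ ≤
      C1 * (C2 * (n : ℝ) ^ (2 / 3 : ℝ)) := mul_le_mul_of_nonneg_left h6 hC1
  have h11 : (2 : ℝ) ^ k ≤ 2 ^ k * (n : ℝ) ^ (2 / 3 : ℝ) :=
    le_mul_of_one_le_right (by positivity) hn23
  unfold M
  have h12 : (C1 * C2 + 2 ^ k) * (n : ℝ) ^ (2 / 3 : ℝ) =
      C1 * (C2 * (n : ℝ) ^ (2 / 3 : ℝ)) + 2 ^ k * (n : ℝ) ^ (2 / 3 : ℝ) := by ring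
  rw [h12]
  rw [← hn] at h4
  linarith

end Vale.Agent.P170
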